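import Mathlib

namespace Vale.Agent.Lib.P243

/-- Case A of the two plank inequality (normalised coordinates). -/
lemma alg_caseA (σ ν w e y yb p r p' r' α β : ℝ)
    (hw0 : 0 ≤ w) (hw1 : w ≤ 1) (he0 : 0 ≤ e) (he1 : e ≤ 1)
    (h1 : w * p = w - y) (h2 : (1 - w) * r = 1 - w - yb)
    (h3 : e * p' = e - y) (h4 : (1 - e) * r' = 1 - e - yb)
    (a1 : α ≤ σ * p) (a2 : α ≤ ν * r) (b1 : β ≤ (1 - σ) * p') (b2 : β ≤ (1 - ν) * r')
    (hA : (ν - σ) * (e - w) ≤ 0) : α + β ≤ 1 - y - yb := by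
  have f1 : w * α ≤ σ * (w - y) := by
    have := mul_le_mul_of_nonneg_left a1 hw0
    calc w * α ≤ w * (σ * p) := this
      _ = σ * (w * p) := by ring
      _ = σ * (w - y) := by rw [h1]
  have f2 : (1 - w) * α ≤ ν * (1 - w - yb) := by
    have := mul_le_mul_of_nonneg_left a2 (sub_nonneg.mpr hw1)
    calc (1 - w) * α ≤ (1 - w) * (ν * r) := this
      _ = ν * ((1 - w) * r) := by ring
      _ = ν * (1 - w - yb) := by rw [h2]
  have f3 : e * β ≤ (1 - σ) * (e - y) := by
    have := mul_le_mul_of_nonneg_left b1 he0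
    calc e * β ≤ e * ((1 - σ) * p') := this
      _ = (1 - σ) * (e * p') := by ring
      _ = (1 - σ) * (e - y) := by rw [h3]
  have f4 : (1 - e) * β ≤ (1 - ν) * (1 - e - yb) := by
    have := mul_le_mul_of_nonneg_left b2 (sub_nonneg.mpr he1)
    calc (1 - e) * β ≤ (1 - e) * ((1 - ν) * r') := this
      _ = (1 - ν) * ((1 - e) * r') := by ring
      _ = (1 - ν) * (1 - e - yb) := by rw [h4]
  nlinarith [f1, f2, f3, f4, hA]

/-- Case B of the two plank inequality: `σ < ν` and `w < e`. -/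
lemma alg_caseB (σ ν w e y yb p r p' r' α β : ℝ)
    (hσ0 : 0 ≤ σ) (hν1 : ν ≤ 1)
    (hw0 : 0 ≤ w) (he1 : e ≤ 1)
    (hy : 0 ≤ y) (hyb : 0 ≤ yb)
    (hp0 : 0 ≤ p) (hp1 : p ≤ 1) (hr0 : 0 ≤ r) (hr'0 : 0 ≤ r') (hr'1 : r' ≤ 1)
    (hp'0 : 0 ≤ p')
    (h1 : w * p = w - y) (h2 : (1 - w) * r = 1 - w - yb)
    (h3 : e * p' = e - y) (h4 : (1 - e) * r' = 1 - e - yb)
    (a1 : α ≤ σ * p) (a2 : α ≤ ν * r) (b1 : β ≤ (1 - σ) * p') (b2 : β ≤ (1 - ν) * r')
    (hσν : σ < ν) (hwe : w < e) : α + β ≤ 1 - y - yb := by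
  have he0 : 0 < e := lt_of_le_of_lt hw0 hwe
  have hw1 : 0 < 1 - w := by linarith
  -- monotonicity facts
  have hpp : p ≤ p' := by
    rcases eq_or_lt_of_le hw0 with hw | hw
    · have hy0 : y = 0 := by
        have : w * p = w - y := h1
        rw [← hw] at this
        linarith
      have : e * p' = e * 1 := by rw [h3, hy0]; ring
      have hp'1 : p' = 1 := mul_left_cancel₀ (ne_of_gt he0) this
      linarith
    · have hpos : 0 < w * e := mul_pos hw he0
      have : (w * e) * p ≤ (w * e) * p' := by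
        have e1 : (w * e) * p = e * (w - y) := by rw [← h1]; ring
        have e2 : (w * e) * p' = w * (e - y) := by rw [← h3]; ring
        rw [e1, e2]
        nlinarith
      exact le_of_mul_le_mul_left this hpos
  have hrr : r' ≤ r := by
    rcases eq_or_lt_of_le he1 with he | he
    · have hyb0 : yb = 0 := by
        have : (1 - e) * r' = 1 - e - yb := h4
        rw [he] at this
        linarith
      have : (1 - w) * r = (1 - w) * 1 := by rw [h2, hyb0]; ring
      have hr1 : r = 1 := mul_left_cancel₀ (ne_of_gt hw1) this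
      linarith
    · have he' : 0 < 1 - e := by linarith
      have hpos : 0 < (1 - w) * (1 - e) := mul_pos hw1 he'
      have : ((1 - w) * (1 - e)) * r' ≤ ((1 - w) * (1 - e)) * r := by
        have e1 : ((1 - w) * (1 - e)) * r' = (1 - w) * (1 - e - yb) := by rw [← h4]; ring
        have e2 : ((1 - w) * (1 - e)) * r = (1 - e) * (1 - w - yb) := by rw [← h2]; ring
        rw [e1, e2]
        nlinarith
      exact le_of_mul_le_mul_left this hpos
  have hY1 : 1 - y - yb = w * p + (1 - w) * r := by rw [h1, h2]; ring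
  have hY2 : 1 - y - yb = e * p' + (1 - e) * r' := by rw [h3, h4]; ring
  by_cases c1 : e < σ
  · -- w < e < σ < ν
    have hσpos : 0 < σ := lt_trans he0 c1
    have hθ0 : 0 ≤ w / σ := div_nonneg hw0 hσpos.le
    have hθ1 : w / σ ≤ 1 := by
      rw [div_le_one hσpos]; linarith
    have hα : α ≤ (w / σ) * (σ * p) + (1 - w / σ) * (ν * r) := by
      have t1 := mul_le_mul_of_nonneg_left a1 hθ0
      have t2 := mul_le_mul_of_nonneg_left a2 (sub_nonneg.mpr hθ1)
      nlinarith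
    have hθσ : (w / σ) * (σ * p) = w * p := by
      field_simp
    have hβ : β ≤ (1 - ν) * r := by
      have : (1 - ν) * r' ≤ (1 - ν) * r := mul_le_mul_of_nonneg_left hrr (sub_nonneg.mpr hν1)
      linarith
    have hkey : (1 - w / σ) * ν + (1 - ν) ≤ 1 - w := by
      have : w ≤ (w / σ) * ν := by
        have : w / σ * σ ≤ w / σ * ν := mul_le_mul_of_nonneg_left hσν.le hθ0
        have h' : w / σ * σ = w := by field_simp
        linarith
      nlinarith
    have : ((1 - w / σ) * ν + (1 - ν)) * r ≤ (1 - w) * r := mul_le_mul_of_nonneg_right hkey hr0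
    rw [hY1]
    nlinarith
  · by_cases c2 : ν < w
    · -- σ < ν < w < e
      have hνpos : 0 < 1 - ν := by linarith
      set θ := (1 - e) / (1 - ν) with hθ
      have hθ0 : 0 ≤ θ := div_nonneg (sub_nonneg.mpr he1) hνpos.le
      have hθ1 : θ ≤ 1 := by
        rw [hθ, div_le_one hνpos]; linarith
      have hβ : β ≤ (1 - θ) * ((1 - σ) * p') + θ * ((1 - ν) * r') := by
        have t1 := mul_le_mul_of_nonneg_left b1 (sub_nonneg.mpr hθ1)
        have t2 := mul_le_mul_of_nonneg_left b2 hθ0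
        nlinarith
      have hθν : θ * ((1 - ν) * r') = (1 - e) * r' := by
        rw [hθ]; field_simp
      have hα : α ≤ σ * p' := by
        have : σ * p ≤ σ * p' := mul_le_mul_of_nonneg_left hpp hσ0
        linarith
      have hkey : σ + (1 - θ) * (1 - σ) ≤ e := by
        have : (1 - e) ≤ θ * (1 - σ) := by
          have : θ * (1 - ν) ≤ θ * (1 - σ) := mul_le_mul_of_nonneg_left (by linarith) hθ0
          have h' : θ * (1 - ν) = 1 - e := by rw [hθ]; field_simp
          linarith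
        nlinarith
      have : (σ + (1 - θ) * (1 - σ)) * p' ≤ e * p' := mul_le_mul_of_nonneg_right hkey hp'0
      rw [hY2]
      nlinarith
    · -- the intervals [w,e] and [σ,ν] meet
      have c1' : σ ≤ e := not_lt.mp c1
      have c2' : w ≤ ν := not_lt.mp c2
      obtain ⟨μ, hμw, hμe, hμσ, hμν⟩ : ∃ μ : ℝ, w ≤ μ ∧ μ ≤ e ∧ σ ≤ μ ∧ μ ≤ ν := by
        refine ⟨max w σ, le_max_left _ _, max_le hwe.le c1', le_max_right _ _, max_le c2' hσν.le⟩
      have hαβ : α + β ≤ μ * p + (1 - μ) * r' := by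
        have t1 : σ * p ≤ μ * p := mul_le_mul_of_nonneg_right hμσ hp0
        have t2 : (1 - ν) * r' ≤ (1 - μ) * r' := mul_le_mul_of_nonneg_right (by linarith) hr'0
        linarith
      have hd : 0 < e - w := by linarith
      have hmain : (e - w) * (μ * p + (1 - μ) * r') ≤ (e - w) * (1 - y - yb) := by
        have s1 : (e - μ) * (w * p + (1 - w) * r') ≤ (e - μ) * (1 - y - yb) := by
          apply mul_le_mul_of_nonneg_left _ (by linarith)
          rw [hY1]
          have := mul_le_mul_of_nonneg_left hrr hw1.le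
          linarith
        have s2 : (μ - w) * (e * p + (1 - e) * r') ≤ (μ - w) * (1 - y - yb) := by
          apply mul_le_mul_of_nonneg_left _ (by linarith)
          rw [hY2]
          have := mul_le_mul_of_nonneg_left hpp he0.le
          linarith
        have i1 : (e - w) * (μ * p + (1 - μ) * r')
            = (e - μ) * (w * p + (1 - w) * r') + (μ - w) * (e * p + (1 - e) * r') := by ring
        have i2 : (e - w) * (1 - y - yb)
            = (e - μ) * (1 - y - yb) + (μ - w) * (1 - y - yb) := by ring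
        rw [i1, i2]
        exact add_le_add s1 s2
      have := le_of_mul_le_mul_left hmain hd
      linarith

/-- The two plank inequality in normalised coordinates, all four equalities present. -/
lemma alg_core (σ ν w e y yb p r p' r' α β : ℝ)
    (hσ0 : 0 ≤ σ) (hσ1 : σ ≤ 1) (hν0 : 0 ≤ ν) (hν1 : ν ≤ 1)
    (hw0 : 0 ≤ w) (hw1 : w ≤ 1) (he0 : 0 ≤ e) (he1 : e ≤ 1)
    (hy : 0 ≤ y) (hyb : 0 ≤ yb)
    (hp0 : 0 ≤ p) (hp1 : p ≤ 1) (hr0 : 0 ≤ r) (hr1 : r ≤ 1)
    (hp'0 : 0 ≤ p') (hp'1 : p' ≤ 1) (hr'0 : 0 ≤ r') (hr'1 : r' ≤ 1)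
    (h1 : w * p = w - y) (h2 : (1 - w) * r = 1 - w - yb)
    (h3 : e * p' = e - y) (h4 : (1 - e) * r' = 1 - e - yb)
    (a1 : α ≤ σ * p) (a2 : α ≤ ν * r) (b1 : β ≤ (1 - σ) * p') (b2 : β ≤ (1 - ν) * r') :
    α + β ≤ 1 - y - yb := by
  by_cases hA : (ν - σ) * (e - w) ≤ 0
  · exact alg_caseA σ ν w e y yb p r p' r' α β hw0 hw1 he0 he1 h1 h2 h3 h4 a1 a2 b1 b2 hA
  · have hA' : 0 < (ν - σ) * (e - w) := not_le.mp hA
    rcases lt_trichotomy σ ν with hlt | heq | hgt
    · have hwe : w < e := by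
        have : 0 < ν - σ := by linarith
        have := (mul_pos_iff_of_pos_left this).mp hA'
        linarith
      exact alg_caseB σ ν w e y yb p r p' r' α β hσ0 hν1 hw0 he1 hy hyb hp0 hp1 hr0 hr'0 hr'1
        hp'0 h1 h2 h3 h4 a1 a2 b1 b2 hlt hwe
    · rw [heq] at hA'; simp at hA'
    · have hwe : e < w := by
        by_contra hcon
        have h1' : 0 ≤ e - w := by linarith
        have h2' : ν - σ ≤ 0 := by linarith
        have := mul_nonpos_of_nonpos_of_nonneg h2' h1'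
        linarith
      have := alg_caseB (1 - σ) (1 - ν) e w y yb p' r' p r β α (by linarith) (by linarith)
        he0 hw1 hy hyb hp'0 hp'1 hr'0 hr0 hr1 hp0 h3 h4 h1 h2
        (by simpa using b1) (by simpa using b2) (by simpa using a1) (by simpa using a2)
        (by linarith) hwe
      linarith

/-- One sided estimate. -/
lemma alg_one (σ ν e y yb l3 l4 β : ℝ)
    (hσ0 : 0 ≤ σ) (hν0 : 0 ≤ ν) (he0 : 0 ≤ e) (he1 : e ≤ 1)
    (hl3 : l3 ≤ 1) (hl4 : l4 ≤ 1)
    (c3 : l3 * e = y) (c4 : l4 * (1 - e) = yb)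
    (b1 : β ≤ (1 - σ) * (1 - l3)) (b2 : β ≤ (1 - ν) * (1 - l4)) : β ≤ 1 - y - yb := by
  have b1' : β ≤ 1 - l3 := by nlinarith
  have b2' : β ≤ 1 - l4 := by nlinarith
  have f1 := mul_le_mul_of_nonneg_left b1' he0
  have f2 := mul_le_mul_of_nonneg_left b2' (sub_nonneg.mpr he1)
  nlinarith

/-- The two plank inequality in normalised coordinates, with truncation parameters. -/
lemma alg_lam (σ ν w e y yb l1 l2 l3 l4 α β : ℝ)
    (hσ0 : 0 ≤ σ) (hσ1 : σ ≤ 1) (hν0 : 0 ≤ ν) (hν1 : ν ≤ 1)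
    (hw0 : 0 ≤ w) (hw1 : w ≤ 1) (he0 : 0 ≤ e) (he1 : e ≤ 1)
    (hy : 0 ≤ y) (hyb : 0 ≤ yb) (hsum : y + yb ≤ 1)
    (h10 : 0 ≤ l1) (h11 : l1 ≤ 1) (h20 : 0 ≤ l2) (h21 : l2 ≤ 1)
    (h30 : 0 ≤ l3) (h31 : l3 ≤ 1) (h40 : 0 ≤ l4) (h41 : l4 ≤ 1)
    (c1 : l1 = 1 ∨ l1 * w = y) (c2 : l2 = 1 ∨ l2 * (1 - w) = yb)
    (c3 : l3 = 1 ∨ l3 * e = y) (c4 : l4 = 1 ∨ l4 * (1 - e) = yb)
    (a1 : α ≤ σ * (1 - l1)) (a2 : α ≤ ν * (1 - l2))
    (b1 : β ≤ (1 - σ) * (1 - l3)) (b2 : β ≤ (1 - ν) * (1 - l4)) :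
    α + β ≤ 1 - y - yb := by
  have hα : α ≤ 0 ∨ (l1 * w = y ∧ l2 * (1 - w) = yb) := by
    rcases c1 with c1 | c1
    · left; rw [c1] at a1; simpa using a1
    · rcases c2 with c2 | c2
      · left; rw [c2] at a2; simpa using a2
      · right; exact ⟨c1, c2⟩
  have hβ : β ≤ 0 ∨ (l3 * e = y ∧ l4 * (1 - e) = yb) := by
    rcases c3 with c3 | c3
    · left; rw [c3] at b1; simpa using b1
    · rcases c4 with c4 | c4
      · left; rw [c4] at b2; simpa using b2
      · right; exact ⟨c3, c4⟩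
  rcases hα with hα | ⟨d1, d2⟩
  · rcases hβ with hβ | ⟨d3, d4⟩
    · linarith
    · have := alg_one σ ν e y yb l3 l4 β hσ0 hν0 he0 he1 h31 h41 d3 d4 b1 b2
      linarith
  · rcases hβ with hβ | ⟨d3, d4⟩
    · have := alg_one (1 - σ) (1 - ν) w y yb l1 l2 α (by linarith) (by linarith) hw0 hw1 h11 h21
        d1 d2 (by simpa using a1) (by simpa using a2)
      linarith
    · exact alg_core σ ν w e y yb (1 - l1) (1 - l2) (1 - l3) (1 - l4) α β hσ0 hσ1 hν0 hν1
        hw0 hw1 he0 he1 hy hyb (by linarith) (by linarith) (by linarith) (by linarith)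
        (by linarith) (by linarith) (by linarith) (by linarith)
        (by rw [← d1]; ring) (by rw [← d2]; ring) (by rw [← d3]; ring) (by rw [← d4]; ring)
        a1 a2 b1 b2

end Vale.Agent.Lib.P243
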