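import Mathlib

/-!
Planar Brunn-Minkowski inequality for compact convex sets (Bonnesen's proof by
sections over a common parametrisation of the first projections).
-/

open MeasureTheory Set

namespace Vale.Agent.Lib.P243

/-- Affine substitution for the Lebesgue lower integral on the line. -/
lemma lintegral_affine {f : ℝ → ENNReal} (hf : Measurable f) (s0 : ℝ) {w : ℝ} (hw : 0 < w) :
    ∫⁻ x, f x = ENNReal.ofReal w * ∫⁻ s, f (s0 + s * w) := by
  have h1 : Measure.map (fun s : ℝ => s * w) volume = ENNReal.ofReal |w⁻¹| • volume :=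
    Real.map_volume_mul_right hw.ne'
  have hm : Measurable (fun y : ℝ => f (s0 + y)) := hf.comp (measurable_const_add s0)
  have h2 : ∫⁻ s, f (s0 + s * w)
      = ∫⁻ y, f (s0 + y) ∂(Measure.map (fun s : ℝ => s * w) volume) :=
    (lintegral_map hm (measurable_mul_const w)).symm
  rw [h2, h1, lintegral_smul_measure, lintegral_add_left_eq_self, smul_eq_mul, ← mul_assoc,
    ← ENNReal.ofReal_mul hw.le, abs_of_pos (inv_pos.mpr hw), mul_inv_cancel₀ hw.ne']
  simp

/-- Volume of a measurable planar set as the integral of its vertical sections. -/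
lemma vol_eq_sections {S : Set (ℝ × ℝ)} (hS : MeasurableSet S) :
    volume S = ∫⁻ x, volume (Prod.mk x ⁻¹' S) := by
  rw [Measure.volume_eq_prod, Measure.prod_apply hS]

lemma measurable_sections {S : Set (ℝ × ℝ)} (hS : MeasurableSet S) :
    Measurable (fun x : ℝ => (volume : Measure ℝ) (Prod.mk x ⁻¹' S)) :=
  measurable_measure_prodMk_left hS

lemma param_le_vol {S : Set (ℝ × ℝ)} (hS : MeasurableSet S) (s0 : ℝ) {w : ℝ} (hw : 0 ≤ w) :
    ENNReal.ofReal w * ∫⁻ s in Icc (0:ℝ) 1, volume (Prod.mk (s0 + s * w) ⁻¹' S) ≤ volume S := by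
  rcases hw.eq_or_lt with rfl | hw
  · simp
  · rw [vol_eq_sections hS, lintegral_affine (measurable_sections hS) s0 hw]
    exact mul_le_mul_right (setLIntegral_le_lintegral _ _) _

lemma vol_le_param {S : Set (ℝ × ℝ)} (hS : MeasurableSet S) {s0 w : ℝ} (hw : 0 ≤ w)
    (hsupp : ∀ p ∈ S, p.1 ∈ Icc s0 (s0 + w)) :
    volume S ≤ ENNReal.ofReal w * ∫⁻ s in Icc (0:ℝ) 1, volume (Prod.mk (s0 + s * w) ⁻¹' S) := by
  rcases hw.eq_or_lt with rfl | hw
  · have hsub : S ⊆ ({s0} : Set ℝ) ×ˢ (univ : Set ℝ) := by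
      intro p hp
      have := hsupp p hp
      simp only [add_zero, Icc_self, mem_singleton_iff] at this
      simp [this]
    have h0 : volume (({s0} : Set ℝ) ×ˢ (univ : Set ℝ)) = 0 := by
      rw [Measure.volume_eq_prod, Measure.prod_prod]
      simp
    exact (measure_mono hsub).trans (by rw [h0]; exact zero_le)
  · rw [vol_eq_sections hS, lintegral_affine (measurable_sections hS) s0 hw]
    refine mul_le_mul_right ?_ _
    rw [← lintegral_indicator measurableSet_Icc]
    apply lintegral_mono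
    intro s
    by_cases hs : s ∈ Icc (0:ℝ) 1
    · simp [indicator_of_mem hs]
    · have hempty : Prod.mk (s0 + s * w) ⁻¹' S = ∅ := by
        ext y
        simp only [mem_preimage, mem_empty_iff_false, iff_false]
        intro hy
        have h := hsupp _ hy
        simp only [mem_Icc] at h
        apply hs
        constructor
        · by_contra hneg
          push Not at hneg
          nlinarith [mul_neg_of_neg_of_pos hneg hw]
        · by_contra hneg
          push Not at hneg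
          nlinarith
      simp [hempty]

lemma section_compact {S : Set (ℝ × ℝ)} (hS : IsCompact S) (x : ℝ) :
    IsCompact (Prod.mk x ⁻¹' S) := by
  refine IsCompact.of_isClosed_subset (hS.image continuous_snd)
    (hS.isClosed.preimage (by fun_prop)) ?_
  intro y hy
  exact ⟨(x, y), hy, rfl⟩

/-- Sections of the combination contain the combination of the sections. -/
lemma sec_ineq {A B C : Set (ℝ × ℝ)} (hA : IsCompact A) (hAc : Convex ℝ A)
    (hB : IsCompact B) (hBc : Convex ℝ B) {t : ℝ} (ht0 : 0 ≤ t) (ht1 : t ≤ 1)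
    (hsub : ∀ a ∈ A, ∀ b ∈ B, (1 - t) • a + t • b ∈ C) {x x' : ℝ}
    (hx : (Prod.mk x ⁻¹' A).Nonempty) (hx' : (Prod.mk x' ⁻¹' B).Nonempty) :
    ENNReal.ofReal (1 - t) * volume (Prod.mk x ⁻¹' A)
        + ENNReal.ofReal t * volume (Prod.mk x' ⁻¹' B)
      ≤ volume (Prod.mk ((1 - t) * x + t * x') ⁻¹' C) := by
  have h1t : 0 ≤ 1 - t := sub_nonneg.mpr ht1
  obtain ⟨α0, hα0m, hα0⟩ := (section_compact hA x).exists_isLeast hx
  obtain ⟨α1, hα1m, hα1⟩ := (section_compact hA x).exists_isGreatest hx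
  obtain ⟨β0, hβ0m, hβ0⟩ := (section_compact hB x').exists_isLeast hx'
  obtain ⟨β1, hβ1m, hβ1⟩ := (section_compact hB x').exists_isGreatest hx'
  have hαle : α0 ≤ α1 := hα0 hα1m
  have hβle : β0 ≤ β1 := hβ0 hβ1m
  have hAle : volume (Prod.mk x ⁻¹' A) ≤ ENNReal.ofReal (α1 - α0) := by
    rw [← Real.volume_Icc]
    exact measure_mono (fun y hy => ⟨hα0 hy, hα1 hy⟩)
  have hBle : volume (Prod.mk x' ⁻¹' B) ≤ ENNReal.ofReal (β1 - β0) := by
    rw [← Real.volume_Icc]
    exact measure_mono (fun y hy => ⟨hβ0 hy, hβ1 hy⟩)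
  have hIcc : Icc ((1 - t) * α0 + t * β0) ((1 - t) * α1 + t * β1)
      ⊆ Prod.mk ((1 - t) * x + t * x') ⁻¹' C := by
    intro y hy
    have hle : (1 - t) * α0 + t * β0 ≤ (1 - t) * α1 + t * β1 := hy.1.trans hy.2
    rw [← segment_eq_Icc hle] at hy
    obtain ⟨p, q, hp, hq, hpq, rfl⟩ := hy
    have hu : (x, p * α0 + q * α1) ∈ A := by
      have h := hAc hα0m hα1m hp hq hpq
      have he : p • (x, α0) + q • (x, α1) = (x, p * α0 + q * α1) := by
        ext
        · simp only [Prod.smul_mk, Prod.mk_add_mk, smul_eq_mul]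
          rw [← add_mul, hpq, one_mul]
        · simp
      rwa [he] at h
    have hv : (x', p * β0 + q * β1) ∈ B := by
      have h := hBc hβ0m hβ1m hp hq hpq
      have he : p • (x', β0) + q • (x', β1) = (x', p * β0 + q * β1) := by
        ext
        · simp only [Prod.smul_mk, Prod.mk_add_mk, smul_eq_mul]
          rw [← add_mul, hpq, one_mul]
        · simp
      rwa [he] at h
    have h := hsub _ hu _ hv
    have he : (1 - t) • (x, p * α0 + q * α1) + t • (x', p * β0 + q * β1)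
        = ((1 - t) * x + t * x',
            p • ((1 - t) * α0 + t * β0) + q • ((1 - t) * α1 + t * β1)) := by
      ext
      · simp
      · simp only [Prod.smul_mk, Prod.mk_add_mk, smul_eq_mul]
        ring
    rw [he] at h
    exact h
  calc ENNReal.ofReal (1 - t) * volume (Prod.mk x ⁻¹' A)
        + ENNReal.ofReal t * volume (Prod.mk x' ⁻¹' B)
      ≤ ENNReal.ofReal (1 - t) * ENNReal.ofReal (α1 - α0)
        + ENNReal.ofReal t * ENNReal.ofReal (β1 - β0) := by gcongr
    _ = ENNReal.ofReal ((1 - t) * (α1 - α0) + t * (β1 - β0)) := by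
        rw [ENNReal.ofReal_add (mul_nonneg h1t (sub_nonneg.mpr hαle))
          (mul_nonneg ht0 (sub_nonneg.mpr hβle)), ENNReal.ofReal_mul h1t, ENNReal.ofReal_mul ht0]
    _ = volume (Icc ((1 - t) * α0 + t * β0) ((1 - t) * α1 + t * β1)) := by
        rw [Real.volume_Icc]
        congr 1
        ring
    _ ≤ _ := measure_mono hIcc

/-- The parametrised section integral of a compact set is finite. -/
lemma param_lt_top {S : Set (ℝ × ℝ)} (hS : IsCompact S) (s0 w : ℝ) :
    ∫⁻ s in Icc (0:ℝ) 1, volume (Prod.mk (s0 + s * w) ⁻¹' S) < ⊤ := by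
  have hfin : volume (Prod.snd '' S) < ⊤ := (hS.image continuous_snd).measure_lt_top
  calc ∫⁻ s in Icc (0:ℝ) 1, volume (Prod.mk (s0 + s * w) ⁻¹' S)
      ≤ ∫⁻ _s in Icc (0:ℝ) 1, volume (Prod.snd '' S) := by
        apply lintegral_mono
        intro s
        exact measure_mono (fun y hy => ⟨(s0 + s * w, y), hy, rfl⟩)
    _ = volume (Prod.snd '' S) := by simp
    _ < ⊤ := hfin

/-- Extremes of the first projection, with nonempty sections in between. -/
lemma proj_data {S : Set (ℝ × ℝ)} (hS : IsCompact S) (hSc : Convex ℝ S) (hSn : S.Nonempty) :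
    ∃ s0 w : ℝ, 0 ≤ w ∧ (∀ p ∈ S, p.1 ∈ Icc s0 (s0 + w)) ∧
      ∀ s ∈ Icc (0:ℝ) 1, (Prod.mk (s0 + s * w) ⁻¹' S).Nonempty := by
  have hP : IsCompact (Prod.fst '' S) := hS.image continuous_fst
  obtain ⟨a0, ⟨p0, hp0, hp0a⟩, ha0⟩ := hP.exists_isLeast (hSn.image _)
  obtain ⟨a1, ⟨p1, hp1, hp1a⟩, ha1⟩ := hP.exists_isGreatest (hSn.image _)
  refine ⟨a0, a1 - a0, sub_nonneg.mpr (ha0 ⟨p1, hp1, hp1a⟩), ?_, ?_⟩
  · intro p hp
    refine ⟨ha0 ⟨p, hp, rfl⟩, ?_⟩
    have := ha1 ⟨p, hp, rfl⟩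
    linarith
  · intro s hs
    have h := hSc hp0 hp1 (sub_nonneg.mpr hs.2) hs.1 (by ring)
    refine ⟨((1 - s) • p0 + s • p1).2, ?_⟩
    have he : (a0 + s * (a1 - a0), ((1 - s) • p0 + s • p1).2) = (1 - s) • p0 + s • p1 := by
      ext
      · simp only [Prod.fst_add, Prod.smul_fst, smul_eq_mul, hp0a, hp1a]
        ring
      · rfl
    show (a0 + s * (a1 - a0), ((1 - s) • p0 + s • p1).2) ∈ S
    rw [he]
    exact h

/-- Cauchy-Schwarz in the form needed. -/
lemma cs_real {t wA wB jA jB : ℝ} (ht0 : 0 ≤ t) (ht1 : t ≤ 1) (hwA : 0 ≤ wA) (hwB : 0 ≤ wB)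
    (hjA : 0 ≤ jA) (hjB : 0 ≤ jB) :
    (1 - t) * √(wA * jA) + t * √(wB * jB)
      ≤ √(((1 - t) * wA + t * wB) * ((1 - t) * jA + t * jB)) := by
  have h1t : 0 ≤ 1 - t := sub_nonneg.mpr ht1
  rw [Real.sqrt_mul hwA, Real.sqrt_mul hwB]
  set u := √wA with hu
  set v := √jA with hv
  set u' := √wB with hu'
  set v' := √jB with hv'
  have e1 : wA = u ^ 2 := (Real.sq_sqrt hwA).symm
  have e2 : jA = v ^ 2 := (Real.sq_sqrt hjA).symm
  have e3 : wB = u' ^ 2 := (Real.sq_sqrt hwB).symm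
  have e4 : jB = v' ^ 2 := (Real.sq_sqrt hjB).symm
  have hu0 : 0 ≤ u := Real.sqrt_nonneg _
  have hv0 : 0 ≤ v := Real.sqrt_nonneg _
  have hu0' : 0 ≤ u' := Real.sqrt_nonneg _
  have hv0' : 0 ≤ v' := Real.sqrt_nonneg _
  rw [e1, e2, e3, e4]
  apply Real.le_sqrt_of_sq_le
  nlinarith [mul_nonneg (mul_nonneg h1t ht0) (sq_nonneg (u * v' - u' * v))]

/-- Planar Brunn-Minkowski inequality for compact convex sets. -/
theorem bm_planar {A B C : Set (ℝ × ℝ)} (hA : IsCompact A) (hAc : Convex ℝ A) (hAn : A.Nonempty)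
    (hB : IsCompact B) (hBc : Convex ℝ B) (hBn : B.Nonempty) (hC : IsCompact C) {t : ℝ}
    (ht0 : 0 ≤ t) (ht1 : t ≤ 1) (hsub : ∀ a ∈ A, ∀ b ∈ B, (1 - t) • a + t • b ∈ C) :
    (1 - t) * √(volume A).toReal + t * √(volume B).toReal ≤ √(volume C).toReal := by
  have h1t : 0 ≤ 1 - t := sub_nonneg.mpr ht1
  obtain ⟨a0, wA, hwA, hsuppA, hneA⟩ := proj_data hA hAc hAn
  obtain ⟨g0, wB, hwB, hsuppB, hneB⟩ := proj_data hB hBc hBn
  set JA := ∫⁻ s in Icc (0:ℝ) 1, volume (Prod.mk (a0 + s * wA) ⁻¹' A) with hJA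
  set JB := ∫⁻ s in Icc (0:ℝ) 1, volume (Prod.mk (g0 + s * wB) ⁻¹' B) with hJB
  set JC := ∫⁻ s in Icc (0:ℝ) 1,
    volume (Prod.mk (((1 - t) * a0 + t * g0) + s * ((1 - t) * wA + t * wB)) ⁻¹' C) with hJC
  have hwC : 0 ≤ (1 - t) * wA + t * wB := add_nonneg (mul_nonneg h1t hwA) (mul_nonneg ht0 hwB)
  have E1 : volume A ≤ ENNReal.ofReal wA * JA := vol_le_param hA.measurableSet hwA hsuppA
  have E2 : volume B ≤ ENNReal.ofReal wB * JB := vol_le_param hB.measurableSet hwB hsuppB
  have E3 : ENNReal.ofReal ((1 - t) * wA + t * wB) * JC ≤ volume C :=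
    param_le_vol hC.measurableSet _ hwC
  have mA : Measurable (fun s : ℝ => (volume : Measure ℝ) (Prod.mk (a0 + s * wA) ⁻¹' A)) :=
    (measurable_sections hA.measurableSet).comp (by fun_prop)
  have mB : Measurable (fun s : ℝ => (volume : Measure ℝ) (Prod.mk (g0 + s * wB) ⁻¹' B)) :=
    (measurable_sections hB.measurableSet).comp (by fun_prop)
  have E4 : ENNReal.ofReal (1 - t) * JA + ENNReal.ofReal t * JB ≤ JC := by
    rw [hJA, hJB, hJC, ← lintegral_const_mul _ mA, ← lintegral_const_mul _ mB,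
      ← lintegral_add_left (mA.const_mul _)]
    apply setLIntegral_mono' measurableSet_Icc
    intro s hs
    have h := sec_ineq hA hAc hB hBc ht0 ht1 hsub (hneA s hs) (hneB s hs)
    have he : (1 - t) * (a0 + s * wA) + t * (g0 + s * wB)
        = ((1 - t) * a0 + t * g0) + s * ((1 - t) * wA + t * wB) := by ring
    rw [he] at h
    exact h
  have fA : JA ≠ ⊤ := (param_lt_top hA a0 wA).ne
  have fB : JB ≠ ⊤ := (param_lt_top hB g0 wB).ne
  have fC : volume C ≠ ⊤ := hC.measure_lt_top.ne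
  have rA : (volume A).toReal ≤ wA * JA.toReal := by
    have h := ENNReal.toReal_mono (ENNReal.mul_ne_top ENNReal.ofReal_ne_top fA) E1
    rwa [ENNReal.toReal_mul, ENNReal.toReal_ofReal hwA] at h
  have rB : (volume B).toReal ≤ wB * JB.toReal := by
    have h := ENNReal.toReal_mono (ENNReal.mul_ne_top ENNReal.ofReal_ne_top fB) E2
    rwa [ENNReal.toReal_mul, ENNReal.toReal_ofReal hwB] at h
  have rC : ((1 - t) * wA + t * wB) * ((1 - t) * JA.toReal + t * JB.toReal)
      ≤ (volume C).toReal := by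
    have h5 : ENNReal.ofReal ((1 - t) * wA + t * wB)
        * (ENNReal.ofReal (1 - t) * JA + ENNReal.ofReal t * JB) ≤ volume C :=
      (mul_le_mul_right E4 _).trans E3
    have h := ENNReal.toReal_mono fC h5
    rwa [ENNReal.toReal_mul, ENNReal.toReal_ofReal hwC,
      ENNReal.toReal_add (ENNReal.mul_ne_top ENNReal.ofReal_ne_top fA)
        (ENNReal.mul_ne_top ENNReal.ofReal_ne_top fB),
      ENNReal.toReal_mul, ENNReal.toReal_mul, ENNReal.toReal_ofReal h1t,
      ENNReal.toReal_ofReal ht0] at h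
  calc (1 - t) * √(volume A).toReal + t * √(volume B).toReal
      ≤ (1 - t) * √(wA * JA.toReal) + t * √(wB * JB.toReal) := by
        gcongr
    _ ≤ √(((1 - t) * wA + t * wB) * ((1 - t) * JA.toReal + t * JB.toReal)) :=
        cs_real ht0 ht1 hwA hwB ENNReal.toReal_nonneg ENNReal.toReal_nonneg
    _ ≤ √(volume C).toReal := Real.sqrt_le_sqrt rC

end Vale.Agent.Lib.P243
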