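import Mathlib

open Set

namespace Vale.Agent.Lib.P243

variable {F : Type*} [NormedAddCommGroup F] [InnerProductSpace ℝ F]

/-- Bang's lemma: a sign choice whose signed sum avoids all open planks. -/
lemma bang_signs {J : Type*} [Fintype J] (u : J → F) (hu : ∀ j, ‖u j‖ = 1)
    (w c : J → ℝ) (hw : ∀ j, 0 < w j) :
    ∃ ε : J → ℝ, (∀ j, ε j = 1 ∨ ε j = -1) ∧
      ∀ k, w k ≤ |inner ℝ (∑ j, (ε j * w j) • u j) (u k) - c k| := by
  classical
  set S : Finset (J → ℝ) := Fintype.piFinset (fun _ => ({1, -1} : Finset ℝ)) with hS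
  have hSne : S.Nonempty := ⟨fun _ => 1, by simp [hS, Fintype.mem_piFinset]⟩
  set Φ : (J → ℝ) → ℝ :=
    fun ε => ‖∑ j, (ε j * w j) • u j‖ ^ 2 - 2 * ∑ j, ε j * w j * c j with hΦ
  obtain ⟨ε, hεS, hmax⟩ := S.exists_max_image Φ hSne
  have hε : ∀ j, ε j = 1 ∨ ε j = -1 := by
    intro j
    have := Fintype.mem_piFinset.1 hεS j
    simpa using this
  refine ⟨ε, hε, fun k => ?_⟩
  set ε' : J → ℝ := fun j => ε j - (if j = k then 2 * ε k else 0) with hε'
  have hε'S : ε' ∈ S := by
    rw [hS, Fintype.mem_piFinset]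
    intro j
    by_cases hj : j = k
    · subst hj
      rcases hε j with h | h <;> simp [hε', h] <;> norm_num
    · rcases hε j with h | h <;> simp [hε', hj, h]
  have h := hmax ε' hε'S
  have e1 : ∑ j, (ε' j * w j) • u j = ∑ j, (ε j * w j) • u j - (2 * (ε k * w k)) • u k := by
    have : ∀ j, (ε' j * w j) • u j
        = (ε j * w j) • u j - (if j = k then (2 * (ε k * w k)) • u k else 0) := by
      intro j
      by_cases hj : j = k
      · subst hj
        simp only [hε', if_true]
        rw [← sub_smul]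
        congr 1
        ring
      · simp [hε', hj]
    simp only [this, Finset.sum_sub_distrib, Finset.sum_ite_eq', Finset.mem_univ, if_true]
  have e2 : ∑ j, ε' j * w j * c j = ∑ j, ε j * w j * c j - 2 * (ε k * w k) * c k := by
    have : ∀ j, ε' j * w j * c j
        = ε j * w j * c j - (if j = k then 2 * (ε k * w k) * c k else 0) := by
      intro j
      by_cases hj : j = k
      · subst hj
        simp only [hε', if_true]
        ring
      · simp [hε', hj]
    simp only [this, Finset.sum_sub_distrib, Finset.sum_ite_eq', Finset.mem_univ, if_true]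
  set p := ∑ j, (ε j * w j) • u j with hp
  set a := ε k * w k with ha
  have e3 : ‖p - (2 * a) • u k‖ ^ 2 = ‖p‖ ^ 2 - 4 * a * inner ℝ p (u k) + 4 * a ^ 2 := by
    rw [norm_sub_sq_real, inner_smul_right, norm_smul, hu k, mul_one, Real.norm_eq_abs, sq_abs]
    ring
  simp only [hΦ] at h
  rw [e1, e2, e3] at h
  have ha2 : a ^ 2 = w k ^ 2 := by
    rcases hε k with h1 | h1 <;> simp [ha, h1]
  have key : w k ^ 2 ≤ a * (inner ℝ p (u k) - c k) := by nlinarith
  have hwk := hw k
  rcases hε k with h1 | h1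
  · have : a = w k := by simp [ha, h1]
    rw [this] at key
    have : w k ≤ inner ℝ p (u k) - c k := by nlinarith
    exact this.trans (le_abs_self _)
  · have : a = - w k := by simp [ha, h1]
    rw [this] at key
    have : w k ≤ -(inner ℝ p (u k) - c k) := by nlinarith
    exact this.trans (neg_le_abs _)

/-- `X` has width at least `W` in every direction. -/
def Wide (X : Set F) (W : ℝ) : Prop :=
  ∀ m : F, ‖m‖ = 1 → ∃ x ∈ X, ∃ y ∈ X, W ≤ inner ℝ (x - y) m

lemma chord_exists [CompleteSpace F] {X : Set F} (hX : Convex ℝ X) (hc : IsCompact X)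
    (hne : X.Nonempty) {W : ℝ} (hW : 0 ≤ W) (hwide : Wide X W) (u : F) (hu : ‖u‖ = 1) :
    ∃ p ∈ X, p + W • u ∈ X := by
  by_contra hcon
  push_neg at hcon
  set Y : Set F := (fun x => W • u + x) '' X with hY
  have hYc : IsCompact Y := hc.image (by fun_prop)
  have hYconv : Convex ℝ Y := hX.translate (W • u)
  have hdisj : Disjoint X Y := by
    rw [Set.disjoint_left]
    rintro x hx ⟨p, hp, rfl⟩
    apply hcon p hp
    rw [add_comm]
    exact hx
  obtain ⟨f, a, b, hfa, hab, hfb⟩ :=
    geometric_hahn_banach_compact_closed hX hc hYconv hYc.isClosed hdisj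
  set z := (InnerProductSpace.toDual ℝ F).symm f with hz
  have hfz : ∀ x, f x = inner ℝ z x := fun x => (InnerProductSpace.toDual_symm_apply).symm
  have key : ∀ x ∈ X, ∀ y ∈ X, f (x - y) < W * f u := by
    intro x hx y hy
    have h1 := hfa x hx
    have h2 := hfb (W • u + y) ⟨y, hy, rfl⟩
    rw [map_add, map_smul, smul_eq_mul] at h2
    rw [map_sub]
    linarith
  have hz0 : z ≠ 0 := by
    intro h0
    obtain ⟨x, hx⟩ := hne
    have := key x hx x hx
    simp [hfz, h0] at this
  have hzpos : 0 < ‖z‖ := norm_pos_iff.2 hz0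
  set m := (‖z‖⁻¹) • z with hm
  have hm1 : ‖m‖ = 1 := by
    rw [hm, norm_smul, norm_inv, norm_norm, inv_mul_cancel₀ hzpos.ne']
  obtain ⟨x, hx, y, hy, hxy⟩ := hwide m hm1
  have h1 := key x hx y hy
  have h2 : f u ≤ ‖z‖ := by
    rw [hfz]
    have := real_inner_le_norm z u
    rw [hu, mul_one] at this
    exact this
  have h3 : inner ℝ (x - y) m = ‖z‖⁻¹ * f (x - y) := by
    rw [hm, inner_smul_right, hfz, real_inner_comm]
  rw [h3] at hxy
  have h4 : W * f u ≤ W * ‖z‖ := mul_le_mul_of_nonneg_left h2 hW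
  have h5 : ‖z‖⁻¹ * f (x - y) < ‖z‖⁻¹ * (W * ‖z‖) :=
    mul_lt_mul_of_pos_left (lt_of_lt_of_le h1 h4) (inv_pos.2 hzpos)
  have h6 : ‖z‖⁻¹ * (W * ‖z‖) = W := by
    field_simp
  linarith

/-- the set of points whose two translates by `± a` stay in `X`. -/
def shrinkSet (X : Set F) (a : F) : Set F := {y | y - a ∈ X ∧ y + a ∈ X}

lemma shrink_props [CompleteSpace F] {X : Set F} (hX : Convex ℝ X) (hc : IsCompact X)
    (hne : X.Nonempty) {W h : ℝ} (hW : 0 < W) (hh0 : 0 ≤ h) (hhW : h ≤ W) (hwide : Wide X W)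
    (u : F) (hu : ‖u‖ = 1) :
    Convex ℝ (shrinkSet X ((h / 2) • u)) ∧ IsCompact (shrinkSet X ((h / 2) • u)) ∧
      (shrinkSet X ((h / 2) • u)).Nonempty ∧ Wide (shrinkSet X ((h / 2) • u)) (W - h) := by
  set a := (h / 2) • u with ha
  have hconv : Convex ℝ (shrinkSet X a) := by
    intro y hy y' hy' s t hs ht hst
    constructor
    · have := hX hy.1 hy'.1 hs ht hst
      convert this using 1
      have : a = (s + t) • a := by rw [hst, one_smul]
      rw [smul_sub, smul_sub]
      nth_rewrite 1 [this]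
      rw [add_smul]
      abel
    · have := hX hy.2 hy'.2 hs ht hst
      convert this using 1
      have : a = (s + t) • a := by rw [hst, one_smul]
      rw [smul_add, smul_add]
      nth_rewrite 1 [this]
      rw [add_smul]
      abel
  have hcomp : IsCompact (shrinkSet X a) := by
    have h1 : IsCompact ((fun x => x + a) '' X) := hc.image (by fun_prop)
    have h2 : IsClosed {y : F | y + a ∈ X} := hc.isClosed.preimage (by fun_prop)
    have : shrinkSet X a = ((fun x => x + a) '' X) ∩ {y : F | y + a ∈ X} := by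
      ext y
      constructor
      · intro hy
        exact ⟨⟨y - a, hy.1, by simp⟩, hy.2⟩
      · rintro ⟨⟨x, hx, rfl⟩, hy2⟩
        exact ⟨by simpa using hx, hy2⟩
    rw [this]
    exact h1.inter_right h2
  obtain ⟨p, hp, hq⟩ := chord_exists hX hc hne hW.le hwide u hu
  set lam := 1 - h / W with hlam
  have hlam0 : 0 ≤ lam := by
    rw [hlam, sub_nonneg, div_le_one hW]
    exact hhW
  have hlam1 : lam ≤ 1 := by
    rw [hlam]
    have : 0 ≤ h / W := div_nonneg hh0 hW.le
    linarith
  have hlamW : lam * W = W - h := by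
    rw [hlam]
    field_simp
  have hψ : ∀ x ∈ X, p + lam • (x - p) + a ∈ shrinkSet X a := by
    intro x hx
    constructor
    · have := hX.add_smul_sub_mem hp hx ⟨hlam0, hlam1⟩
      simpa using this
    · have := hX.add_smul_sub_mem hq hx ⟨hlam0, hlam1⟩
      convert this using 1
      rw [ha]
      have e : h = W - lam * W := by rw [hlamW]; ring
      have e2 : (h / 2) • u + (h / 2) • u = (W - lam * W) • u := by
        rw [← add_smul, ← e]
        congr 1
        ring
      rw [add_assoc, e2]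
      module
  refine ⟨hconv, hcomp, ?_, ?_⟩
  · obtain ⟨x, hx⟩ := hne
    exact ⟨_, hψ x hx⟩
  · intro m hm
    obtain ⟨x, hx, y, hy, hxy⟩ := hwide m hm
    refine ⟨_, hψ x hx, _, hψ y hy, ?_⟩
    have : p + lam • (x - p) + a - (p + lam • (y - p) + a) = lam • (x - y) := by
      rw [smul_sub, smul_sub, smul_sub]
      abel
    rw [this, inner_smul_left]
    simp only [conj_trivial]
    calc W - h = lam * W := hlamW.symm
      _ ≤ lam * inner ℝ (x - y) m := mul_le_mul_of_nonneg_left hxy hlam0

lemma fit [CompleteSpace F] {J : Type*} (u : J → F) (hu : ∀ j, ‖u j‖ = 1)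
    (w : J → ℝ) (hw : ∀ j, 0 < w j) (s : Finset J) :
    ∀ (X : Set F) (W : ℝ), Convex ℝ X → IsCompact X → X.Nonempty → Wide X W →
      ∑ j ∈ s, 2 * w j ≤ W →
      ∃ x0, ∀ ε : J → ℝ, (∀ j, ε j = 1 ∨ ε j = -1) → x0 + ∑ j ∈ s, (ε j * w j) • u j ∈ X := by
  classical
  induction s using Finset.induction_on with
  | empty =>
    intro X W _ _ hne _ _
    obtain ⟨x, hx⟩ := hne
    exact ⟨x, fun _ _ => by simpa using hx⟩
  | insert k s hk ih =>
    intro X W hX hc hne hwide hsum
    rw [Finset.sum_insert hk] at hsum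
    have hs0 : 0 ≤ ∑ j ∈ s, 2 * w j := Finset.sum_nonneg (fun j _ => by have := hw j; linarith)
    have hwk := hw k
    have hWpos : 0 < W := by linarith
    obtain ⟨c1, c2, c3, c4⟩ := shrink_props hX hc hne hWpos (h := 2 * w k) (by linarith)
      (by linarith) hwide (u k) (hu k)
    obtain ⟨x0, hx0⟩ := ih _ (W - 2 * w k) c1 c2 c3 c4 (by linarith)
    refine ⟨x0, fun ε hε => ?_⟩
    have hmem := hx0 ε hε
    have e : 2 * w k / 2 = w k := by ring
    rw [e] at hmem
    rw [Finset.sum_insert hk]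
    rcases hε k with h1 | h1
    · have := hmem.2
      rw [h1, one_mul]
      convert this using 1
      abel
    · have := hmem.1
      rw [h1, neg_one_mul, neg_smul]
      convert this using 1
      abel

/-- Bang's plank theorem for finitely many open planks. -/
theorem bang_finite [CompleteSpace F] {J : Type*} [Fintype J] {X : Set F} (hX : Convex ℝ X)
    (hc : IsCompact X) (hne : X.Nonempty) {W : ℝ} (hwide : Wide X W)
    (u : J → F) (hu : ∀ j, ‖u j‖ = 1) (w c : J → ℝ) (hw : ∀ j, 0 < w j)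
    (hcov : ∀ x ∈ X, ∃ j, |inner ℝ x (u j) - c j| < w j) : W < ∑ j, 2 * w j := by
  by_contra hcon
  push_neg at hcon
  obtain ⟨x0, hx0⟩ := fit u hu w hw Finset.univ X W hX hc hne hwide hcon
  obtain ⟨ε, hε, hbang⟩ := bang_signs u hu w (fun j => c j - inner ℝ x0 (u j)) hw
  obtain ⟨j, hj⟩ := hcov _ (hx0 ε hε)
  have := hbang j
  rw [inner_add_left] at hj
  have e : inner ℝ x0 (u j) + inner ℝ (∑ j, (ε j * w j) • u j) (u j) - c j
      = inner ℝ (∑ j, (ε j * w j) • u j) (u j) - (c j - inner ℝ x0 (u j)) := by ring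
  rw [e] at hj
  linarith

end Vale.Agent.Lib.P243
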