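import Mathlib

open MeasureTheory Set Topology Module Pointwise

namespace Vale.Agent.Lib.P243

lemma poly_lintegral :
    ∫⁻ t in Ioo (0 : ℝ) 1, ENNReal.ofReal (1 - t ^ 3) = 3 / 4 := by
  have hcont : Continuous fun t : ℝ => 1 - t ^ 3 := by fun_prop
  have hint : IntegrableOn (fun t : ℝ => 1 - t ^ 3) (Ioo 0 1) :=
    (hcont.integrableOn_Icc (a := 0) (b := 1)).mono_set Ioo_subset_Icc_self
  have hnn : 0 ≤ᵐ[volume.restrict (Ioo (0 : ℝ) 1)] (fun t : ℝ => 1 - t ^ 3) := by
    filter_upwards [ae_restrict_mem measurableSet_Ioo] with t ht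
    have : t ^ 3 ≤ 1 := pow_le_one₀ ht.1.le ht.2.le
    simp only [Pi.zero_apply]
    linarith
  rw [← ofReal_integral_eq_lintegral_ofReal hint hnn]
  rw [← integral_Ioc_eq_integral_Ioo, ← intervalIntegral.integral_of_le zero_le_one]
  have : ∫ t in (0 : ℝ)..1, (1 - t ^ 3) = 3 / 4 := by
    rw [intervalIntegral.integral_sub (f := fun _ => (1 : ℝ)) (g := fun t => t ^ 3)
      (continuous_const.intervalIntegrable _ _) ((continuous_pow 3).intervalIntegrable _ _)]
    simp
    norm_num
  rw [this, ENNReal.ofReal_div_of_pos (by norm_num)]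
  simp

variable {F : Type*} [NormedAddCommGroup F] [NormedSpace ℝ F] [FiniteDimensional ℝ F]
  [MeasurableSpace F] [BorelSpace F]

omit [FiniteDimensional ℝ F] [MeasurableSpace F] [BorelSpace F] in
lemma mem_smul_of_gauge_le {K : Set F} (hK : Convex ℝ K) (hc : IsClosed K) (h0 : K ∈ 𝓝 (0 : F))
    {t : ℝ} (ht : 0 < t) {x : F} (hx : gauge K x ≤ t) : x ∈ t • K := by
  have h1 : gauge K (t⁻¹ • x) ≤ 1 := by
    rw [gauge_smul_of_nonneg (inv_nonneg.2 ht.le), smul_eq_mul, inv_mul_le_iff₀ ht, mul_one]
    exact hx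
  rw [gauge_le_one_iff_mem_closure hK h0, hc.closure_eq] at h1
  exact ⟨t⁻¹ • x, h1, by
    show t • t⁻¹ • x = x
    rw [smul_smul, mul_inv_cancel₀ ht.ne', one_smul]⟩

/-- the total mass of the weight `1 + 2 gauge`. -/
theorem gauge_mass (μ : Measure F) [μ.IsAddHaarMeasure] (hF : finrank ℝ F = 3) {K : Set F}
    (hK : Convex ℝ K) (hc : IsCompact K) (h0 : K ∈ 𝓝 (0 : F)) :
    5 / 2 * μ K ≤ ∫⁻ x in K, ENNReal.ofReal (1 + 2 * gauge K x) ∂μ := by
  have hgc : Continuous (gauge K) := continuous_gauge hK h0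
  have hfin : μ K ≠ ⊤ := hc.measure_lt_top.ne
  have hKm : MeasurableSet K := hc.isClosed.measurableSet
  have e1 : ∫⁻ x in K, ENNReal.ofReal (1 + 2 * gauge K x) ∂μ
      = μ K + 2 * ∫⁻ x in K, ENNReal.ofReal (gauge K x) ∂μ := by
    have : ∀ x, ENNReal.ofReal (1 + 2 * gauge K x) = 1 + 2 * ENNReal.ofReal (gauge K x) := by
      intro x
      rw [ENNReal.ofReal_add zero_le_one (by have := gauge_nonneg (s := K) x; positivity),
        ENNReal.ofReal_mul (by norm_num)]
      simp
    simp only [this]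
    rw [lintegral_add_left measurable_const, lintegral_const_mul _ (by fun_prop)]
    simp
  have e2 : 3 / 4 * μ K ≤ ∫⁻ x in K, ENNReal.ofReal (gauge K x) ∂μ := by
    rw [lintegral_eq_lintegral_meas_lt (μ.restrict K)
      (Filter.Eventually.of_forall (fun x => gauge_nonneg (s := K) x)) hgc.aemeasurable]
    calc 3 / 4 * μ K = (∫⁻ t in Ioo (0 : ℝ) 1, ENNReal.ofReal (1 - t ^ 3)) * μ K := by
          rw [poly_lintegral]
      _ = ∫⁻ t in Ioo (0 : ℝ) 1, ENNReal.ofReal (1 - t ^ 3) * μ K := by
          rw [lintegral_mul_const _ (by fun_prop)]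
      _ ≤ ∫⁻ t in Ioo (0 : ℝ) 1, (μ.restrict K) {x | t < gauge K x} := by
          apply setLIntegral_mono' measurableSet_Ioo
          intro t ht
          have hm : MeasurableSet {x | t < gauge K x} :=
            (isOpen_lt continuous_const hgc).measurableSet
          rw [Measure.restrict_apply hm]
          have hsub : K ⊆ ({x | t < gauge K x} ∩ K) ∪ t • K := by
            intro x hx
            by_cases h : t < gauge K x
            · exact Or.inl ⟨h, hx⟩
            · exact Or.inr (mem_smul_of_gauge_le hK hc.isClosed h0 ht.1 (not_lt.1 h))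
          have h1 : μ K ≤ μ ({x | t < gauge K x} ∩ K) + ENNReal.ofReal (t ^ 3) * μ K := by
            calc μ K ≤ μ (({x | t < gauge K x} ∩ K) ∪ t • K) := measure_mono hsub
              _ ≤ μ ({x | t < gauge K x} ∩ K) + μ (t • K) := measure_union_le _ _
              _ = _ := by
                  rw [Measure.addHaar_smul, hF, abs_of_nonneg (pow_nonneg ht.1.le 3)]
          have h2 : ENNReal.ofReal (1 - t ^ 3) * μ K + ENNReal.ofReal (t ^ 3) * μ K = μ K := by
            rw [← add_mul, ← ENNReal.ofReal_add (by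
              have : t ^ 3 ≤ 1 := pow_le_one₀ ht.1.le ht.2.le
              linarith) (pow_nonneg ht.1.le 3)]
            simp
          have h3 : ENNReal.ofReal (1 - t ^ 3) * μ K + ENNReal.ofReal (t ^ 3) * μ K
              ≤ μ ({x | t < gauge K x} ∩ K) + ENNReal.ofReal (t ^ 3) * μ K := by
            rw [h2]; exact h1
          exact (ENNReal.add_le_add_iff_right
            (ENNReal.mul_ne_top ENNReal.ofReal_ne_top hfin)).1 h3
      _ ≤ ∫⁻ t in Ioi (0 : ℝ), (μ.restrict K) {x | t < gauge K x} :=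
          lintegral_mono_set Ioo_subset_Ioi_self
  rw [e1]
  calc 5 / 2 * μ K = μ K + 2 * (3 / 4 * μ K) := by
        rw [← mul_assoc]
        have : (2 : ENNReal) * (3 / 4) = 3 / 2 := by
          rw [← ENNReal.toReal_eq_toReal_iff' (by finiteness) (by finiteness)]
          simp
          norm_num
        rw [this]
        nth_rewrite 2 [← one_mul (μ K)]
        rw [← add_mul]
        congr 1
        rw [← ENNReal.toReal_eq_toReal_iff' (by finiteness) (by finiteness)]
        rw [ENNReal.toReal_add (by finiteness) (by finiteness)]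
        simp
        norm_num
    _ ≤ _ := by gcongr

end Vale.Agent.Lib.P243
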