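import Mathlib
import Vale.Agent.Lib.P243.SymGauge

open MeasureTheory Set Topology Module Pointwise

namespace Vale.Agent.Lib.P243

lemma affine_integral (a b c0 c1 : ℝ) :
    ∫ t in a..b, (c0 + c1 * (t - a)) = (b - a) * c0 + c1 * (b - a) ^ 2 / 2 := by
  have h1 : ∫ t in a..b, (c0 + c1 * (t - a)) = ∫ t in a..b, ((c0 - c1 * a) + c1 * t) := by
    congr 1
    ext t
    ring
  rw [h1, intervalIntegral.integral_add (f := fun _ => c0 - c1 * a) (g := fun t => c1 * t)
    (continuous_const.intervalIntegrable _ _)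
    ((continuous_const.mul continuous_id).intervalIntegrable _ _),
    intervalIntegral.integral_const_mul]
  simp
  ring

/-- a convex function below `A` and `B` at the ends of an interval. -/
lemma convex_piece {φ : ℝ → ℝ} {a b A B : ℝ} (hab : a ≤ b) (hφ : ConvexOn ℝ (Icc a b) φ)
    (hA : φ a ≤ A) (hB : φ b ≤ B) (hA0 : 0 ≤ A) (hB0 : 0 ≤ B) :
    ∫⁻ t in Icc a b, ENNReal.ofReal (1 + 2 * φ t) ≤ ENNReal.ofReal ((b - a) * (1 + A + B)) := by
  rcases hab.eq_or_lt with rfl | hlt
  · simp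
  have hpos : 0 < b - a := by linarith
  set c1 : ℝ := 2 * (B - A) / (b - a) with hc1
  have hpt : ∀ t ∈ Icc a b, 1 + 2 * φ t ≤ (1 + 2 * A) + c1 * (t - a) := by
    intro t ht
    set l : ℝ := (t - a) / (b - a) with hl
    have hl0 : 0 ≤ l := div_nonneg (by linarith [ht.1]) hpos.le
    have hl1 : l ≤ 1 := by rw [hl, div_le_one hpos]; linarith [ht.2]
    have hconv := hφ.2 (left_mem_Icc.2 hab) (right_mem_Icc.2 hab) (by linarith : 0 ≤ 1 - l) hl0
      (by ring)
    have ht' : (1 - l) • a + l • b = t := by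
      simp only [smul_eq_mul, hl]
      field_simp
      ring
    rw [ht'] at hconv
    simp only [smul_eq_mul] at hconv
    have h2 : φ t ≤ (1 - l) * A + l * B := by
      have := mul_le_mul_of_nonneg_left hA (by linarith : 0 ≤ 1 - l)
      have := mul_le_mul_of_nonneg_left hB hl0
      linarith
    have h3 : c1 * (t - a) = 2 * (B - A) * l := by
      rw [hc1, hl]
      field_simp
    rw [h3]
    nlinarith
  have hnn : ∀ t ∈ Icc a b, 0 ≤ (1 + 2 * A) + c1 * (t - a) := by
    intro t ht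
    set l : ℝ := (t - a) / (b - a) with hl
    have hl0 : 0 ≤ l := div_nonneg (by linarith [ht.1]) hpos.le
    have hl1 : l ≤ 1 := by rw [hl, div_le_one hpos]; linarith [ht.2]
    have h3 : c1 * (t - a) = 2 * (B - A) * l := by
      rw [hc1, hl]
      field_simp
    rw [h3]
    nlinarith
  have hcont : Continuous fun t : ℝ => (1 + 2 * A) + c1 * (t - a) := by fun_prop
  calc ∫⁻ t in Icc a b, ENNReal.ofReal (1 + 2 * φ t)
      ≤ ∫⁻ t in Icc a b, ENNReal.ofReal ((1 + 2 * A) + c1 * (t - a)) :=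
        setLIntegral_mono' measurableSet_Icc (fun t ht => ENNReal.ofReal_le_ofReal (hpt t ht))
    _ = ENNReal.ofReal (∫ t in Icc a b, ((1 + 2 * A) + c1 * (t - a))) := by
        rw [ofReal_integral_eq_lintegral_ofReal hcont.integrableOn_Icc]
        filter_upwards [ae_restrict_mem measurableSet_Icc] with t ht
        exact hnn t ht
    _ = ENNReal.ofReal ((b - a) * (1 + A + B)) := by
        rw [integral_Icc_eq_integral_Ioc, ← intervalIntegral.integral_of_le hab, affine_integral]
        congr 1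
        rw [hc1]
        field_simp
        ring

/-- a convex function on an interval, at most `1` at the ends and at most `σ` somewhere. -/
lemma convex_vee {φ : ℝ → ℝ} {a b t0 σ : ℝ} (ht0 : t0 ∈ Icc a b) (hφ : ConvexOn ℝ (Icc a b) φ)
    (hA : φ a ≤ 1) (hB : φ b ≤ 1) (hσ : φ t0 ≤ σ) (hσ0 : 0 ≤ σ) :
    ∫⁻ t in Icc a b, ENNReal.ofReal (1 + 2 * φ t) ≤ ENNReal.ofReal ((b - a) * (2 + σ)) := by
  have h1 := convex_piece ht0.1 (hφ.subset (Icc_subset_Icc_right ht0.2) (convex_Icc _ _)) hA hσ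
    zero_le_one hσ0
  have h2 := convex_piece ht0.2 (hφ.subset (Icc_subset_Icc_left ht0.1) (convex_Icc _ _)) hσ hB
    hσ0 zero_le_one
  have hU : Icc a b = Icc a t0 ∪ Icc t0 b := (Icc_union_Icc_eq_Icc ht0.1 ht0.2).symm
  calc ∫⁻ t in Icc a b, ENNReal.ofReal (1 + 2 * φ t)
      ≤ (∫⁻ t in Icc a t0, ENNReal.ofReal (1 + 2 * φ t))
        + ∫⁻ t in Icc t0 b, ENNReal.ofReal (1 + 2 * φ t) := by
        rw [hU]; exact lintegral_union_le _ _ _
    _ ≤ ENNReal.ofReal ((t0 - a) * (1 + 1 + σ)) + ENNReal.ofReal ((b - t0) * (1 + σ + 1)) :=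
        add_le_add h1 h2
    _ = ENNReal.ofReal ((b - a) * (2 + σ)) := by
        rw [← ENNReal.ofReal_add (mul_nonneg (by linarith [ht0.1]) (by linarith))
          (mul_nonneg (by linarith [ht0.2]) (by linarith))]
        congr 1
        ring

lemma compact_convex_eq_Icc {S : Set ℝ} (hS : IsCompact S) (hconv : Convex ℝ S)
    (hne : S.Nonempty) : S = Icc (sInf S) (sSup S) :=
  eq_Icc_csInf_csSup_of_connected_bdd_closed ⟨hne, hconv.isPreconnected⟩ hS.bddBelow hS.bddAbove
    hS.isClosed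

variable {F : Type*} [NormedAddCommGroup F] [NormedSpace ℝ F]

/-- the section of `K` over `p`. -/
def vsec (K : Set (F × ℝ)) (p : F) : Set ℝ := Prod.mk p ⁻¹' K

lemma vsec_convex {K : Set (F × ℝ)} (hK : Convex ℝ K) (p : F) : Convex ℝ (vsec K p) := by
  intro a ha b hb s t hs ht hst
  have := hK ha hb hs ht hst
  simp only [vsec, mem_preimage] at *
  convert this using 1
  ext
  · simp [← add_smul, hst]
  · simp

lemma vsec_compact {K : Set (F × ℝ)} (hc : IsCompact K) (p : F) : IsCompact (vsec K p) := by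
  have hcl : IsClosed (vsec K p) := hc.isClosed.preimage (by fun_prop)
  apply IsCompact.of_isClosed_subset (hc.image continuous_snd) hcl
  intro t ht
  exact ⟨(p, t), ht, rfl⟩

lemma fst_image_nhds {K : Set (F × ℝ)} (h0 : K ∈ 𝓝 (0 : F × ℝ)) :
    Prod.fst '' K ∈ 𝓝 (0 : F) := by
  have := isOpenMap_fst.image_mem_nhds h0
  simpa using this

lemma fst_image_convex {K : Set (F × ℝ)} (hK : Convex ℝ K) : Convex ℝ (Prod.fst '' K) :=
  hK.linear_image (LinearMap.fst ℝ F ℝ)

lemma gauge_line_convex {K : Set (F × ℝ)} (hK : Convex ℝ K) (h0 : K ∈ 𝓝 (0 : F × ℝ)) (p : F)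
    (S : Set ℝ) (hS : Convex ℝ S) : ConvexOn ℝ S (fun t => gauge K (p, t)) := by
  refine ⟨hS, ?_⟩
  intro a _ b _ s t hs ht hst
  have e : (p, s • a + t • b) = s • (p, a) + t • (p, b) := by
    ext
    · simp [← add_smul, hst]
    · simp
  simp only
  rw [e]
  calc gauge K (s • (p, a) + t • (p, b)) ≤ gauge K (s • (p, a)) + gauge K (t • (p, b)) :=
        gauge_add_le hK (absorbent_nhds_zero h0) _ _
    _ = s • gauge K (p, a) + t • gauge K (p, b) := by
        rw [gauge_smul_of_nonneg hs, gauge_smul_of_nonneg ht]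

/-- (A): the weight of a chord. -/
theorem chord_bound {K : Set (F × ℝ)} (hK : Convex ℝ K) (hc : IsCompact K)
    (h0 : K ∈ 𝓝 (0 : F × ℝ)) {p : F} (hp : p ∈ Prod.fst '' K) :
    ∫⁻ t in vsec K p, ENNReal.ofReal (1 + 2 * gauge K (p, t))
      ≤ ENNReal.ofReal ((volume (vsec K p)).toReal * (2 + gauge (Prod.fst '' K) p)) := by
  set P : Set F := Prod.fst '' K with hP
  have hPc : IsCompact P := hc.image continuous_fst
  have hP0 : P ∈ 𝓝 (0 : F) := fst_image_nhds h0
  have hPconv : Convex ℝ P := fst_image_convex hK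
  have h0K : (0 : F × ℝ) ∈ K := mem_of_mem_nhds h0
  set S := vsec K p with hS
  have hSne : S.Nonempty := by
    obtain ⟨x, hx, hxp⟩ := hp
    refine ⟨x.2, ?_⟩
    show (p, x.2) ∈ K
    rw [← hxp]
    exact hx
  have hSc := vsec_compact hc p
  have hSconv := vsec_convex hK p
  have hSeq : S = Icc (sInf S) (sSup S) := compact_convex_eq_Icc hSc hSconv hSne
  set a := sInf S with ha
  set b := sSup S with hb
  have haS : a ∈ S := hSc.sInf_mem hSne
  have hbS : b ∈ S := hSc.sSup_mem hSne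
  have hab : a ≤ b := by
    rw [hSeq] at haS
    exact haS.1.trans haS.2
  set σ := gauge P p with hσ
  have hσ0 : 0 ≤ σ := gauge_nonneg _
  have hσ1 : σ ≤ 1 := gauge_le_one_of_mem hp
  -- a point of the chord with small gauge
  have hex : ∃ t0 ∈ S, gauge K (p, t0) ≤ σ := by
    rcases hσ0.eq_or_lt with h | h
    · have hp0 : p = 0 := by
        by_contra hne
        have := (gauge_pos (absorbent_nhds_zero hP0)
          (NormedSpace.isVonNBounded_iff ℝ |>.2 hPc.isBounded)).2 hne
        rw [← hσ, ← h] at this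
        exact lt_irrefl _ this
      refine ⟨0, ?_, ?_⟩
      · show (p, (0 : ℝ)) ∈ K
        rw [hp0]; exact h0K
      · rw [hp0, ← h]
        have : ((0 : F), (0 : ℝ)) = (0 : F × ℝ) := rfl
        rw [this, gauge_zero]
    · obtain ⟨q, hq, hqp⟩ := mem_smul_of_gauge_le hPconv hPc.isClosed hP0 h (le_refl σ)
      obtain ⟨x, hx, hxq⟩ := hq
      have hqp' : σ • q = p := hqp
      have e : (p, σ * x.2) = σ • x := by
        ext
        · simp [hxq, hqp']
        · simp
      refine ⟨σ * x.2, ?_, ?_⟩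
      · show (p, σ * x.2) ∈ K
        rw [e]
        exact hK.smul_mem_of_zero_mem h0K hx ⟨hσ0, hσ1⟩
      · rw [e, gauge_smul_of_nonneg hσ0, smul_eq_mul]
        have := gauge_le_one_of_mem hx
        nlinarith
  obtain ⟨t0, ht0, hgt0⟩ := hex
  have hvol : (volume S).toReal = b - a := by
    rw [hSeq, Real.volume_Icc, ENNReal.toReal_ofReal (by linarith)]
  rw [hvol, hSeq]
  rw [hSeq] at ht0
  exact convex_vee ht0 (gauge_line_convex hK h0 p _ (convex_Icc _ _))
    (gauge_le_one_of_mem haS) (gauge_le_one_of_mem hbS) hgt0 hσ0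

end Vale.Agent.Lib.P243
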