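import Mathlib

open MeasureTheory Set Topology
open scoped Pointwise

namespace Vale.Agent.Lib.P243

lemma sym_slice_len {A : Set ℝ} (hA : IsCompact A) (hAc : Convex ℝ A) {σ δ : ℝ} (hσ : 0 ≤ σ)
    (hδ : 0 ≤ δ) (hd : ∀ s₁ ∈ A, ∀ s₂ ∈ A, (s₁ - s₂) * σ ≤ 2) :
    ENNReal.ofReal (1 + σ * δ) * volume A ≤ volume {t : ℝ | ∃ s ∈ A, |t - s| ≤ δ} := by
  rcases A.eq_empty_or_nonempty with rfl | hne
  · simp
  obtain ⟨l, hl, hlm⟩ := hA.exists_isLeast hne
  obtain ⟨r, hr, hrm⟩ := hA.exists_isGreatest hne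
  have hlr : l ≤ r := hlm hr
  have h1 : volume A ≤ ENNReal.ofReal (r - l) := by
    calc volume A ≤ volume (Icc l r) := measure_mono (fun x hx => ⟨hlm hx, hrm hx⟩)
      _ = ENNReal.ofReal (r - l) := Real.volume_Icc
  have hsub : Icc l r ⊆ A := by
    have := hAc.ordConnected
    exact this.out hl hr
  have h2 : Icc (l - δ) (r + δ) ⊆ {t : ℝ | ∃ s ∈ A, |t - s| ≤ δ} := by
    intro t ht
    refine ⟨max l (min t r), hsub ⟨le_max_left _ _, max_le hlr (min_le_right _ _)⟩, ?_⟩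
    rw [abs_le]
    rcases le_total t r with h | h
    · rw [min_eq_left h]
      rcases le_total l t with h' | h'
      · rw [max_eq_right h']; constructor <;> linarith
      · rw [max_eq_left h']; constructor <;> linarith [ht.1]
    · rw [min_eq_right h, max_eq_right hlr]; constructor <;> linarith [ht.2]
  calc ENNReal.ofReal (1 + σ * δ) * volume A
      ≤ ENNReal.ofReal (1 + σ * δ) * ENNReal.ofReal (r - l) := by gcongr
    _ = ENNReal.ofReal ((1 + σ * δ) * (r - l)) := by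
        rw [ENNReal.ofReal_mul (by positivity)]
    _ ≤ ENNReal.ofReal ((r + δ) - (l - δ)) := by
        apply ENNReal.ofReal_le_ofReal
        have := hd r hr l hl
        nlinarith
    _ = volume (Icc (l - δ) (r + δ)) := Real.volume_Icc.symm
    _ ≤ _ := measure_mono h2

lemma sym_area_axis {Q : Set (ℝ × ℝ)} (hQ : Convex ℝ Q) (hQc : IsCompact Q)
    (hQs : ∀ x ∈ Q, -x ∈ Q) {σ δ : ℝ} (hσ : 0 ≤ σ) (hδ : 0 ≤ δ)
    (hax : ∀ s : ℝ, ((0 : ℝ), s) ∈ Q → s * σ ≤ 1) :
    ENNReal.ofReal (1 + σ * δ) * volume Q ≤ volume (Q + ({0} : Set ℝ) ×ˢ Icc (-δ) δ) := by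
  have hc2 : IsCompact (Q + ({0} : Set ℝ) ×ˢ Icc (-δ) δ) :=
    hQc.add (isCompact_singleton.prod isCompact_Icc)
  rw [Measure.volume_eq_prod, Measure.prod_apply hQc.isClosed.measurableSet,
    Measure.prod_apply hc2.isClosed.measurableSet,
    ← lintegral_const_mul' _ _ ENNReal.ofReal_ne_top]
  apply lintegral_mono
  intro y
  have hcont : Continuous (Prod.mk y : ℝ → ℝ × ℝ) := by fun_prop
  have hAc : IsCompact (Prod.mk y ⁻¹' Q) := by
    have hcl : IsClosed (Prod.mk y ⁻¹' Q) := hQc.isClosed.preimage hcont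
    have hsub : Prod.mk y ⁻¹' Q ⊆ Prod.snd '' Q := fun s hs => ⟨(y, s), hs, rfl⟩
    exact (hQc.image continuous_snd).of_isClosed_subset hcl hsub
  have hAv : Convex ℝ (Prod.mk y ⁻¹' Q) := by
    intro s₁ h₁ s₂ h₂ a b ha hb hab
    have := hQ h₁ h₂ ha hb hab
    simp only [mem_preimage] at *
    convert this using 1
    ext
    · simp [← add_mul, hab]
    · simp
  refine (sym_slice_len hAc hAv hσ hδ ?_).trans (measure_mono ?_)
  · intro s₁ h₁ s₂ h₂
    have h3 := hQs _ h₂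
    have h4 := hQ h₁ h3 (by norm_num : (0:ℝ) ≤ 1/2) (by norm_num : (0:ℝ) ≤ 1/2) (by norm_num)
    have h5 : ((0:ℝ), (s₁ - s₂) / 2) ∈ Q := by
      convert h4 using 1
      ext
      · simp
      · simp; ring
    have := hax _ h5
    linarith
  · rintro t ⟨s, hs, hts⟩
    refine ⟨(y, s), hs, (0, t - s), ⟨rfl, ?_⟩, ?_⟩
    · rw [abs_le] at hts
      exact hts
    · ext <;> simp

/-- The linear equivalence of the plane sending `(0,1)` to `(a,b)`. -/
noncomputable def symRot (a b : ℝ) (h : a ^ 2 + b ^ 2 ≠ 0) : (ℝ × ℝ) ≃ₗ[ℝ] (ℝ × ℝ) where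
  toFun x := (a * x.2 - b * x.1, b * x.2 + a * x.1)
  map_add' x y := by ext <;> simp <;> ring
  map_smul' c x := by ext <;> simp <;> ring
  invFun x := ((-b * x.1 + a * x.2) / (a ^ 2 + b ^ 2), (a * x.1 + b * x.2) / (a ^ 2 + b ^ 2))
  left_inv x := by
    ext
    · simp only; field_simp; ring
    · simp only; field_simp; ring
  right_inv x := by
    ext
    · simp only; field_simp; ring
    · simp only; field_simp; ring

lemma sym_scale (M : (ℝ × ℝ) ≃L[ℝ] (ℝ × ℝ)) :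
    ∃ c : ENNReal, c ≠ 0 ∧ c ≠ ⊤ ∧
      ∀ Y : Set (ℝ × ℝ), volume (M ⁻¹' Y) = c * volume Y := by
  have hH : (Measure.map M (volume : Measure (ℝ × ℝ))).IsAddHaarMeasure :=
    M.isAddHaarMeasure_map _
  have heq := Measure.isAddLeftInvariant_eq_smul (Measure.map M (volume : Measure (ℝ × ℝ)))
    (volume : Measure (ℝ × ℝ))
  refine ⟨(Measure.addHaarScalarFactor (Measure.map M (volume : Measure (ℝ × ℝ)))
    (volume : Measure (ℝ × ℝ)) : NNReal), ?_, ENNReal.coe_ne_top, ?_⟩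
  · have := Measure.addHaarScalarFactor_pos_of_isAddHaarMeasure
      (Measure.map M (volume : Measure (ℝ × ℝ))) (volume : Measure (ℝ × ℝ))
    exact_mod_cast this.ne'
  · intro Y
    have h1 : Measure.map M (volume : Measure (ℝ × ℝ)) Y = volume (M ⁻¹' Y) :=
      M.toHomeomorph.toMeasurableEquiv.map_apply Y
    rw [← h1]
    have h2 := congrArg (fun m : Measure (ℝ × ℝ) => m Y) heq
    exact h2

lemma sym_area_dir {P : Set (ℝ × ℝ)} (hP : Convex ℝ P) (hPc : IsCompact P)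
    (hPs : ∀ x ∈ P, -x ∈ P) {σ δ : ℝ} (hσ : 0 ≤ σ) (hδ : 0 ≤ δ) {p : ℝ × ℝ}
    (hax : ∀ s : ℝ, s • p ∈ P → s * σ ≤ 1) (hp0 : p = 0 → σ = 0) :
    ENNReal.ofReal (1 + σ * δ) * volume P
      ≤ volume (P + (fun τ : ℝ => τ • p) '' Icc (-δ) δ) := by
  by_cases hp : p = 0
  · rw [hp0 hp]
    simp only [zero_mul, add_zero, ENNReal.ofReal_one, one_mul]
    apply measure_mono
    intro x hx
    exact ⟨x, hx, 0, ⟨0, ⟨by linarith, hδ⟩, by simp⟩, by simp⟩
  obtain ⟨a, b⟩ := p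
  have hab : a ^ 2 + b ^ 2 ≠ 0 := by
    intro h
    apply hp
    have ha : a = 0 := by nlinarith [sq_nonneg a, sq_nonneg b]
    have hb : b = 0 := by nlinarith [sq_nonneg a, sq_nonneg b]
    rw [ha, hb]; rfl
  set M : (ℝ × ℝ) ≃L[ℝ] (ℝ × ℝ) := (symRot a b hab).toContinuousLinearEquiv with hM
  have hMv : ∀ x : ℝ × ℝ, M x = (a * x.2 - b * x.1, b * x.2 + a * x.1) := fun x => rfl
  obtain ⟨c, c0, ct, hc⟩ := sym_scale M
  have key := sym_area_axis (Q := M ⁻¹' P) (hP.linear_preimage (M : (ℝ × ℝ) →ₗ[ℝ] (ℝ × ℝ)))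
    (M.toHomeomorph.isCompact_preimage.2 hPc)
    (by
      intro x hx
      have : M (-x) = - M x := map_neg M x
      simp only [mem_preimage] at *
      rw [this]
      exact hPs _ hx) hσ hδ
    (by
      intro s hs
      apply hax
      simp only [mem_preimage, hMv] at hs
      convert hs using 1
      ext <;> simp [mul_comm])
  have hsub : M ⁻¹' P + ({0} : Set ℝ) ×ˢ Icc (-δ) δ
      ⊆ M ⁻¹' (P + (fun τ : ℝ => τ • ((a, b) : ℝ × ℝ)) '' Icc (-δ) δ) := by
    rintro _ ⟨z, hz, w, ⟨hw1, hw2⟩, rfl⟩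
    refine ⟨M z, hz, M w, ⟨w.2, hw2, ?_⟩, (map_add M z w).symm⟩
    have hw1' : w.1 = 0 := hw1
    rw [hMv, hw1']
    ext <;> simp [mul_comm]
  have h2 := key.trans (measure_mono hsub)
  rw [hc, hc, ← mul_assoc, mul_comm _ c, mul_assoc] at h2
  exact (ENNReal.mul_le_mul_iff_right c0 ct).1 h2

lemma sym_superlevel {P : Set (ℝ × ℝ)} (hP : Convex ℝ P) (hPc : IsCompact P)
    (hPs : ∀ x ∈ P, -x ∈ P) {G : ℝ × ℝ → ℝ} (hG : ConcaveOn ℝ P G) (hG0 : ∀ x ∈ P, 0 ≤ G x)
    (hGe : ∀ x ∈ P, G (-x) = G x) {p : ℝ × ℝ} (hp : p ∈ P) {σ : ℝ} (hσ : 0 ≤ σ)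
    (hax : ∀ s : ℝ, s • p ∈ P → s * σ ≤ 1) (hp0 : p = 0 → σ = 0) {h : ℝ} (h0 : 0 < h)
    (h1 : h < 1) :
    ENNReal.ofReal ((1 - h) ^ 2 + σ * h * (1 - h)) * volume P
      ≤ volume ({a | h * G p ≤ G a} ∩ P) := by
  have h1' : 0 < 1 - h := by linarith
  have hδ : 0 ≤ h / (1 - h) := by positivity
  have key := sym_area_dir hP hPc hPs hσ hδ hax hp0
  have hseg : ∀ τ : ℝ, |τ| ≤ 1 → τ • p ∈ P ∧ G p ≤ G (τ • p) := by
    intro τ hτ
    rw [abs_le] at hτ
    have e : τ • p = ((1 + τ) / 2) • p + ((1 - τ) / 2) • (-p) := by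
      rw [smul_neg, ← sub_eq_add_neg, ← sub_smul]; congr 1; ring
    have a0 : 0 ≤ (1 + τ) / 2 := by linarith [hτ.1]
    have b0 : 0 ≤ (1 - τ) / 2 := by linarith [hτ.2]
    have ab : (1 + τ) / 2 + (1 - τ) / 2 = 1 := by ring
    refine ⟨e ▸ hP hp (hPs _ hp) a0 b0 ab, ?_⟩
    have := hG.2 hp (hPs _ hp) a0 b0 ab
    rw [← e, hGe _ hp, smul_eq_mul, smul_eq_mul, ← add_mul, ab, one_mul] at this
    exact this
  have hsub : (1 - h) • (P + (fun τ : ℝ => τ • p) '' Icc (-(h / (1 - h))) (h / (1 - h)))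
      ⊆ {a | h * G p ≤ G a} ∩ P := by
    rintro _ ⟨_, ⟨x, hx, _, ⟨τ, hτ, rfl⟩, rfl⟩, rfl⟩
    have hτ' : |τ * (1 - h) / h| ≤ 1 := by
      rw [abs_le]
      constructor
      · rw [le_div_iff₀ h0]
        have h3 : -(h / (1 - h)) * (1 - h) = -h := by field_simp
        have h4 := mul_le_mul_of_nonneg_right hτ.1 h1'.le
        rw [h3] at h4
        linarith
      · rw [div_le_iff₀ h0]
        have h3 : (h / (1 - h)) * (1 - h) = h := by field_simp
        have h4 := mul_le_mul_of_nonneg_right hτ.2 h1'.le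
        rw [h3] at h4
        linarith
    obtain ⟨m1, m2⟩ := hseg _ hτ'
    have e : (1 - h) • (x + τ • p) = (1 - h) • x + h • ((τ * (1 - h) / h) • p) := by
      rw [smul_add, smul_smul, smul_smul]
      congr 2
      field_simp
    have ab : (1 - h) + h = 1 := by ring
    simp only
    rw [e]
    refine ⟨?_, hP hx m1 h1'.le h0.le ab⟩
    have := hG.2 hx m1 h1'.le h0.le ab
    simp only [smul_eq_mul] at this
    have h5 := hG0 _ hx
    show h * G p ≤ _
    nlinarith [mul_nonneg h1'.le h5, mul_le_mul_of_nonneg_left m2 h0.le]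
  have hfr : Module.finrank ℝ (ℝ × ℝ) = 2 := by simp
  have hvol := Measure.addHaar_smul (volume : Measure (ℝ × ℝ)) (1 - h)
    (P + (fun τ : ℝ => τ • p) '' Icc (-(h / (1 - h))) (h / (1 - h)))
  rw [hfr, abs_of_nonneg (by positivity)] at hvol
  calc ENNReal.ofReal ((1 - h) ^ 2 + σ * h * (1 - h)) * volume P
      = ENNReal.ofReal ((1 - h) ^ 2) * (ENNReal.ofReal (1 + σ * (h / (1 - h))) * volume P) := by
        rw [← mul_assoc, ← ENNReal.ofReal_mul (by positivity)]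
        congr 2
        field_simp
    _ ≤ ENNReal.ofReal ((1 - h) ^ 2) *
        volume (P + (fun τ : ℝ => τ • p) '' Icc (-(h / (1 - h))) (h / (1 - h))) := by gcongr
    _ = volume ((1 - h) • (P + (fun τ : ℝ => τ • p) '' Icc (-(h / (1 - h))) (h / (1 - h)))) :=
        hvol.symm
    _ ≤ _ := measure_mono hsub

lemma sym_weight_integral (σ : ℝ) (hσ : 0 ≤ σ) :
    ∫⁻ t in Ioo (0 : ℝ) 1, ENNReal.ofReal ((1 - t) ^ 2 + σ * t * (1 - t))
      = ENNReal.ofReal (1 / 3 + σ / 6) := by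
  have hcont : Continuous (fun t : ℝ => (1 - t) ^ 2 + σ * t * (1 - t)) := by fun_prop
  rw [← ofReal_integral_eq_lintegral_ofReal]
  · congr 1
    rw [← integral_Ioc_eq_integral_Ioo, ← intervalIntegral.integral_of_le zero_le_one]
    have hd : ∀ t ∈ uIcc (0 : ℝ) 1, HasDerivAt
        (fun t : ℝ => t - t ^ 2 + t ^ 3 / 3 + σ * (t ^ 2 / 2 - t ^ 3 / 3))
        ((1 - t) ^ 2 + σ * t * (1 - t)) t := by
      intro t _
      have h2 := (((hasDerivAt_id' t).fun_sub (hasDerivAt_pow 2 t)).fun_add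
        ((hasDerivAt_pow 3 t).div_const 3)).fun_add
        ((((hasDerivAt_pow 2 t).div_const 2).fun_sub
          ((hasDerivAt_pow 3 t).div_const 3)).const_mul σ)
      refine h2.congr_deriv ?_
      norm_num
      ring
    rw [intervalIntegral.integral_eq_sub_of_hasDerivAt hd (hcont.intervalIntegrable _ _)]
    norm_num
    ring
  · exact (hcont.integrableOn_Icc).mono_set Ioo_subset_Icc_self
  · refine (ae_restrict_iff' measurableSet_Ioo).2 (Filter.Eventually.of_forall ?_)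
    intro t ht
    have : 0 ≤ σ * t * (1 - t) := mul_nonneg (mul_nonneg hσ ht.1.le) (by linarith [ht.2])
    show (0 : ℝ) ≤ _
    positivity

theorem planar_sym {P : Set (ℝ × ℝ)} (hP : Convex ℝ P) (hPc : IsCompact P)
    (hPs : ∀ x ∈ P, -x ∈ P)
    (hP0 : P ∈ nhds (0 : ℝ × ℝ)) {G : ℝ × ℝ → ℝ} (hG : ConcaveOn ℝ P G)
    (hG0 : ∀ x ∈ P, 0 ≤ G x)
    (hGe : ∀ x ∈ P, G (-x) = G x) (hGm : Measurable G) {p : ℝ × ℝ} (hp : p ∈ P) :
    volume P * ENNReal.ofReal (G p * (2 + gauge P p))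
      ≤ 6 * ∫⁻ x in P, ENNReal.ofReal (G x) := by
  have _ := hP0
  have hσ : 0 ≤ gauge P p := gauge_nonneg p
  have hg0 : 0 ≤ G p := hG0 p hp
  rcases hg0.eq_or_lt with hg | hg
  · rw [← hg]; simp
  have hax : ∀ s : ℝ, s • p ∈ P → s * gauge P p ≤ 1 := by
    intro s hs
    rcases le_total s 0 with h | h
    · have := mul_nonneg (neg_nonneg.2 h) hσ
      linarith
    · have := gauge_le_one_of_mem hs
      rwa [gauge_smul_of_nonneg h, smul_eq_mul] at this
  have hp0 : p = 0 → gauge P p = 0 := by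
    rintro rfl; exact gauge_zero
  -- layer cake
  have hlc := lintegral_eq_lintegral_meas_le (volume.restrict P) (f := fun x => G x / G p)
    ((ae_restrict_iff' hPc.isClosed.measurableSet).2 (Filter.Eventually.of_forall
      (fun x hx => div_nonneg (hG0 x hx) hg0)))
    (hGm.div_const _).aemeasurable
  have hlow : ENNReal.ofReal (1 / 3 + gauge P p / 6) * volume P
      ≤ ∫⁻ x in P, ENNReal.ofReal (G x / G p) := by
    rw [hlc, ← sym_weight_integral _ hσ, ← lintegral_mul_const' _ _ hPc.measure_lt_top.ne]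
    refine le_trans ?_ (lintegral_mono_set (Ioo_subset_Ioi_self : Ioo (0 : ℝ) 1 ⊆ Ioi 0))
    refine setLIntegral_mono' measurableSet_Ioo ?_
    intro t ht
    have hms : MeasurableSet {a | t ≤ G a / G p} :=
      measurableSet_le measurable_const (hGm.div_const _)
    rw [Measure.restrict_apply hms]
    have hset : {a | t ≤ G a / G p} = {a | t * G p ≤ G a} := by
      ext a
      exact le_div_iff₀ hg
    rw [hset]
    exact sym_superlevel hP hPc hPs hG hG0 hGe hp hσ hax hp0 ht.1 ht.2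
  have hsplit : ∫⁻ x in P, ENNReal.ofReal (G x)
      = ENNReal.ofReal (G p) * ∫⁻ x in P, ENNReal.ofReal (G x / G p) := by
    rw [← lintegral_const_mul' _ _ ENNReal.ofReal_ne_top]
    congr 1
    ext x
    rw [← ENNReal.ofReal_mul hg0]
    congr 1
    field_simp
  rw [hsplit]
  calc volume P * ENNReal.ofReal (G p * (2 + gauge P p))
      = 6 * (ENNReal.ofReal (G p) * (ENNReal.ofReal (1 / 3 + gauge P p / 6) * volume P)) := by
        have h6 : (6 : ENNReal) = ENNReal.ofReal 6 := by norm_num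
        rw [h6, ← mul_assoc, ← mul_assoc, ← ENNReal.ofReal_mul (by norm_num),
          ← ENNReal.ofReal_mul (by positivity), mul_comm]
        congr 2
        ring
    _ ≤ _ := by gcongr

end Vale.Agent.Lib.P243
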