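import Mathlib
import Vale.Agent.Lib.P243.SymChord
import Vale.Agent.Lib.P243.SymPlanar

open MeasureTheory Set Topology Module Pointwise

namespace Vale.Agent.Lib.P243

/-- chord length function. -/
noncomputable def chordLen (K : Set ((ℝ × ℝ) × ℝ)) (p : ℝ × ℝ) : ℝ := (volume (vsec K p)).toReal

lemma vsec_nonempty {K : Set ((ℝ × ℝ) × ℝ)} {p : ℝ × ℝ} (hp : p ∈ Prod.fst '' K) :
    (vsec K p).Nonempty := by
  obtain ⟨x, hx, hxp⟩ := hp
  refine ⟨x.2, ?_⟩
  show (p, x.2) ∈ K
  rw [← hxp]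
  exact hx

lemma vsec_empty {K : Set ((ℝ × ℝ) × ℝ)} {p : ℝ × ℝ} (hp : p ∉ Prod.fst '' K) :
    vsec K p = ∅ := by
  rw [eq_empty_iff_forall_notMem]
  intro t ht
  exact hp ⟨(p, t), ht, rfl⟩

lemma chordLen_eq {K : Set ((ℝ × ℝ) × ℝ)} (hK : Convex ℝ K) (hc : IsCompact K) {p : ℝ × ℝ}
    (hp : p ∈ Prod.fst '' K) : chordLen K p = sSup (vsec K p) - sInf (vsec K p) := by
  have hne := vsec_nonempty hp
  have hSc := vsec_compact hc p
  have hSeq := compact_convex_eq_Icc hSc (vsec_convex hK p) hne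
  have h1 : sInf (vsec K p) ≤ sSup (vsec K p) := by
    have := hSc.sInf_mem hne
    rw [hSeq] at this
    exact this.1.trans this.2
  unfold chordLen
  have h2 : volume (vsec K p) = ENNReal.ofReal (sSup (vsec K p) - sInf (vsec K p)) := by
    nth_rewrite 1 [hSeq]
    rw [Real.volume_Icc]
  rw [h2, ENNReal.toReal_ofReal (by linarith)]

lemma chordLen_ge {K : Set ((ℝ × ℝ) × ℝ)} (hK : Convex ℝ K) (hc : IsCompact K) {p : ℝ × ℝ}
    {a b : ℝ} (ha : a ∈ vsec K p) (hb : b ∈ vsec K p) : b - a ≤ chordLen K p := by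
  have hp : p ∈ Prod.fst '' K := ⟨(p, a), ha, rfl⟩
  rw [chordLen_eq hK hc hp]
  have hSc := vsec_compact hc p
  have h1 := csInf_le hSc.bddBelow ha
  have h2 := le_csSup hSc.bddAbove hb
  linarith

lemma chordLen_concave {K : Set ((ℝ × ℝ) × ℝ)} (hK : Convex ℝ K) (hc : IsCompact K) :
    ConcaveOn ℝ (Prod.fst '' K) (chordLen K) := by
  refine ⟨fst_image_convex hK, ?_⟩
  intro p hp q hq s t hs ht hst
  rw [chordLen_eq hK hc hp, chordLen_eq hK hc hq]
  have c1 := vsec_compact hc p
  have c2 := vsec_compact hc q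
  have a1 := c1.sInf_mem (vsec_nonempty hp)
  have b1 := c1.sSup_mem (vsec_nonempty hp)
  have a2 := c2.sInf_mem (vsec_nonempty hq)
  have b2 := c2.sSup_mem (vsec_nonempty hq)
  have hA : s * sInf (vsec K p) + t * sInf (vsec K q) ∈ vsec K (s • p + t • q) :=
    hK a1 a2 hs ht hst
  have hB : s * sSup (vsec K p) + t * sSup (vsec K q) ∈ vsec K (s • p + t • q) :=
    hK b1 b2 hs ht hst
  have := chordLen_ge hK hc hA hB
  simp only [smul_eq_mul]
  linarith

lemma chordLen_even {K : Set ((ℝ × ℝ) × ℝ)} (hs : ∀ x ∈ K, -x ∈ K) (p : ℝ × ℝ) :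
    chordLen K (-p) = chordLen K p := by
  unfold chordLen
  congr 1
  have : vsec K (-p) = -(vsec K p) := by
    ext t
    simp only [vsec, mem_preimage, Set.mem_neg]
    constructor
    · intro h
      have := hs _ h
      simpa using this
    · intro h
      have := hs _ h
      simpa using this
  rw [this, Measure.measure_neg]

lemma chordLen_measurable {K : Set ((ℝ × ℝ) × ℝ)} (hc : IsCompact K) :
    Measurable (chordLen K) :=
  (measurable_measure_prodMk_left hc.isClosed.measurableSet).ennreal_toReal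

lemma vol_eq_chord {K : Set ((ℝ × ℝ) × ℝ)} (hc : IsCompact K) :
    volume K = ∫⁻ p in Prod.fst '' K, ENNReal.ofReal (chordLen K p) := by
  have hPm : MeasurableSet (Prod.fst '' K) := (hc.image continuous_fst).isClosed.measurableSet
  rw [Measure.volume_eq_prod, Measure.prod_apply hc.isClosed.measurableSet,
    ← lintegral_indicator hPm]
  congr 1
  ext p
  by_cases hp : p ∈ Prod.fst '' K
  · rw [indicator_of_mem hp]
    unfold chordLen
    rw [ENNReal.ofReal_toReal (vsec_compact hc p).measure_lt_top.ne]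
    rfl
  · rw [indicator_of_notMem hp]
    have := vsec_empty hp
    unfold vsec at this
    rw [this, measure_empty]

/-- the weight of every line. -/
lemma line_bound {K : Set ((ℝ × ℝ) × ℝ)} (hK : Convex ℝ K) (hc : IsCompact K)
    (hs : ∀ x ∈ K, -x ∈ K) (h0 : K ∈ 𝓝 (0 : (ℝ × ℝ) × ℝ)) (p : ℝ × ℝ) :
    volume (Prod.fst '' K) * ∫⁻ t in vsec K p, ENNReal.ofReal (1 + 2 * gauge K (p, t))
      ≤ 6 * volume K := by
  by_cases hp : p ∈ Prod.fst '' K
  · have hA := chord_bound hK hc h0 hp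
    have hB := planar_sym (fst_image_convex hK) (hc.image continuous_fst)
      (by
        rintro _ ⟨x, hx, rfl⟩
        exact ⟨-x, hs x hx, rfl⟩) (fst_image_nhds h0) (chordLen_concave hK hc)
      (fun x _ => ENNReal.toReal_nonneg) (fun x _ => chordLen_even hs x)
      (chordLen_measurable hc) hp
    rw [← vol_eq_chord hc] at hB
    exact (mul_le_mul_right hA _).trans hB
  · rw [vsec_empty hp]
    simp

/-- the weight of a cylinder. -/
theorem direction_bound {K : Set ((ℝ × ℝ) × ℝ)} (hK : Convex ℝ K) (hc : IsCompact K)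
    (hs : ∀ x ∈ K, -x ∈ K) (h0 : K ∈ 𝓝 (0 : (ℝ × ℝ) × ℝ)) {B : Set (ℝ × ℝ)}
    (hB : MeasurableSet B) :
    volume (Prod.fst '' K) * ∫⁻ x in K ∩ Prod.fst ⁻¹' B, ENNReal.ofReal (1 + 2 * gauge K x)
      ≤ 6 * volume K * volume B := by
  have hKm : MeasurableSet K := hc.isClosed.measurableSet
  have hgc : Continuous (gauge K) := continuous_gauge hK h0
  have hSm : MeasurableSet (K ∩ Prod.fst ⁻¹' B) := hKm.inter (measurable_fst hB)
  have hwm : Measurable fun x : (ℝ × ℝ) × ℝ => ENNReal.ofReal (1 + 2 * gauge K x) := by fun_prop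
  have e1 : ∫⁻ x in K ∩ Prod.fst ⁻¹' B, ENNReal.ofReal (1 + 2 * gauge K x)
      = ∫⁻ p in B, ∫⁻ t in vsec K p, ENNReal.ofReal (1 + 2 * gauge K (p, t)) := by
    rw [← lintegral_indicator hSm, Measure.volume_eq_prod, lintegral_prod _
      (hwm.indicator hSm).aemeasurable, ← lintegral_indicator hB]
    congr 1
    ext p
    by_cases hp : p ∈ B
    · have hvm : MeasurableSet (vsec K p) := measurable_prodMk_left hKm
      rw [indicator_of_mem hp, ← lintegral_indicator hvm]
      congr 1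
      ext t
      by_cases ht : t ∈ vsec K p
      · rw [indicator_of_mem ht, indicator_of_mem]
        exact ⟨ht, hp⟩
      · rw [indicator_of_notMem ht, indicator_of_notMem]
        exact fun h => ht h.1
    · rw [indicator_of_notMem hp]
      have : ∀ t : ℝ, (K ∩ Prod.fst ⁻¹' B).indicator
          (fun x : (ℝ × ℝ) × ℝ => ENNReal.ofReal (1 + 2 * gauge K x)) (p, t) = 0 := by
        intro t
        rw [indicator_of_notMem]
        exact fun h => hp h.2
      simp only [this]
      simp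
  rw [e1]
  have hXm : Measurable fun p : ℝ × ℝ =>
      ∫⁻ t in vsec K p, ENNReal.ofReal (1 + 2 * gauge K (p, t)) := by
    have h1 : Measurable fun p : ℝ × ℝ => ∫⁻ t, K.indicator
        (fun x : (ℝ × ℝ) × ℝ => ENNReal.ofReal (1 + 2 * gauge K x)) (p, t) :=
      (hwm.indicator hKm).lintegral_prod_right'
    convert h1 using 2 with p
    have hvm : MeasurableSet (vsec K p) := measurable_prodMk_left hKm
    rw [← lintegral_indicator hvm]
    congr 1
  calc volume (Prod.fst '' K) * ∫⁻ p in B, ∫⁻ t in vsec K p, ENNReal.ofReal (1 + 2 * gauge K (p, t))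
      = ∫⁻ p in B, volume (Prod.fst '' K)
          * ∫⁻ t in vsec K p, ENNReal.ofReal (1 + 2 * gauge K (p, t)) :=
        (lintegral_const_mul _ hXm).symm
    _ ≤ ∫⁻ _ in B, 6 * volume K := lintegral_mono (fun p => line_bound hK hc hs h0 p)
    _ = 6 * volume K * volume B := by simp

end Vale.Agent.Lib.P243
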