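import Mathlib
import Vale.Agent.Lib.P243.SymModel

open MeasureTheory Set Topology Module Pointwise

namespace Vale.Agent.Lib.P243

/-- The set of the points of the shadow over which the chord of `K` has length at least `c`. -/
def lev (K : Set ((ℝ × ℝ) × ℝ)) (c : ℝ) : Set (ℝ × ℝ) :=
  Prod.fst '' (K ∩ {x | (x.1, x.2 + c) ∈ K})

end Vale.Agent.Lib.P243
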