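import Mathlib
import Vale.Agent.Lib.P243.LevDef

open MeasureTheory Set Topology Module Pointwise

namespace Vale.Agent.Lib.P243

variable {K : Set ((ℝ × ℝ) × ℝ)}

lemma mem_lev {c : ℝ} {p : ℝ × ℝ} : p ∈ lev K c ↔ ∃ a : ℝ, (p, a) ∈ K ∧ (p, a + c) ∈ K := by
  constructor
  · rintro ⟨x, ⟨hx, hx'⟩, rfl⟩
    exact ⟨x.2, hx, hx'⟩
  · rintro ⟨a, h1, h2⟩
    exact ⟨(p, a), ⟨h1, h2⟩, rfl⟩

lemma lev_compact (hc : IsCompact K) (c : ℝ) : IsCompact (lev K c) := by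
  have h1 : IsClosed {x : (ℝ × ℝ) × ℝ | (x.1, x.2 + c) ∈ K} :=
    hc.isClosed.preimage (by fun_prop)
  exact (hc.inter_right h1).image continuous_fst

lemma lev_comb (hK : Convex ℝ K) {c c' t : ℝ} (ht0 : 0 ≤ t) (ht1 : t ≤ 1) :
    ∀ a ∈ lev K c, ∀ b ∈ lev K c', (1 - t) • a + t • b ∈ lev K ((1 - t) * c + t * c') := by
  intro a ha b hb
  obtain ⟨u, hu1, hu2⟩ := mem_lev.1 ha
  obtain ⟨v, hv1, hv2⟩ := mem_lev.1 hb
  have h1 := hK hu1 hv1 (by linarith : 0 ≤ 1 - t) ht0 (by ring)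
  have h2 := hK hu2 hv2 (by linarith : 0 ≤ 1 - t) ht0 (by ring)
  refine mem_lev.2 ⟨(1 - t) * u + t * v, ?_, ?_⟩
  · simpa using h1
  · have e : ((1 - t) • a + t • b, (1 - t) * u + t * v + ((1 - t) * c + t * c'))
        = (1 - t) • (a, u + c) + t • (b, v + c') := by
      ext <;> simp
      ring
    rw [e]
    exact h2

lemma lev_convex (hK : Convex ℝ K) (c : ℝ) : Convex ℝ (lev K c) := by
  intro a ha b hb s t hs ht hst
  have hs' : s = 1 - t := by linarith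
  have := lev_comb hK ht (by linarith : t ≤ 1) a ha b hb
  rw [hs']
  convert this using 2
  ring

lemma lev_zero : lev K 0 = Prod.fst '' K := by
  ext p
  rw [mem_lev]
  constructor
  · rintro ⟨a, h1, _⟩
    exact ⟨(p, a), h1, rfl⟩
  · rintro ⟨x, hx, rfl⟩
    exact ⟨x.2, hx, by simpa using hx⟩

lemma lev_anti (hK : Convex ℝ K) {c c' : ℝ} (h0 : 0 ≤ c) (h : c ≤ c') : lev K c' ⊆ lev K c := by
  intro p hp
  obtain ⟨a, h1, h2⟩ := mem_lev.1 hp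
  refine mem_lev.2 ⟨a, h1, ?_⟩
  have := (vsec_convex hK p).ordConnected.out (x := a) (y := a + c') h1 h2
  exact this ⟨by linarith, by linarith⟩

lemma lev_eq (hK : Convex ℝ K) (hc : IsCompact K) {c : ℝ} (h0 : 0 ≤ c) :
    lev K c = {p ∈ Prod.fst '' K | c ≤ chordLen K p} := by
  ext p
  constructor
  · intro hp
    obtain ⟨a, h1, h2⟩ := mem_lev.1 hp
    refine ⟨⟨(p, a), h1, rfl⟩, ?_⟩
    have := chordLen_ge hK hc (p := p) (a := a) (b := a + c) h1 h2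
    linarith
  · rintro ⟨hp, hcl⟩
    rw [chordLen_eq hK hc hp] at hcl
    have c1 := vsec_compact hc p
    have a1 := c1.sInf_mem (vsec_nonempty hp)
    have b1 := c1.sSup_mem (vsec_nonempty hp)
    refine mem_lev.2 ⟨sInf (vsec K p), a1, ?_⟩
    exact (vsec_convex hK p).ordConnected.out a1 b1 ⟨by linarith, by linarith⟩

/-- The longest chord. -/
lemma lev_top (_hK : Convex ℝ K) (hc : IsCompact K) (hne : K.Nonempty) :
    ∃ L : ℝ, 0 ≤ L ∧ (lev K L).Nonempty ∧ ∀ c, L < c → lev K c = ∅ := by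
  set T : Set (((ℝ × ℝ) × ℝ) × ((ℝ × ℝ) × ℝ)) := (K ×ˢ K) ∩ {q | q.1.1 = q.2.1} with hT
  have hTc : IsCompact T :=
    (hc.prod hc).inter_right (isClosed_eq (by fun_prop) (by fun_prop))
  set S : Set ℝ := (fun q : ((ℝ × ℝ) × ℝ) × ((ℝ × ℝ) × ℝ) => q.2.2 - q.1.2) '' T with hS
  have hSc : IsCompact S := hTc.image (by fun_prop)
  obtain ⟨x, hx⟩ := hne
  have h0 : (0 : ℝ) ∈ S := ⟨(x, x), ⟨⟨hx, hx⟩, rfl⟩, by simp⟩
  have hmem := hSc.sSup_mem ⟨0, h0⟩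
  refine ⟨sSup S, le_csSup hSc.bddAbove h0, ?_, ?_⟩
  · obtain ⟨q, ⟨⟨hq1, hq2⟩, hq3⟩, hq4⟩ := hmem
    refine ⟨q.1.1, mem_lev.2 ⟨q.1.2, hq1, ?_⟩⟩
    rw [← hq4]
    have : (q.1.1, q.1.2 + (q.2.2 - q.1.2)) = q.2 := by
      ext1
      · exact hq3
      · simp
    rw [this]
    exact hq2
  · intro c hcL
    rw [eq_empty_iff_forall_notMem]
    intro p hp
    obtain ⟨a, h1, h2⟩ := mem_lev.1 hp
    have : c ∈ S := ⟨((p, a), (p, a + c)), ⟨⟨h1, h2⟩, rfl⟩, by simp⟩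
    have := le_csSup hSc.bddAbove this
    linarith

lemma lev_sqrt_antitone (hK : Convex ℝ K) (hc : IsCompact K) (L : ℝ) :
    AntitoneOn (fun c => √(volume (lev K c)).toReal) (Icc 0 L) := by
  intro c hcm c' _ hcc
  apply Real.sqrt_le_sqrt
  exact ENNReal.toReal_mono (lev_compact hc c).measure_lt_top.ne
    (measure_mono (lev_anti hK hcm.1 hcc))

end Vale.Agent.Lib.P243
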