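import Mathlib
import Vale.Agent.Lib.P243.LevBase

open MeasureTheory Set Topology Module Pointwise

namespace Vale.Agent.Lib.P243

variable {K : Set ((ℝ × ℝ) × ℝ)}

lemma chordLen_nonneg (p : ℝ × ℝ) : 0 ≤ chordLen K p := ENNReal.toReal_nonneg

lemma lev_eq_pos (hK : Convex ℝ K) (hc : IsCompact K) {c : ℝ} (h0 : 0 < c) :
    lev K c = {p | c ≤ chordLen K p} := by
  rw [lev_eq hK hc h0.le]
  ext p
  constructor
  · exact fun h => h.2
  · intro h
    refine ⟨?_, h⟩
    by_contra hp
    have h1 : chordLen K p = 0 := by
      unfold chordLen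
      rw [vsec_empty hp]
      simp
    have h2 : c ≤ chordLen K p := h
    linarith

theorem vol_cake (hK : Convex ℝ K) (hc : IsCompact K) :
    volume K = ∫⁻ c in Ioi (0:ℝ), volume (lev K c) := by
  have h1 : volume K = ∫⁻ p, ENNReal.ofReal (chordLen K p) := by
    rw [vol_eq_chord hc]
    have hPm : MeasurableSet (Prod.fst '' K) := (hc.image continuous_fst).isClosed.measurableSet
    rw [← lintegral_indicator hPm]
    congr 1
    ext p
    by_cases hp : p ∈ Prod.fst '' K
    · rw [indicator_of_mem hp]
    · rw [indicator_of_notMem hp]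
      unfold chordLen
      rw [vsec_empty hp]
      simp
  rw [h1, lintegral_eq_lintegral_meas_le volume
    (Filter.Eventually.of_forall (fun p => chordLen_nonneg p))
    (chordLen_measurable hc).aemeasurable]
  apply setLIntegral_congr_fun measurableSet_Ioi
  intro t ht
  show volume {a | t ≤ chordLen K a} = volume (lev K t)
  rw [lev_eq_pos hK hc ht]

theorem part_cake (hK : Convex ℝ K) (hc : IsCompact K) {B : Set (ℝ × ℝ)} (hB : MeasurableSet B)
    {c : ℝ} (hc0 : 0 ≤ c) :
    ∫⁻ p in B, ENNReal.ofReal (chordLen K p)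
      ≤ (∫⁻ s in Ioi c, volume (lev K s)) + ENNReal.ofReal c * volume B := by
  have hm : Measurable (fun p => max (chordLen K p - c) 0) :=
    ((chordLen_measurable hc).sub_const c).max measurable_const
  have h1 : ∫⁻ p in B, ENNReal.ofReal (chordLen K p)
      ≤ ∫⁻ p in B, (ENNReal.ofReal (max (chordLen K p - c) 0) + ENNReal.ofReal c) := by
    apply lintegral_mono
    intro p
    show ENNReal.ofReal (chordLen K p)
      ≤ ENNReal.ofReal (max (chordLen K p - c) 0) + ENNReal.ofReal c
    rw [← ENNReal.ofReal_add (le_max_right _ _) hc0]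
    apply ENNReal.ofReal_le_ofReal
    have := le_max_left (chordLen K p - c) 0
    linarith
  have h2 : ∫⁻ p in B, (ENNReal.ofReal (max (chordLen K p - c) 0) + ENNReal.ofReal c)
      = (∫⁻ p in B, ENNReal.ofReal (max (chordLen K p - c) 0)) + ENNReal.ofReal c * volume B := by
    rw [lintegral_add_left hm.ennreal_ofReal, setLIntegral_const]
  have h3 : ∫⁻ p in B, ENNReal.ofReal (max (chordLen K p - c) 0)
      ≤ ∫⁻ p, ENNReal.ofReal (max (chordLen K p - c) 0) :=
    setLIntegral_le_lintegral _ _
  have h4 : ∫⁻ p, ENNReal.ofReal (max (chordLen K p - c) 0)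
      = ∫⁻ t in Ioi (0:ℝ), volume (lev K (t + c)) := by
    rw [lintegral_eq_lintegral_meas_le volume (f := fun p => max (chordLen K p - c) 0)
      (Filter.Eventually.of_forall (fun p => le_max_right _ _)) hm.aemeasurable]
    apply setLIntegral_congr_fun measurableSet_Ioi
    intro t ht
    have ht' : (0:ℝ) < t := ht
    show volume {a | t ≤ max (chordLen K a - c) 0} = volume (lev K (t + c))
    rw [lev_eq_pos hK hc (by linarith : 0 < t + c)]
    congr 1
    ext p
    simp only [mem_setOf_eq, le_max_iff]
    constructor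
    · rintro (h | h)
      · linarith
      · linarith
    · intro h
      left
      linarith
  have h5 : ∫⁻ t in Ioi (0:ℝ), volume (lev K (t + c)) = ∫⁻ s in Ioi c, volume (lev K s) := by
    rw [← lintegral_indicator measurableSet_Ioi, ← lintegral_indicator measurableSet_Ioi,
      ← lintegral_add_right_eq_self (fun s => (Ioi c).indicator (fun s => volume (lev K s)) s) c]
    congr 1
    ext t
    by_cases ht : 0 < t
    · rw [indicator_of_mem (show t ∈ Ioi (0:ℝ) from ht),
        indicator_of_mem (show t + c ∈ Ioi c by simpa using ht)]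
    · rw [indicator_of_notMem (show t ∉ Ioi (0:ℝ) from ht),
        indicator_of_notMem (show t + c ∉ Ioi c by simpa using ht)]
  calc ∫⁻ p in B, ENNReal.ofReal (chordLen K p)
      ≤ (∫⁻ p in B, ENNReal.ofReal (max (chordLen K p - c) 0)) + ENNReal.ofReal c * volume B :=
        h1.trans h2.le
    _ ≤ (∫⁻ s in Ioi c, volume (lev K s)) + ENNReal.ofReal c * volume B := by
        gcongr
        rw [← h5, ← h4]
        exact h3

end Vale.Agent.Lib.P243
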