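import Mathlib

/-! P243, Theorem B: the crossing lemma (pure one-variable analysis).

For a concave, antitone, nonnegative function `b` on `[0, L]` and `x ∈ [0, 1]` there is a cut
point `c ∈ [0, L]` with
`∫_c^L b^2 + c (x b(0))^2 ≤ (3 x^2 - 2 x^3) ∫_0^L b^2`. -/

open Set MeasureTheory intervalIntegral

namespace Vale.Agent.Lib.P243

lemma cross_int_line_sq (p k a c : ℝ) (hk : k ≠ 0) :
    ∫ s in a..c, (p - k * s) ^ 2 = ((p - k * a) ^ 3 - (p - k * c) ^ 3) / (3 * k) := by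
  have hderiv : ∀ s ∈ uIcc a c,
      HasDerivAt (fun s => -(p - k * s) ^ 3 / (3 * k)) ((p - k * s) ^ 2) s := by
    intro s _
    have h1 : HasDerivAt (fun s => p - k * s) (-k) s := by
      simpa using ((hasDerivAt_id s).const_mul k).const_sub p
    have h2 : HasDerivAt (fun s => -(p - k * s) ^ 3 / (3 * k))
        (-(((3:ℕ):ℝ) * (p - k * s) ^ (3 - 1) * -k) / (3 * k)) s :=
      ((h1.pow 3).neg).div_const (3 * k)
    have e : -(((3:ℕ):ℝ) * (p - k * s) ^ (3 - 1) * -k) / (3 * k) = (p - k * s) ^ 2 := by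
      norm_num
      field_simp
    exact h2.congr_deriv e
  rw [integral_eq_sub_of_hasDerivAt hderiv]
  · field_simp
    ring
  · exact (by fun_prop : Continuous fun s => (p - k * s) ^ 2).intervalIntegrable _ _

lemma cross_lim_left {p q D R : ℝ} (hpq : p < q) (h : ∀ t, p < t → t < q → t * D ≤ R) :
    q * D ≤ R := by
  have hcl : IsClosed {t : ℝ | t * D ≤ R} :=
    isClosed_le (continuous_id.mul continuous_const) continuous_const
  have hsub : Icc p q ⊆ {t : ℝ | t * D ≤ R} := by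
    rw [← closure_Ioo (ne_of_lt hpq)]
    exact hcl.closure_subset_iff.mpr (fun t ht => h t ht.1 ht.2)
  exact hsub (right_mem_Icc.mpr hpq.le)

lemma cross_lim_right {p q D R : ℝ} (hpq : p < q) (h : ∀ t, p < t → t < q → R ≤ t * D) :
    R ≤ p * D := by
  have hcl : IsClosed {t : ℝ | R ≤ t * D} :=
    isClosed_le continuous_const (continuous_id.mul continuous_const)
  have hsub : Icc p q ⊆ {t : ℝ | R ≤ t * D} := by
    rw [← closure_Ioo (ne_of_lt hpq)]
    exact hcl.closure_subset_iff.mpr (fun t ht => h t ht.1 ht.2)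
  exact hsub (left_mem_Icc.mpr hpq.le)

lemma cross_chord {L : ℝ} {b : ℝ → ℝ} (hb : ConcaveOn ℝ (Icc 0 L) b) (hL : 0 ≤ L) {u v : ℝ}
    (hu : 0 ≤ u) (huv : u ≤ v) (hv0 : 0 < v) (hvL : v ≤ L) :
    (v - u) * b 0 + u * b v ≤ v * b u := by
  have h := hb.2 (⟨le_rfl, hL⟩ : (0:ℝ) ∈ Icc 0 L) (⟨hv0.le, hvL⟩ : v ∈ Icc 0 L)
    (show 0 ≤ 1 - u / v by rw [sub_nonneg, div_le_one hv0]; exact huv)
    (show 0 ≤ u / v by positivity) (show 1 - u / v + u / v = 1 by ring)
  have e : (1 - u / v) • (0:ℝ) + (u / v) • v = u := by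
    simp only [smul_eq_mul, mul_zero, zero_add]
    field_simp
  rw [e] at h
  simp only [smul_eq_mul] at h
  have e2 : v * ((1 - u / v) * b 0 + u / v * b v) = (v - u) * b 0 + u * b v := by
    field_simp
  calc (v - u) * b 0 + u * b v = v * ((1 - u / v) * b 0 + u / v * b v) := e2.symm
    _ ≤ v * b u := mul_le_mul_of_nonneg_left h hv0.le

theorem crossing {L : ℝ} (hL : 0 ≤ L) {b : ℝ → ℝ} (hb : ConcaveOn ℝ (Icc 0 L) b)
    (hb0 : ∀ s ∈ Icc 0 L, 0 ≤ b s) (hanti : AntitoneOn b (Icc 0 L)) {x : ℝ} (hx0 : 0 ≤ x)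
    (hx1 : x ≤ 1) :
    ∃ c ∈ Icc 0 L, (∫ s in c..L, b s ^ 2) + c * (x * b 0) ^ 2
      ≤ (3 * x ^ 2 - 2 * x ^ 3) * ∫ s in (0:ℝ)..L, b s ^ 2 := by
  have h0mem : (0:ℝ) ∈ Icc 0 L := ⟨le_rfl, hL⟩
  have hLmem : L ∈ Icc 0 L := ⟨hL, le_rfl⟩
  have hh0 : 0 ≤ 3 * x ^ 2 - 2 * x ^ 3 := by
    nlinarith [sq_nonneg x, mul_nonneg (sq_nonneg x) (sub_nonneg.mpr hx1)]
  have hh1 : 0 ≤ 1 - (3 * x ^ 2 - 2 * x ^ 3) := by
    have : 1 - (3 * x ^ 2 - 2 * x ^ 3) = (1 - x) ^ 2 * (1 + 2 * x) := by ring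
    rw [this]; positivity
  have hI0 : 0 ≤ ∫ s in (0:ℝ)..L, b s ^ 2 := integral_nonneg hL (fun s _ => sq_nonneg _)
  rcases eq_or_lt_of_le hx1 with rfl | hx1'
  · exact ⟨0, h0mem, by norm_num⟩
  have hB0 : 0 ≤ b 0 := hb0 0 h0mem
  rcases eq_or_lt_of_le hB0 with hB | hBpos
  · refine ⟨L, hLmem, ?_⟩
    rw [← hB]
    simpa using mul_nonneg hh0 hI0
  rcases eq_or_lt_of_le hL with rfl | hLpos
  · exact ⟨0, h0mem, by simp⟩
  -- main case
  set b0 := b 0 with hb0def
  set y := x * b0 with hydef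
  have hy0 : 0 ≤ y := mul_nonneg hx0 hB0
  have hyb : y < b0 := by
    have : x * b0 < 1 * b0 := mul_lt_mul_of_pos_right hx1' hBpos
    simpa [hydef] using this
  set S : Set ℝ := {s | s ∈ Icc 0 L ∧ y ≤ b s} with hS
  have hS0 : (0:ℝ) ∈ S := ⟨h0mem, hyb.le⟩
  have hSne : S.Nonempty := ⟨0, hS0⟩
  have hSbdd : BddAbove S := ⟨L, fun s hs => hs.1.2⟩
  set σ := sSup S with hσdef
  have hσL : σ ≤ L := csSup_le hSne (fun s hs => hs.1.2)
  have hmemS : (1 - x) * L ∈ S := by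
    have h1 : 0 ≤ (1 - x) * L := mul_nonneg (by linarith) hL
    have h2 : (1 - x) * L ≤ L := by nlinarith
    refine ⟨⟨h1, h2⟩, ?_⟩
    have h := cross_chord hb hL h1 h2 hLpos le_rfl
    have hbL := hb0 L hLmem
    have h3 : L * y ≤ L * b ((1 - x) * L) := by
      have : L * y = (L - (1 - x) * L) * b 0 := by rw [hydef]; ring
      nlinarith [mul_nonneg h1 hbL]
    exact le_of_mul_le_mul_left h3 hLpos
  have hσpos : 0 < σ := by
    have h1 : (1 - x) * L ≤ σ := le_csSup hSbdd hmemS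
    have h2 : 0 < (1 - x) * L := mul_pos (by linarith) hLpos
    linarith
  have hi : ∀ s, 0 ≤ s → s < σ → y ≤ b s := by
    intro s hs0 hs
    obtain ⟨s', hs'S, hss'⟩ := exists_lt_of_lt_csSup hSne hs
    have := hanti (⟨hs0, by linarith [hs'S.1.2]⟩ : s ∈ Icc 0 L) hs'S.1 hss'.le
    linarith [hs'S.2]
  have hii : ∀ s, σ < s → s ≤ L → b s < y := by
    intro s hs hsL
    by_contra hcon
    rw [not_lt] at hcon
    have : s ∈ S := ⟨⟨by linarith, hsL⟩, hcon⟩
    have := le_csSup hSbdd this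
    linarith
  have hA' : ∀ s, 0 ≤ s → s < σ → σ * (b0 - b s) ≤ s * (b0 - y) := by
    intro s hs0 hs
    apply cross_lim_left hs
    intro t hst htσ
    have h := cross_chord hb hL hs0 hst.le (by linarith) (by linarith : t ≤ L)
    have hbt := hi t (by linarith) htσ
    nlinarith [mul_nonneg hs0 (sub_nonneg.mpr hbt)]
  have hB' : ∀ s, σ < s → s ≤ L → s * (b0 - y) ≤ σ * (b0 - b s) := by
    intro s hs hsL
    apply cross_lim_right hs
    intro t hσt hts
    have h := cross_chord hb hL (by linarith : 0 ≤ t) hts.le (by linarith) hsL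
    have hbt := hii t hσt (by linarith)
    nlinarith [mul_nonneg (by linarith : 0 ≤ s) (sub_nonneg.mpr hbt.le)]
  set k := (b0 - y) / σ with hkdef
  have hkpos : 0 < k := div_pos (by linarith) hσpos
  have hkσ : k * σ = b0 - y := by rw [hkdef]; field_simp
  have hA : ∀ s, 0 ≤ s → s < σ → b0 - k * s ≤ b s := by
    intro s hs0 hs
    have h := hA' s hs0 hs
    have h2 : σ * (b0 - b s) ≤ σ * (k * s) := by
      have : σ * (k * s) = s * (b0 - y) := by rw [← hkσ]; ring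
      linarith
    have := le_of_mul_le_mul_left h2 hσpos
    linarith
  have hBB : ∀ s, σ < s → s ≤ L → b s ≤ b0 - k * s := by
    intro s hs hsL
    have h := hB' s hs hsL
    have h2 : σ * (k * s) ≤ σ * (b0 - b s) := by
      have : σ * (k * s) = s * (b0 - y) := by rw [← hkσ]; ring
      linarith
    have := le_of_mul_le_mul_left h2 hσpos
    linarith
  -- integrability
  have hsqanti : AntitoneOn (fun s => b s ^ 2) (Icc 0 L) := by
    intro s hs t ht hst
    exact pow_le_pow_left₀ (hb0 t ht) (hanti hs ht hst) 2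
  have hint1 : IntervalIntegrable (fun s => b s ^ 2) volume 0 σ := by
    apply AntitoneOn.intervalIntegrable
    rw [uIcc_of_le hσpos.le]
    exact hsqanti.mono (Icc_subset_Icc le_rfl hσL)
  have hint2 : IntervalIntegrable (fun s => b s ^ 2) volume σ L := by
    apply AntitoneOn.intervalIntegrable
    rw [uIcc_of_le hσL]
    exact hsqanti.mono (Icc_subset_Icc hσpos.le le_rfl)
  have hlin : ∀ a c : ℝ, IntervalIntegrable (fun s => (b0 - k * s) ^ 2) volume a c := fun a c =>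
    (by fun_prop : Continuous fun s => (b0 - k * s) ^ 2).intervalIntegrable _ _
  have hsplit : ∫ s in (0:ℝ)..L, b s ^ 2 = (∫ s in (0:ℝ)..σ, b s ^ 2) + ∫ s in σ..L, b s ^ 2 :=
    (integral_add_adjacent_intervals hint1 hint2).symm
  -- lower bound on D
  have hD : (b0 ^ 3 - y ^ 3) / (3 * k) ≤ ∫ s in (0:ℝ)..σ, b s ^ 2 := by
    have h1 : ∫ s in (0:ℝ)..σ, (b0 - k * s) ^ 2 ≤ ∫ s in (0:ℝ)..σ, b s ^ 2 := by
      apply integral_mono_on_of_le_Ioo hσpos.le (hlin _ _) hint1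
      intro s hs
      have h0 : 0 ≤ b0 - k * s := by
        have : k * s ≤ k * σ := mul_le_mul_of_nonneg_left hs.2.le hkpos.le
        linarith
      exact pow_le_pow_left₀ h0 (hA s hs.1.le hs.2) 2
    rw [cross_int_line_sq b0 k 0 σ hkpos.ne'] at h1
    have e : b0 - k * σ = y := by linarith
    rw [e] at h1
    simpa using h1
  -- upper bound on T
  have hT : ∫ s in σ..L, b s ^ 2 ≤ y ^ 3 / (3 * k) := by
    rcases eq_or_lt_of_le hσL with hEq | hlt
    · rw [hEq]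
      simp only [integral_same]
      positivity
    · have h1 : ∫ s in σ..L, b s ^ 2 ≤ ∫ s in σ..L, (b0 - k * s) ^ 2 := by
        apply integral_mono_on_of_le_Ioo hσL hint2 (hlin _ _)
        intro s hs
        exact pow_le_pow_left₀ (hb0 s ⟨by linarith [hs.1], hs.2.le⟩) (hBB s hs.1 hs.2.le) 2
      rw [cross_int_line_sq b0 k σ L hkpos.ne'] at h1
      have e : b0 - k * σ = y := by linarith
      rw [e] at h1
      have hend : 0 ≤ b0 - k * L := le_trans (hb0 L hLmem) (hBB L hlt le_rfl)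
      have h2 : (y ^ 3 - (b0 - k * L) ^ 3) / (3 * k) ≤ y ^ 3 / (3 * k) := by
        apply div_le_div_of_nonneg_right _ (by positivity)
        have : 0 ≤ (b0 - k * L) ^ 3 := by positivity
        linarith
      linarith
  refine ⟨σ, ⟨hσpos.le, hσL⟩, ?_⟩
  rw [hsplit]
  set h := 3 * x ^ 2 - 2 * x ^ 3 with hhdef
  set D := ∫ s in (0:ℝ)..σ, b s ^ 2
  set T := ∫ s in σ..L, b s ^ 2
  -- identity
  have hid : (1 - h) * (y ^ 3 / (3 * k)) + σ * y ^ 2 = h * ((b0 ^ 3 - y ^ 3) / (3 * k)) := by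
    have hσk : σ = (b0 - y) / k := by rw [← hkσ]; field_simp
    rw [hσk, hhdef, hydef]
    field_simp
    ring
  have h1 : (1 - h) * T ≤ (1 - h) * (y ^ 3 / (3 * k)) := mul_le_mul_of_nonneg_left hT hh1
  have h2 : h * ((b0 ^ 3 - y ^ 3) / (3 * k)) ≤ h * D := mul_le_mul_of_nonneg_left hD hh0
  nlinarith

end Vale.Agent.Lib.P243
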