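import Mathlib
import Vale.Agent.Lib.P243.LevBase
import Vale.Agent.Lib.P243.BM

open MeasureTheory Set Topology Module Pointwise

namespace Vale.Agent.Lib.P243

variable {K : Set ((ℝ × ℝ) × ℝ)}

lemma lev_sqrt_concave (hK : Convex ℝ K) (hc : IsCompact K) {L : ℝ} (_hL0 : 0 ≤ L)
    (hL : (lev K L).Nonempty) :
    ConcaveOn ℝ (Icc 0 L) (fun c => √(volume (lev K c)).toReal) := by
  refine ⟨convex_Icc 0 L, ?_⟩
  intro c hcm c' hcm' a b ha hb hab
  have ha' : a = 1 - b := by linarith
  have n1 : (lev K c).Nonempty := hL.mono (lev_anti hK hcm.1 hcm.2)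
  have n2 : (lev K c').Nonempty := hL.mono (lev_anti hK hcm'.1 hcm'.2)
  have := bm_planar (lev_compact hc c) (lev_convex hK c) n1 (lev_compact hc c') (lev_convex hK c')
    n2 (lev_compact hc ((1 - b) * c + b * c')) hb (by linarith : b ≤ 1)
    (lev_comb hK hb (by linarith : b ≤ 1))
  simp only [smul_eq_mul]
  rw [ha']
  exact this

end Vale.Agent.Lib.P243
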