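import Mathlib
import Vale.Agent.Lib.P243.Level
import Vale.Agent.Lib.P243.Cake
import Vale.Agent.Lib.P243.Cross

/-! P243, Theorem B: from the real crossing lemma to the statement in extended nonnegative reals. -/

open MeasureTheory Set Topology Module Pointwise

namespace Vale.Agent.Lib.P243

variable {K : Set ((ℝ × ℝ) × ℝ)}

lemma lev_tail (hK : Convex ℝ K) (hc : IsCompact K) {L : ℝ}
    (hLtop : ∀ c, L < c → lev K c = ∅) {a : ℝ} (ha0 : 0 ≤ a) (haL : a ≤ L) :
    ∫⁻ s in Ioi a, volume (lev K s)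
      = ENNReal.ofReal (∫ s in a..L, (√(volume (lev K s)).toReal) ^ 2) := by
  have hsq : ∀ s, (√(volume (lev K s)).toReal) ^ 2 = (volume (lev K s)).toReal := fun s =>
    Real.sq_sqrt ENNReal.toReal_nonneg
  simp_rw [hsq]
  have hanti : AntitoneOn (fun s => (volume (lev K s)).toReal) (Icc a L) := by
    intro s hs t _ hst
    exact ENNReal.toReal_mono (lev_compact hc s).measure_lt_top.ne
      (measure_mono (lev_anti hK (le_trans ha0 hs.1) hst))
  have hint : IntervalIntegrable (fun s => (volume (lev K s)).toReal) volume a L := by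
    apply AntitoneOn.intervalIntegrable
    rw [uIcc_of_le haL]
    exact hanti
  rw [intervalIntegral.integral_of_le haL,
    ofReal_integral_eq_lintegral_ofReal hint.1
      (Filter.Eventually.of_forall (fun s => ENNReal.toReal_nonneg))]
  have h1 : ∀ s, ENNReal.ofReal (volume (lev K s)).toReal = volume (lev K s) := fun s =>
    ENNReal.ofReal_toReal (lev_compact hc s).measure_lt_top.ne
  simp_rw [h1]
  rw [← lintegral_indicator measurableSet_Ioi, ← lintegral_indicator measurableSet_Ioc]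
  congr 1
  ext s
  by_cases hs : a < s
  · by_cases hsL : s ≤ L
    · rw [indicator_of_mem (show s ∈ Ioi a from hs), indicator_of_mem (show s ∈ Ioc a L from ⟨hs, hsL⟩)]
    · rw [indicator_of_mem (show s ∈ Ioi a from hs),
        indicator_of_notMem (show s ∉ Ioc a L from fun h => hsL h.2),
        hLtop s (not_le.mp hsL), measure_empty]
  · rw [indicator_of_notMem (show s ∉ Ioi a from hs),
      indicator_of_notMem (show s ∉ Ioc a L from fun h => hs h.1)]

theorem bridge (hK : Convex ℝ K) (hc : IsCompact K) (hne : K.Nonempty) {x : ℝ} (hx0 : 0 ≤ x)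
    (hx1 : x ≤ 1) :
    ∃ c : ℝ, 0 ≤ c ∧ (∫⁻ s in Ioi c, volume (lev K s))
        + ENNReal.ofReal c * (ENNReal.ofReal (x ^ 2) * volume (Prod.fst '' K))
      ≤ ENNReal.ofReal (3 * x ^ 2 - 2 * x ^ 3) * volume K := by
  obtain ⟨L, hL0, hLne, hLtop⟩ := lev_top hK hc hne
  obtain ⟨c, hcm, hcr⟩ := crossing hL0 (lev_sqrt_concave hK hc hL0 hLne)
    (fun s _ => Real.sqrt_nonneg _) (lev_sqrt_antitone hK hc L) hx0 hx1
  refine ⟨c, hcm.1, ?_⟩
  have hh0 : 0 ≤ 3 * x ^ 2 - 2 * x ^ 3 := by
    nlinarith [sq_nonneg x, mul_nonneg (sq_nonneg x) (sub_nonneg.mpr hx1)]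
  rw [vol_cake hK hc, lev_tail hK hc hLtop hcm.1 hcm.2, lev_tail hK hc hLtop le_rfl hL0,
    ← ENNReal.ofReal_mul hh0]
  have hP : volume (Prod.fst '' K) = ENNReal.ofReal (volume (lev K 0)).toReal := by
    rw [ENNReal.ofReal_toReal (lev_compact hc 0).measure_lt_top.ne, lev_zero]
  rw [hP, ← ENNReal.ofReal_mul (sq_nonneg x), ← ENNReal.ofReal_mul hcm.1,
    ← ENNReal.ofReal_add (intervalIntegral.integral_nonneg hcm.2 (fun s _ => sq_nonneg _))
      (mul_nonneg hcm.1 (mul_nonneg (sq_nonneg x) ENNReal.toReal_nonneg))]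
  apply ENNReal.ofReal_le_ofReal
  have e : c * (x * √(volume (lev K 0)).toReal) ^ 2 = c * (x ^ 2 * (volume (lev K 0)).toReal) := by
    rw [mul_pow, Real.sq_sqrt ENNReal.toReal_nonneg]
  rw [← e]
  exact hcr

end Vale.Agent.Lib.P243
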