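import Mathlib
import Vale.Agent.Lib.P243.Alg

open MeasureTheory Set

namespace Vale.Agent.Lib.P243

lemma vol_three (X : Set ℝ) (p0 p1 p2 p3 p4 p5 : ℝ) (h01 : p0 ≤ p1) (h23 : p2 ≤ p3) (h45 : p4 ≤ p5)
    (hX : X ⊆ Ico p0 p1 ∪ Ioo p2 p3 ∪ Ioc p4 p5) :
    volume X ≤ ENNReal.ofReal ((p1 - p0) + (p3 - p2) + (p5 - p4)) := by
  calc volume X ≤ volume (Ico p0 p1 ∪ Ioo p2 p3 ∪ Ioc p4 p5) := measure_mono hX
    _ ≤ volume (Ico p0 p1 ∪ Ioo p2 p3) + volume (Ioc p4 p5) := measure_union_le _ _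
    _ ≤ volume (Ico p0 p1) + volume (Ioo p2 p3) + volume (Ioc p4 p5) := by
        gcongr
        exact measure_union_le _ _
    _ = ENNReal.ofReal (p1 - p0) + ENNReal.ofReal (p3 - p2) + ENNReal.ofReal (p5 - p4) := by
        rw [Real.volume_Ico, Real.volume_Ioo, Real.volume_Ioc]
    _ = ENNReal.ofReal ((p1 - p0) + (p3 - p2) + (p5 - p4)) := by
        rw [ENNReal.ofReal_add (by linarith) (by linarith), ENNReal.ofReal_add (by linarith) (by linarith)]

lemma vol_diff_two_Icc (s0 s1 a1 a2 b1 b2 c : ℝ)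
    (ha0 : s0 ≤ a1) (ha : a1 ≤ a2) (ha1 : a2 ≤ s1)
    (hb0 : s0 ≤ b1) (hb : b1 ≤ b2) (hb1 : b2 ≤ s1)
    (hsum : c ≤ (a2 - a1) + (b2 - b1)) (hhull : c ≤ max a2 b2 - min a1 b1) :
    volume (Icc s0 s1 \ (Icc a1 a2 ∪ Icc b1 b2)) ≤ ENNReal.ofReal (s1 - s0 - c) := by
  by_cases hov : b1 ≤ a2 ∧ a1 ≤ b2
  · rw [Set.Icc_union_Icc' hov.1 hov.2]
    have hsub : Icc s0 s1 \ Icc (min a1 b1) (max a2 b2)
        ⊆ Ico s0 (min a1 b1) ∪ Ioo s0 s0 ∪ Ioc (max a2 b2) s1 := by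
      intro x hx
      rcases hx with ⟨⟨h1, h2⟩, h3⟩
      by_cases hx1 : x < min a1 b1
      · left; left; exact ⟨h1, hx1⟩
      · right
        refine ⟨?_, h2⟩
        by_contra hcon
        exact h3 ⟨not_lt.mp hx1, not_lt.mp hcon⟩
    refine (vol_three _ _ _ _ _ _ _ (le_min ha0 hb0) le_rfl (max_le ha1 hb1) hsub).trans ?_
    exact ENNReal.ofReal_le_ofReal (by linarith)
  · have hcase : a2 < b1 ∨ b2 < a1 := by
      by_contra hcon
      apply hov
      constructor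
      · by_contra h; exact hcon (Or.inl (not_le.mp h))
      · by_contra h; exact hcon (Or.inr (not_le.mp h))
    rcases hcase with hc | hc
    · have hsub : Icc s0 s1 \ (Icc a1 a2 ∪ Icc b1 b2) ⊆ Ico s0 a1 ∪ Ioo a2 b1 ∪ Ioc b2 s1 := by
        intro x hx
        rcases hx with ⟨⟨h1, h2⟩, h3⟩
        by_cases hx1 : x < a1
        · left; left; exact ⟨h1, hx1⟩
        · by_cases hx2 : x < b1
          · left; right
            refine ⟨?_, hx2⟩
            by_contra hcon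
            exact h3 (Or.inl ⟨not_lt.mp hx1, not_lt.mp hcon⟩)
          · right
            refine ⟨?_, h2⟩
            by_contra hcon
            exact h3 (Or.inr ⟨not_lt.mp hx2, not_lt.mp hcon⟩)
      refine (vol_three _ _ _ _ _ _ _ ha0 hc.le hb1 hsub).trans ?_
      exact ENNReal.ofReal_le_ofReal (by linarith)
    · have hsub : Icc s0 s1 \ (Icc a1 a2 ∪ Icc b1 b2) ⊆ Ico s0 b1 ∪ Ioo b2 a1 ∪ Ioc a2 s1 := by
        intro x hx
        rcases hx with ⟨⟨h1, h2⟩, h3⟩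
        by_cases hx1 : x < b1
        · left; left; exact ⟨h1, hx1⟩
        · by_cases hx2 : x < a1
          · left; right
            refine ⟨?_, hx2⟩
            by_contra hcon
            exact h3 (Or.inr ⟨not_lt.mp hx1, not_lt.mp hcon⟩)
          · right
            refine ⟨?_, h2⟩
            by_contra hcon
            exact h3 (Or.inl ⟨not_lt.mp hx2, not_lt.mp hcon⟩)
      refine (vol_three _ _ _ _ _ _ _ hb0 hc.le ha1 hsub).trans ?_
      exact ENNReal.ofReal_le_ofReal (by linarith)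

lemma lam_ge (l w y : ℝ) (hl0 : 0 ≤ l) (hw1 : w ≤ 1) (hy1 : y ≤ 1) (c : l = 1 ∨ l * w = y) :
    y ≤ l := by
  rcases c with c | c
  · linarith
  · nlinarith

/-- Abstract measure bound: `D` avoids two explicit intervals around `σ` and `ν`. -/
lemma abstract_bound (s0 s1 σ ν l1 l2 l3 l4 w e y yb : ℝ) (D : Set ℝ) (hs : s0 < s1)
    (hσ0 : s0 ≤ σ) (hσ1 : σ ≤ s1) (hν0 : s0 ≤ ν) (hν1 : ν ≤ s1)
    (hw0 : 0 ≤ w) (hw1 : w ≤ 1) (he0 : 0 ≤ e) (he1 : e ≤ 1)
    (hy : 0 ≤ y) (hyb : 0 ≤ yb) (hsum : y + yb ≤ 1)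
    (h10 : 0 ≤ l1) (h11 : l1 ≤ 1) (h20 : 0 ≤ l2) (h21 : l2 ≤ 1)
    (h30 : 0 ≤ l3) (h31 : l3 ≤ 1) (h40 : 0 ≤ l4) (h41 : l4 ≤ 1)
    (c1 : l1 = 1 ∨ l1 * w = y) (c2 : l2 = 1 ∨ l2 * (1 - w) = yb)
    (c3 : l3 = 1 ∨ l3 * e = y) (c4 : l4 = 1 ∨ l4 * (1 - e) = yb)
    (hD : D ⊆ Icc s0 s1)
    (hlow : ∀ x ∈ Icc (σ - l1 * (σ - s0)) (σ + l3 * (s1 - σ)), x ≠ σ → x ∉ D)
    (hhigh : ∀ x ∈ Icc (ν - l2 * (ν - s0)) (ν + l4 * (s1 - ν)), x ≠ ν → x ∉ D) :
    volume D ≤ ENNReal.ofReal ((s1 - s0) * (1 - y - yb)) := by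
  set a := s1 - s0 with ha
  have hapos : 0 < a := by linarith
  have hsub : D ⊆ (Icc s0 s1 \ (Icc (σ - l1 * (σ - s0)) (σ + l3 * (s1 - σ))
      ∪ Icc (ν - l2 * (ν - s0)) (ν + l4 * (s1 - ν)))) ∪ ({σ} ∪ {ν}) := by
    intro x hx
    by_cases hxσ : x = σ
    · right; left; exact hxσ
    · by_cases hxν : x = ν
      · right; right; exact hxν
      · left
        refine ⟨hD hx, ?_⟩
        rintro (h | h)
        · exact hlow x h hxσ hx
        · exact hhigh x h hxν hx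
  have hy1 : y ≤ 1 := by linarith
  have hyb1 : yb ≤ 1 := by linarith
  have g1 := lam_ge l1 w y h10 hw1 hy1 c1
  have g3 := lam_ge l3 e y h30 he1 hy1 c3
  have g2 := lam_ge l2 (1 - w) yb h20 (by linarith) hyb1 c2
  have g4 := lam_ge l4 (1 - e) yb h40 (by linarith) hyb1 c4
  have q1 : 0 ≤ σ - s0 := by linarith
  have q2 : 0 ≤ s1 - σ := by linarith
  have q3 : 0 ≤ ν - s0 := by linarith
  have q4 : 0 ≤ s1 - ν := by linarith
  have hmain : volume (Icc s0 s1 \ (Icc (σ - l1 * (σ - s0)) (σ + l3 * (s1 - σ))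
      ∪ Icc (ν - l2 * (ν - s0)) (ν + l4 * (s1 - ν)))) ≤ ENNReal.ofReal (s1 - s0 - a * (y + yb)) := by
    apply vol_diff_two_Icc
    · nlinarith
    · nlinarith [mul_nonneg h10 q1, mul_nonneg h30 q2]
    · nlinarith
    · nlinarith
    · nlinarith [mul_nonneg h20 q3, mul_nonneg h40 q4]
    · nlinarith
    · have t1 : y * (σ - s0) ≤ l1 * (σ - s0) := mul_le_mul_of_nonneg_right g1 q1
      have t2 : y * (s1 - σ) ≤ l3 * (s1 - σ) := mul_le_mul_of_nonneg_right g3 q2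
      have t3 : yb * (ν - s0) ≤ l2 * (ν - s0) := mul_le_mul_of_nonneg_right g2 q3
      have t4 : yb * (s1 - ν) ≤ l4 * (s1 - ν) := mul_le_mul_of_nonneg_right g4 q4
      rw [ha]
      nlinarith
    · set m := min (σ - l1 * (σ - s0)) (ν - l2 * (ν - s0)) with hm
      set M := max (σ + l3 * (s1 - σ)) (ν + l4 * (s1 - ν)) with hM
      have key := alg_lam ((σ - s0) / a) ((ν - s0) / a) w e y yb l1 l2 l3 l4 ((m - s0) / a)
        ((s1 - M) / a) (div_nonneg q1 hapos.le) (by rw [div_le_one hapos]; linarith)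
        (div_nonneg q3 hapos.le) (by rw [div_le_one hapos]; linarith) hw0 hw1 he0 he1 hy hyb hsum
        h10 h11 h20 h21 h30 h31 h40 h41 c1 c2 c3 c4
        (by
          have : m ≤ σ - l1 * (σ - s0) := min_le_left _ _
          rw [div_mul_eq_mul_div, div_le_div_iff_of_pos_right hapos]
          linarith)
        (by
          have : m ≤ ν - l2 * (ν - s0) := min_le_right _ _
          rw [div_mul_eq_mul_div, div_le_div_iff_of_pos_right hapos]
          linarith)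
        (by
          have : σ + l3 * (s1 - σ) ≤ M := le_max_left _ _
          have e1 : (1 - (σ - s0) / a) = (s1 - σ) / a := by
            rw [eq_div_iff hapos.ne', sub_mul, div_mul_cancel₀ _ hapos.ne', ha]; ring
          rw [e1, div_mul_eq_mul_div, div_le_div_iff_of_pos_right hapos]
          linarith)
        (by
          have : ν + l4 * (s1 - ν) ≤ M := le_max_right _ _
          have e1 : (1 - (ν - s0) / a) = (s1 - ν) / a := by
            rw [eq_div_iff hapos.ne', sub_mul, div_mul_cancel₀ _ hapos.ne', ha]; ring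
          rw [e1, div_mul_eq_mul_div, div_le_div_iff_of_pos_right hapos]
          linarith)
      rw [← add_div, div_le_iff₀ hapos] at key
      nlinarith
  calc volume D ≤ volume ((Icc s0 s1 \ (Icc (σ - l1 * (σ - s0)) (σ + l3 * (s1 - σ))
      ∪ Icc (ν - l2 * (ν - s0)) (ν + l4 * (s1 - ν)))) ∪ ({σ} ∪ {ν})) := measure_mono hsub
    _ ≤ volume (Icc s0 s1 \ (Icc (σ - l1 * (σ - s0)) (σ + l3 * (s1 - σ))
      ∪ Icc (ν - l2 * (ν - s0)) (ν + l4 * (s1 - ν)))) + volume ({σ} ∪ {ν} : Set ℝ) :=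
        measure_union_le _ _
    _ ≤ ENNReal.ofReal (s1 - s0 - a * (y + yb)) + 0 := by
        gcongr
        have : volume ({σ} ∪ {ν} : Set ℝ) ≤ volume ({σ} : Set ℝ) + volume ({ν} : Set ℝ) :=
          measure_union_le _ _
        simpa using this
    _ = ENNReal.ofReal (a * (1 - y - yb)) := by
        rw [add_zero]; congr 1; rw [ha]; ring

end Vale.Agent.Lib.P243
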