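import Mathlib
import Vale.Agent.Lib.P243.Planar1

open MeasureTheory Set

namespace Vale.Agent.Lib.P243

lemma seg_point {K : Set (ℝ × ℝ)} (hK : Convex ℝ K) {σ τ s w μ : ℝ} (hS : (σ, τ) ∈ K)
    (hW : (s, w) ∈ K) (h0 : 0 ≤ μ) (h1 : μ ≤ 1) :
    (σ + μ * (s - σ), τ + μ * (w - τ)) ∈ K := by
  have := hK hS hW (sub_nonneg.mpr h1) h0 (by ring)
  convert this using 1
  ext <;> simp <;> ring

lemma lam_exists (τ w y b : ℝ) (hb : 0 < b) (hτy : τ ≤ y) :
    ∃ l : ℝ, 0 ≤ l ∧ l ≤ 1 ∧ (l = 1 ∨ l * ((w - τ) / b) = (y - τ) / b) ∧ τ + l * (w - τ) ≤ y := by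
  by_cases h : w ≤ y
  · exact ⟨1, zero_le_one, le_rfl, Or.inl rfl, by linarith⟩
  · have hwy : y < w := not_le.mp h
    have hpos : 0 < w - τ := by linarith
    refine ⟨(y - τ) / (w - τ), div_nonneg (by linarith) hpos.le, ?_, Or.inr ?_, ?_⟩
    · rw [div_le_one hpos]; linarith
    · field_simp
    · rw [div_mul_cancel₀ _ hpos.ne']; linarith

/-- Points below level `y` over an explicit interval around `σ`. -/
lemma obstacle_low {K : Set (ℝ × ℝ)} (hK : Convex ℝ K) {σ τ s0 s1 w e y l1 l3 : ℝ}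
    (hS : (σ, τ) ∈ K) (hW : (s0, w) ∈ K) (hE : (s1, e) ∈ K) (hs0 : s0 ≤ σ) (hs1 : σ ≤ s1)
    (hτ : τ ≤ y) (h10 : 0 ≤ l1) (h11 : l1 ≤ 1) (h30 : 0 ≤ l3) (h31 : l3 ≤ 1)
    (hl1 : τ + l1 * (w - τ) ≤ y) (hl3 : τ + l3 * (e - τ) ≤ y) :
    ∀ x ∈ Icc (σ - l1 * (σ - s0)) (σ + l3 * (s1 - σ)), ∃ t, (x, t) ∈ K ∧ t ≤ y := by
  intro x hx
  rcases le_total x σ with hxσ | hxσ
  · rcases eq_or_lt_of_le hs0 with h | h
    · have : x = σ := by
        have := hx.1
        rw [h] at this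
        simp at this
        linarith
      exact ⟨τ, by rw [this]; exact hS, hτ⟩
    · have hpos : 0 < σ - s0 := by linarith
      set μ := (σ - x) / (σ - s0) with hμ
      have hμ0 : 0 ≤ μ := div_nonneg (by linarith) hpos.le
      have hμl : μ ≤ l1 := by
        rw [hμ, div_le_iff₀ hpos]
        linarith [hx.1]
      have hpt := seg_point hK hS hW hμ0 (hμl.trans h11)
      have hx' : σ + μ * (s0 - σ) = x := by
        have : μ * (σ - s0) = σ - x := by rw [hμ, div_mul_cancel₀ _ hpos.ne']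
        linarith
      rw [hx'] at hpt
      refine ⟨_, hpt, ?_⟩
      rcases le_total 0 (w - τ) with hw | hw
      · have := mul_le_mul_of_nonneg_right hμl hw
        linarith
      · have := mul_nonpos_of_nonneg_of_nonpos hμ0 hw
        linarith
  · rcases eq_or_lt_of_le hs1 with h | h
    · have : x = σ := by
        have := hx.2
        rw [← h] at this
        simp at this
        linarith
      exact ⟨τ, by rw [this]; exact hS, hτ⟩
    · have hpos : 0 < s1 - σ := by linarith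
      set μ := (x - σ) / (s1 - σ) with hμ
      have hμ0 : 0 ≤ μ := div_nonneg (by linarith) hpos.le
      have hμl : μ ≤ l3 := by
        rw [hμ, div_le_iff₀ hpos]
        linarith [hx.2]
      have hpt := seg_point hK hS hE hμ0 (hμl.trans h31)
      have hx' : σ + μ * (s1 - σ) = x := by
        have : μ * (s1 - σ) = x - σ := by rw [hμ, div_mul_cancel₀ _ hpos.ne']
        linarith
      rw [hx'] at hpt
      refine ⟨_, hpt, ?_⟩
      rcases le_total 0 (e - τ) with hw | hw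
      · have := mul_le_mul_of_nonneg_right hμl hw
        linarith
      · have := mul_nonpos_of_nonneg_of_nonpos hμ0 hw
        linarith

/-- The reflected set. -/
def refl2 (K : Set (ℝ × ℝ)) : Set (ℝ × ℝ) := {q | (q.1, -q.2) ∈ K}

lemma refl2_convex {K : Set (ℝ × ℝ)} (hK : Convex ℝ K) : Convex ℝ (refl2 K) := by
  intro p hp q hq a b ha hb hab
  have := hK hp hq ha hb hab
  simp only [refl2, mem_setOf_eq] at *
  convert this using 1
  ext <;> simp
  ring

lemma low_data {K : Set (ℝ × ℝ)} (hK : Convex ℝ K) {σ τ s0 s1 w e b : ℝ} (y : ℝ) (hb : 0 < b)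
    (hS : (σ, τ) ∈ K) (hW : (s0, w) ∈ K) (hE : (s1, e) ∈ K) (hs0 : s0 ≤ σ) (hs1 : σ ≤ s1) :
    ∃ l1 l3 : ℝ, 0 ≤ l1 ∧ l1 ≤ 1 ∧ 0 ≤ l3 ∧ l3 ≤ 1 ∧
      (l1 = 1 ∨ l1 * ((w - τ) / b) = (max y τ - τ) / b) ∧
      (l3 = 1 ∨ l3 * ((e - τ) / b) = (max y τ - τ) / b) ∧
      ∀ x ∈ Icc (σ - l1 * (σ - s0)) (σ + l3 * (s1 - σ)), x ≠ σ → ∃ t, (x, t) ∈ K ∧ t ≤ y := by
  by_cases hy : τ ≤ y
  · obtain ⟨l1, h10, h11, c1, d1⟩ := lam_exists τ w y b hb hy
    obtain ⟨l3, h30, h31, c3, d3⟩ := lam_exists τ e y b hb hy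
    refine ⟨l1, l3, h10, h11, h30, h31, ?_, ?_, ?_⟩
    · rw [max_eq_left hy]; exact c1
    · rw [max_eq_left hy]; exact c3
    · intro x hx _
      exact obstacle_low hK hS hW hE hs0 hs1 hy h10 h11 h30 h31 d1 d3 x hx
  · have hy' : y ≤ τ := (not_le.mp hy).le
    refine ⟨0, 0, le_rfl, zero_le_one, le_rfl, zero_le_one, ?_, ?_, ?_⟩
    · right; rw [max_eq_right hy']; simp
    · right; rw [max_eq_right hy']; simp
    · intro x hx hne
      exfalso
      apply hne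
      have h1 := hx.1
      have h2 := hx.2
      simp at h1 h2
      linarith

/-- The interval lemma: the set of abscissae whose vertical section lies strictly inside the
horizontal strip `y < t < y'` is small. -/
lemma interval_bound {K : Set (ℝ × ℝ)} (hK : Convex ℝ K) {s0 s1 t0 t1 w e σ ν : ℝ}
    (hs : s0 < s1) (ht : t0 < t1)
    (hbox : ∀ q ∈ K, s0 ≤ q.1 ∧ q.1 ≤ s1 ∧ t0 ≤ q.2 ∧ q.2 ≤ t1)
    (hW : (s0, w) ∈ K) (hE : (s1, e) ∈ K) (hS : (σ, t0) ∈ K) (hN : (ν, t1) ∈ K)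
    (y y' : ℝ) (hyy : max y t0 ≤ min y' t1) :
    volume {s | s ∈ Icc s0 s1 ∧ ∀ t, (s, t) ∈ K → y < t ∧ t < y'}
      ≤ ENNReal.ofReal ((s1 - s0) * ((min y' t1 - max y t0) / (t1 - t0))) := by
  set b := t1 - t0 with hb
  have hbpos : 0 < b := by linarith
  have bW := hbox _ hW
  have bE := hbox _ hE
  have bS := hbox _ hS
  have bN := hbox _ hN
  simp only at bW bE bS bN
  obtain ⟨l1, l3, h10, h11, h30, h31, c1, c3, hlow⟩ :=
    low_data hK y hbpos hS hW hE bS.1 bS.2.1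
  have hKr := refl2_convex hK
  have hNr : (ν, -t1) ∈ refl2 K := by simp [refl2, hN]
  have hWr : (s0, -w) ∈ refl2 K := by simp [refl2, hW]
  have hEr : (s1, -e) ∈ refl2 K := by simp [refl2, hE]
  obtain ⟨l2, l4, h20, h21, h40, h41, c2, c4, hhigh⟩ :=
    low_data hKr (-y') hbpos hNr hWr hEr bN.1 bN.2.1
  have hmax : max (-y') (-t1) = -(min y' t1) := by
    rw [max_neg_neg]
  have e2 : (max (-y') (-t1) - -t1) / b = (t1 - min y' t1) / b := by
    rw [hmax]; congr 1; ring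
  have ew : (-w - -t1) / b = 1 - (w - t0) / b := by
    rw [eq_sub_iff_add_eq, ← add_div, div_eq_one_iff_eq hbpos.ne', hb]; ring
  have ee : (-e - -t1) / b = 1 - (e - t0) / b := by
    rw [eq_sub_iff_add_eq, ← add_div, div_eq_one_iff_eq hbpos.ne', hb]; ring
  rw [e2, ew] at c2
  rw [e2, ee] at c4
  have hfin := abstract_bound s0 s1 σ ν l1 l2 l3 l4 ((w - t0) / b) ((e - t0) / b)
    ((max y t0 - t0) / b) ((t1 - min y' t1) / b)
    {s | s ∈ Icc s0 s1 ∧ ∀ t, (s, t) ∈ K → y < t ∧ t < y'} hs bS.1 bS.2.1 bN.1 bN.2.1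
    (div_nonneg (by linarith) hbpos.le) (by rw [div_le_one hbpos]; linarith)
    (div_nonneg (by linarith) hbpos.le) (by rw [div_le_one hbpos]; linarith)
    (div_nonneg (by linarith [le_max_right y t0]) hbpos.le)
    (div_nonneg (by linarith [min_le_right y' t1]) hbpos.le)
    (by rw [← add_div, div_le_one hbpos]; linarith)
    h10 h11 h20 h21 h30 h31 h40 h41 c1 c2 c3 c4
    (fun s hs => hs.1)
    (by
      intro x hx hne hxD
      obtain ⟨t, htK, hty⟩ := hlow x hx hne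
      have := (hxD.2 t htK).1
      linarith)
    (by
      intro x hx hne hxD
      obtain ⟨t, htK, hty⟩ := hhigh x hx hne
      have := (hxD.2 (-t) htK).2
      linarith)
  refine hfin.trans (le_of_eq ?_)
  congr 2
  rw [eq_div_iff hbpos.ne', sub_mul, sub_mul, div_mul_cancel₀ _ hbpos.ne',
    div_mul_cancel₀ _ hbpos.ne', hb]
  ring

end Vale.Agent.Lib.P243
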