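import Mathlib
import Vale.Agent.Lib.P243.Planar2

open MeasureTheory Set Topology

namespace Vale.Agent.Lib.P243

/-- abscissae in `[s0,s1]` whose vertical section of `K` lies in `X`. -/
def secIn (K : Set (ℝ × ℝ)) (s0 s1 : ℝ) (X : Set ℝ) : Set ℝ :=
  {s | s ∈ Icc s0 s1 ∧ ∀ t, (s, t) ∈ K → t ∈ X}

lemma isOpen_ordComp {T : Set ℝ} (hT : IsOpen T) (x : ℝ) : IsOpen (ordConnectedComponent T x) := by
  rw [isOpen_iff_mem_nhds]
  intro y hy
  have h1 : ordConnectedComponent T x = ordConnectedComponent T y := ordConnectedComponent_eq hy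
  rw [h1]
  exact ordConnectedComponent_mem_nhds.2 (hT.mem_nhds (ordConnectedComponent_subset hy))

lemma open_lt_sSup {C : Set ℝ} (hC : IsOpen C) (hb : BddAbove C) {t : ℝ} (ht : t ∈ C) :
    t < sSup C := by
  obtain ⟨ε, hε, hball⟩ := Metric.isOpen_iff.1 hC t ht
  have : t + ε / 2 ∈ C := by
    apply hball
    rw [Metric.mem_ball, Real.dist_eq]
    rw [show t + ε / 2 - t = ε / 2 by ring, abs_of_pos (by linarith)]
    linarith
  have := le_csSup hb this
  linarith

lemma open_sInf_lt {C : Set ℝ} (hC : IsOpen C) (hb : BddBelow C) {t : ℝ} (ht : t ∈ C) :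
    sInf C < t := by
  obtain ⟨ε, hε, hball⟩ := Metric.isOpen_iff.1 hC t ht
  have : t - ε / 2 ∈ C := by
    apply hball
    rw [Metric.mem_ball, Real.dist_eq]
    rw [show t - ε / 2 - t = -(ε / 2) by ring, abs_neg, abs_of_pos (by linarith)]
    linarith
  have := csInf_le hb this
  linarith

/-- bound for one bounded open order connected set. -/
lemma comp_bound {K : Set (ℝ × ℝ)} (hK : Convex ℝ K) {s0 s1 t0 t1 w e σ ν : ℝ}
    (hs : s0 < s1) (ht : t0 < t1)
    (hbox : ∀ q ∈ K, s0 ≤ q.1 ∧ q.1 ≤ s1 ∧ t0 ≤ q.2 ∧ q.2 ≤ t1)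
    (hW : (s0, w) ∈ K) (hE : (s1, e) ∈ K) (hS : (σ, t0) ∈ K) (hN : (ν, t1) ∈ K)
    (hne : ∀ s ∈ Icc s0 s1, ∃ t, (s, t) ∈ K)
    (C : Set ℝ) (hC : IsOpen C) (hCo : OrdConnected C) (hb1 : BddBelow C) (hb2 : BddAbove C) :
    volume (secIn K s0 s1 C)
      ≤ ENNReal.ofReal ((s1 - s0) / (t1 - t0)) * volume (C ∩ Icc t0 t1) := by
  by_cases hemp : (secIn K s0 s1 C).Nonempty
  · obtain ⟨s, hsI, hsC⟩ := hemp
    obtain ⟨t, htK⟩ := hne s hsI
    have htC := hsC t htK
    have hbt := hbox _ htK
    simp only at hbt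
    set y := sInf C with hy
    set y' := sSup C with hy'
    have h1 : y < t := open_sInf_lt hC hb1 htC
    have h2 : t < y' := open_lt_sSup hC hb2 htC
    have hyy : max y t0 ≤ min y' t1 := by
      apply max_le
      · exact le_min (by linarith) (by linarith)
      · exact le_min (by linarith) (by linarith)
    have hsub : secIn K s0 s1 C ⊆ {s | s ∈ Icc s0 s1 ∧ ∀ t, (s, t) ∈ K → y < t ∧ t < y'} := by
      intro s' hs'
      refine ⟨hs'.1, fun t' ht' => ?_⟩
      have := hs'.2 t' ht'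
      exact ⟨open_sInf_lt hC hb1 this, open_lt_sSup hC hb2 this⟩
    have hIoo : Ioo (max y t0) (min y' t1) ⊆ C ∩ Icc t0 t1 := by
      intro z hz
      have hz1 : y < z := lt_of_le_of_lt (le_max_left _ _) hz.1
      have hz2 : z < y' := lt_of_lt_of_le hz.2 (min_le_left _ _)
      have hz3 : t0 < z := lt_of_le_of_lt (le_max_right _ _) hz.1
      have hz4 : z < t1 := lt_of_lt_of_le hz.2 (min_le_right _ _)
      refine ⟨?_, hz3.le, hz4.le⟩
      have hconn : IsConnected C := ⟨⟨t, htC⟩, hCo.isPreconnected⟩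
      exact (hconn.Ioo_csInf_csSup_subset hb1 hb2) ⟨hz1, hz2⟩
    have hbpos : 0 < t1 - t0 := by linarith
    calc volume (secIn K s0 s1 C)
        ≤ volume {s | s ∈ Icc s0 s1 ∧ ∀ t, (s, t) ∈ K → y < t ∧ t < y'} := measure_mono hsub
      _ ≤ ENNReal.ofReal ((s1 - s0) * ((min y' t1 - max y t0) / (t1 - t0))) :=
          interval_bound hK hs ht hbox hW hE hS hN y y' hyy
      _ = ENNReal.ofReal ((s1 - s0) / (t1 - t0)) * ENNReal.ofReal (min y' t1 - max y t0) := by
          rw [← ENNReal.ofReal_mul (div_nonneg (by linarith) hbpos.le)]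
          congr 1
          ring
      _ = ENNReal.ofReal ((s1 - s0) / (t1 - t0)) * volume (Ioo (max y t0) (min y' t1)) := by
          rw [Real.volume_Ioo]
      _ ≤ _ := by
          gcongr
  · rw [not_nonempty_iff_eq_empty] at hemp
    rw [hemp]
    simp

/-- The Hall type lemma for open sets `T`. -/
lemma hall_open {K : Set (ℝ × ℝ)} (hK : Convex ℝ K) {s0 s1 t0 t1 w e σ ν : ℝ}
    (hs : s0 < s1) (ht : t0 < t1)
    (hbox : ∀ q ∈ K, s0 ≤ q.1 ∧ q.1 ≤ s1 ∧ t0 ≤ q.2 ∧ q.2 ≤ t1)
    (hW : (s0, w) ∈ K) (hE : (s1, e) ∈ K) (hS : (σ, t0) ∈ K) (hN : (ν, t1) ∈ K)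
    (T : Set ℝ) (hT : IsOpen T) :
    volume (secIn K s0 s1 T) ≤ ENNReal.ofReal ((s1 - s0) / (t1 - t0)) * volume T := by
  have hne : ∀ s ∈ Icc s0 s1, ∃ t, (s, t) ∈ K := by
    intro s hsI
    have hpos : 0 < s1 - s0 := by linarith
    have := seg_point hK hW hE (μ := (s - s0) / (s1 - s0)) (div_nonneg (by linarith [hsI.1]) hpos.le)
      (by rw [div_le_one hpos]; linarith [hsI.2])
    rw [div_mul_cancel₀ _ hpos.ne'] at this
    refine ⟨w + (s - s0) / (s1 - s0) * (e - w), ?_⟩
    have h2 : s0 + (s - s0) = s := by ring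
    rw [h2] at this
    exact this
  set T' := T ∩ Ioo (t0 - 1) (t1 + 1) with hT'
  have hT'o : IsOpen T' := hT.inter isOpen_Ioo
  set A := ordConnectedSection T' with hA
  have hdisj : A.PairwiseDisjoint (fun x => ordConnectedComponent T' x) := by
    intro x hx x' hx' hne'
    rw [Function.onFun, Set.disjoint_left]
    intro z hz hz'
    apply hne'
    apply eq_of_mem_ordConnectedSection_of_uIcc_subset hx hx'
    have h1 : z ∈ ordConnectedComponent T' x := hz
    have h2 : x' ∈ ordConnectedComponent T' z := mem_ordConnectedComponent_comm.1 hz'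
    exact mem_ordConnectedComponent_trans h1 h2
  have hcount : A.Countable := by
    apply hdisj.countable_of_isOpen (fun x _ => isOpen_ordComp hT'o x)
    intro x hx
    exact nonempty_ordConnectedComponent.2 (ordConnectedSection_subset hx)
  have hcover : secIn K s0 s1 T ⊆ ⋃ x ∈ A, secIn K s0 s1 (ordConnectedComponent T' x) := by
    intro s hsD
    obtain ⟨ts, hts⟩ := hne s hsD.1
    have inT' : ∀ t, (s, t) ∈ K → t ∈ T' := by
      intro t htK
      have hb := hbox _ htK
      simp only at hb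
      exact ⟨hsD.2 t htK, by linarith, by linarith⟩
    have hts' : ts ∈ T' := inT' ts hts
    refine mem_biUnion (x := ordConnectedProj T' ⟨ts, hts'⟩) (mem_range_self _) ?_
    refine ⟨hsD.1, fun t htK => ?_⟩
    rw [ordConnectedComponent_ordConnectedProj]
    rw [mem_ordConnectedComponent]
    intro z hz
    apply inT'
    -- the vertical segment lies in K
    have hseg : segment ℝ ((s, ts) : ℝ × ℝ) (s, t) ⊆ K := hK.segment_subset hts htK
    apply hseg
    rw [← segment_eq_uIcc] at hz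
    obtain ⟨a, b, ha, hb, hab, hz⟩ := hz
    refine ⟨a, b, ha, hb, hab, ?_⟩
    ext
    · simp only [Prod.smul_mk, Prod.mk_add_mk, smul_eq_mul]
      rw [← add_mul, hab, one_mul]
    · simpa using hz
  have hbdd1 : ∀ x, BddBelow (ordConnectedComponent T' x) := fun x =>
    ⟨t0 - 1, fun z hz => (ordConnectedComponent_subset hz).2.1.le⟩
  have hbdd2 : ∀ x, BddAbove (ordConnectedComponent T' x) := fun x =>
    ⟨t1 + 1, fun z hz => (ordConnectedComponent_subset hz).2.2.le⟩
  calc volume (secIn K s0 s1 T)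
      ≤ volume (⋃ x ∈ A, secIn K s0 s1 (ordConnectedComponent T' x)) := measure_mono hcover
    _ ≤ ∑' x : A, volume (secIn K s0 s1 (ordConnectedComponent T' x)) :=
        measure_biUnion_le _ hcount _
    _ ≤ ∑' x : A, ENNReal.ofReal ((s1 - s0) / (t1 - t0))
          * volume (ordConnectedComponent T' x ∩ Icc t0 t1) := by
        apply ENNReal.tsum_le_tsum
        intro x
        exact comp_bound hK hs ht hbox hW hE hS hN hne _ (isOpen_ordComp hT'o x) inferInstance
          (hbdd1 x) (hbdd2 x)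
    _ = ENNReal.ofReal ((s1 - s0) / (t1 - t0))
          * ∑' x : A, volume (ordConnectedComponent T' x ∩ Icc t0 t1) := ENNReal.tsum_mul_left
    _ = ENNReal.ofReal ((s1 - s0) / (t1 - t0))
          * volume (⋃ x ∈ A, (ordConnectedComponent T' x ∩ Icc t0 t1)) := by
        rw [measure_biUnion hcount]
        · intro x hx x' hx' hne'
          exact (hdisj hx hx' hne').mono inter_subset_left inter_subset_left
        · intro x _
          exact (isOpen_ordComp hT'o x).measurableSet.inter measurableSet_Icc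
    _ ≤ ENNReal.ofReal ((s1 - s0) / (t1 - t0)) * volume T := by
        gcongr
        intro z hz
        simp only [mem_iUnion] at hz
        obtain ⟨x, _, hzx⟩ := hz
        exact (ordConnectedComponent_subset hzx.1).1

end Vale.Agent.Lib.P243
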