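import Mathlib

open MeasureTheory Set

namespace Vale.Agent.Lib.P243

lemma tent_integral (z0 z1 : ℝ) (h : z0 < z1) :
    ∫ z in z0..z1, min (z - z0) (z1 - z) = (z1 - z0) ^ 2 / 4 := by
  set m := (z0 + z1) / 2 with hm
  have hcont : Continuous fun z : ℝ => min (z - z0) (z1 - z) := by fun_prop
  rw [← intervalIntegral.integral_add_adjacent_intervals (b := m)
    (hcont.intervalIntegrable _ _) (hcont.intervalIntegrable _ _)]
  have e1 : ∫ z in z0..m, min (z - z0) (z1 - z) = ∫ z in z0..m, (z - z0) := by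
    apply intervalIntegral.integral_congr
    intro z hz
    rw [uIcc_of_le (by rw [hm]; linarith)] at hz
    simp only
    apply min_eq_left
    have := hz.2
    rw [hm] at this
    linarith
  have e2 : ∫ z in m..z1, min (z - z0) (z1 - z) = ∫ z in m..z1, (z1 - z) := by
    apply intervalIntegral.integral_congr
    intro z hz
    rw [uIcc_of_le (by rw [hm]; linarith)] at hz
    simp only
    apply min_eq_right
    have := hz.1
    rw [hm] at this
    linarith
  rw [e1, e2]
  have f1 : ∫ z in z0..m, (z - z0) = (m ^ 2 - z0 ^ 2) / 2 - (m - z0) * z0 := by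
    rw [intervalIntegral.integral_sub (f := fun z => z) (g := fun _ => z0)
      (continuous_id.intervalIntegrable _ _) (continuous_const.intervalIntegrable _ _)]
    simp
  have f2 : ∫ z in m..z1, (z1 - z) = (z1 - m) * z1 - (z1 ^ 2 - m ^ 2) / 2 := by
    rw [intervalIntegral.integral_sub (f := fun _ => z1) (g := fun z => z)
      (continuous_const.intervalIntegrable _ _) (continuous_id.intervalIntegrable _ _)]
    simp
  rw [f1, f2, hm]
  ring

lemma tent_lintegral (z0 z1 : ℝ) (h : z0 < z1) :
    ∫⁻ z in Ioo z0 z1, ENNReal.ofReal (2 * min (z - z0) (z1 - z) / (z1 - z0) ^ 2) = 1 / 2 := by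
  have hℓ : 0 < z1 - z0 := by linarith
  have hcont : Continuous fun z : ℝ => 2 * min (z - z0) (z1 - z) / (z1 - z0) ^ 2 := by fun_prop
  have hint : IntegrableOn (fun z : ℝ => 2 * min (z - z0) (z1 - z) / (z1 - z0) ^ 2) (Ioo z0 z1) :=
    (hcont.integrableOn_Icc (a := z0) (b := z1)).mono_set Ioo_subset_Icc_self
  have hnn : 0 ≤ᵐ[volume.restrict (Ioo z0 z1)]
      (fun z : ℝ => 2 * min (z - z0) (z1 - z) / (z1 - z0) ^ 2) := by
    filter_upwards [ae_restrict_mem measurableSet_Ioo] with z hz
    have : 0 ≤ min (z - z0) (z1 - z) := le_min (by linarith [hz.1]) (by linarith [hz.2])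
    positivity
  rw [← ofReal_integral_eq_lintegral_ofReal hint hnn]
  rw [← integral_Ioc_eq_integral_Ioo, ← intervalIntegral.integral_of_le h.le]
  have : ∫ z in z0..z1, 2 * min (z - z0) (z1 - z) / (z1 - z0) ^ 2
      = (2 / (z1 - z0) ^ 2) * ∫ z in z0..z1, min (z - z0) (z1 - z) := by
    rw [← intervalIntegral.integral_const_mul]
    congr 1
    ext z
    ring
  rw [this, tent_integral z0 z1 h]
  have : 2 / (z1 - z0) ^ 2 * ((z1 - z0) ^ 2 / 4) = 1 / 2 := by
    field_simp
    norm_num
  rw [this]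
  rw [ENNReal.ofReal_div_of_pos (by norm_num)]
  simp

end Vale.Agent.Lib.P243
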