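import Mathlib
import Vale.Agent.Lib.P243.Planar2

open MeasureTheory Set Topology

namespace Vale.Agent.Lib.P243

/-- horizontal section of a planar set at height `z`. -/
def hsec (P : Set (ℝ × ℝ)) (z : ℝ) : Set ℝ := (fun t : ℝ => (t, z)) ⁻¹' P

lemma hsec_compact {P : Set (ℝ × ℝ)} (hc : IsCompact P) (z : ℝ) : IsCompact (hsec P z) := by
  have hcl : IsClosed (hsec P z) := hc.isClosed.preimage (by fun_prop)
  apply IsCompact.of_isClosed_subset (hc.image continuous_fst) hcl
  intro t ht
  exact ⟨(t, z), ht, rfl⟩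

lemma hsec_ordConnected {P : Set (ℝ × ℝ)} (hP : Convex ℝ P) (z : ℝ) : OrdConnected (hsec P z) := by
  have : Convex ℝ (hsec P z) := by
    intro a ha b hb u v hu hv huv
    have := hP ha hb hu hv huv
    simp only [hsec, mem_preimage] at *
    convert this using 1
    ext
    · simp
    · simp only [Prod.smul_mk, Prod.mk_add_mk, smul_eq_mul]
      rw [← add_mul, huv, one_mul]
  exact this.ordConnected

lemma midpoint_sec {P : Set (ℝ × ℝ)} (hP : Convex ℝ P) (hc : IsCompact P) {z z' z'' : ℝ}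
    (hz : z' + z'' = 2 * z) (h1 : (hsec P z').Nonempty) (h2 : (hsec P z'').Nonempty) :
    volume (hsec P z') + volume (hsec P z'') ≤ 2 * volume (hsec P z) := by
  have c1 := hsec_compact hc z'
  have c2 := hsec_compact hc z''
  set l1 := sInf (hsec P z')
  set r1 := sSup (hsec P z')
  set l2 := sInf (hsec P z'')
  set r2 := sSup (hsec P z'')
  have hl1 : l1 ∈ hsec P z' := c1.sInf_mem h1
  have hr1 : r1 ∈ hsec P z' := c1.sSup_mem h1
  have hl2 : l2 ∈ hsec P z'' := c2.sInf_mem h2
  have hr2 : r2 ∈ hsec P z'' := c2.sSup_mem h2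
  have s1 : hsec P z' ⊆ Icc l1 r1 := subset_Icc_csInf_csSup c1.bddBelow c1.bddAbove
  have s2 : hsec P z'' ⊆ Icc l2 r2 := subset_Icc_csInf_csSup c2.bddBelow c2.bddAbove
  have hlr1 : l1 ≤ r1 := (s1 hl1).2
  have hlr2 : l2 ≤ r2 := (s2 hl2).2
  have mid : ∀ a b : ℝ, a ∈ hsec P z' → b ∈ hsec P z'' → (a + b) / 2 ∈ hsec P z := by
    intro a b ha hb
    have := hP ha hb (by norm_num : (0 : ℝ) ≤ 1 / 2) (by norm_num : (0 : ℝ) ≤ 1 / 2) (by norm_num)
    simp only [hsec, mem_preimage] at *
    convert this using 1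
    ext
    · simp; ring
    · simp only [Prod.smul_mk, Prod.mk_add_mk, smul_eq_mul]
      linarith
  have hsub : Icc ((l1 + l2) / 2) ((r1 + r2) / 2) ⊆ hsec P z :=
    (hsec_ordConnected hP z).out (mid _ _ hl1 hl2) (mid _ _ hr1 hr2)
  calc volume (hsec P z') + volume (hsec P z'')
      ≤ volume (Icc l1 r1) + volume (Icc l2 r2) := add_le_add (measure_mono s1) (measure_mono s2)
    _ = ENNReal.ofReal (r1 - l1) + ENNReal.ofReal (r2 - l2) := by
        rw [Real.volume_Icc, Real.volume_Icc]
    _ = ENNReal.ofReal (2 * ((r1 + r2) / 2 - (l1 + l2) / 2)) := by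
        rw [← ENNReal.ofReal_add (by linarith) (by linarith)]
        congr 1
        ring
    _ = 2 * volume (Icc ((l1 + l2) / 2) ((r1 + r2) / 2)) := by
        rw [Real.volume_Icc, ENNReal.ofReal_mul (by norm_num)]
        simp
    _ ≤ 2 * volume (hsec P z) := by
        gcongr

/-- area of a symmetric slab is at most its height times the middle section. -/
lemma slab_bound {P : Set (ℝ × ℝ)} (hP : Convex ℝ P) (hc : IsCompact P) {z h : ℝ}
    (hne : ∀ z' ∈ Icc (z - h) (z + h), (hsec P z').Nonempty) :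
    volume (P ∩ {q | q.2 ∈ Icc (z - h) (z + h)}) ≤ ENNReal.ofReal (2 * h) * volume (hsec P z) := by
  have hPm : MeasurableSet P := hc.isClosed.measurableSet
  have hSm : MeasurableSet ({q : ℝ × ℝ | q.2 ∈ Icc (z - h) (z + h)}) :=
    measurable_snd measurableSet_Icc
  set f : ℝ → ENNReal := (Icc (z - h) (z + h)).indicator (fun z' => volume (hsec P z')) with hf
  have hfm : Measurable f :=
    (measurable_measure_prodMk_right hPm).indicator measurableSet_Icc
  have e1 : volume (P ∩ {q | q.2 ∈ Icc (z - h) (z + h)}) = ∫⁻ z', f z' := by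
    rw [Measure.volume_eq_prod, Measure.prod_apply_symm (hPm.inter hSm)]
    apply lintegral_congr
    intro z'
    by_cases hz' : z' ∈ Icc (z - h) (z + h)
    · rw [hf, indicator_of_mem hz']
      congr 1
      ext t
      simp only [hsec, mem_preimage, mem_inter_iff, mem_setOf_eq]
      exact ⟨fun hh => hh.1, fun hh => ⟨hh, hz'⟩⟩
    · rw [hf, indicator_of_notMem hz']
      have : (fun x : ℝ => (x, z')) ⁻¹' (P ∩ {q | q.2 ∈ Icc (z - h) (z + h)}) = ∅ := by
        ext t
        simp only [mem_preimage, mem_inter_iff, mem_setOf_eq, mem_empty_iff_false, iff_false]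
        exact fun hh => hz' hh.2
      rw [this]
      simp
  have e2 : ∫⁻ z', f (2 * z - z') = ∫⁻ z', f z' := lintegral_sub_left_eq_self f (2 * z)
  have e3 : 2 * ∫⁻ z', f z' = ∫⁻ z', (f z' + f (2 * z - z')) := by
    rw [lintegral_add_left hfm, e2, two_mul]
  have e4 : ∫⁻ z', (f z' + f (2 * z - z'))
      ≤ ∫⁻ z', (Icc (z - h) (z + h)).indicator (fun _ => 2 * volume (hsec P z)) z' := by
    apply lintegral_mono
    intro z'
    by_cases hz' : z' ∈ Icc (z - h) (z + h)
    · have hz'' : 2 * z - z' ∈ Icc (z - h) (z + h) := by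
        constructor <;> linarith [hz'.1, hz'.2]
      simp only [hf, indicator_of_mem hz', indicator_of_mem hz'']
      exact midpoint_sec hP hc (by ring) (hne _ hz') (hne _ hz'')
    · have hz'' : 2 * z - z' ∉ Icc (z - h) (z + h) := by
        intro hcon
        apply hz'
        constructor <;> linarith [hcon.1, hcon.2]
      simp only [hf, indicator_of_notMem hz', indicator_of_notMem hz'']
      simp
  have e5 : ∫⁻ z', (Icc (z - h) (z + h)).indicator (fun _ => 2 * volume (hsec P z)) z'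
      = 2 * volume (hsec P z) * ENNReal.ofReal (2 * h) := by
    rw [lintegral_indicator measurableSet_Icc, setLIntegral_const, Real.volume_Icc]
    congr 2
    ring
  have e6 : 2 * ∫⁻ z', f z' ≤ 2 * (ENNReal.ofReal (2 * h) * volume (hsec P z)) := by
    rw [e3]
    refine e4.trans (le_of_eq ?_)
    rw [e5]
    ring
  rw [e1]
  exact (ENNReal.mul_le_mul_iff_right (by norm_num) (by norm_num)).1 e6

lemma width_bottom {P : Set (ℝ × ℝ)} (hP : Convex ℝ P) (hc : IsCompact P) {tp z0 ℓ z : ℝ}
    (hp : (tp, z0) ∈ P) (hℓ : 0 < ℓ) (hrange : ∀ q ∈ P, z0 ≤ q.2 ∧ q.2 ≤ z0 + ℓ)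
    (hz0 : z0 < z) (hz : 2 * (z - z0) ≤ ℓ) (htop : ∃ t, (t, 2 * z - z0) ∈ P) :
    volume P * ENNReal.ofReal (2 * (z - z0) / ℓ ^ 2) ≤ volume (hsec P z) := by
  set h := z - z0 with hh
  have hhpos : 0 < h := by linarith
  set lam := 2 * h / ℓ with hlam
  have hlam0 : 0 ≤ lam := div_nonneg (by linarith) hℓ.le
  have hlam1 : lam ≤ 1 := by rw [hlam, div_le_one hℓ]; exact hz
  have hlamℓ : lam * ℓ = 2 * h := by rw [hlam, div_mul_cancel₀ _ hℓ.ne']
  have himg : AffineMap.homothety ((tp, z0) : ℝ × ℝ) lam '' P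
      ⊆ P ∩ {q | q.2 ∈ Icc (z - h) (z + h)} := by
    rintro _ ⟨q, hq, rfl⟩
    have hmem := hP.add_smul_sub_mem hp hq ⟨hlam0, hlam1⟩
    have heq : AffineMap.homothety ((tp, z0) : ℝ × ℝ) lam q = (tp, z0) + lam • (q - (tp, z0)) := by
      rw [AffineMap.homothety_apply]
      simp [add_comm]
    rw [heq]
    refine ⟨hmem, ?_⟩
    have hr := hrange q hq
    simp only [mem_setOf_eq, Prod.snd_add, Prod.smul_snd, Prod.snd_sub, smul_eq_mul, mem_Icc]
    constructor
    · have : 0 ≤ lam * (q.2 - z0) := mul_nonneg hlam0 (by linarith)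
      linarith
    · have : lam * (q.2 - z0) ≤ lam * ℓ := mul_le_mul_of_nonneg_left (by linarith) hlam0
      linarith
  have hvol : volume (AffineMap.homothety ((tp, z0) : ℝ × ℝ) lam '' P)
      = ENNReal.ofReal (lam ^ 2) * volume P := by
    rw [Measure.addHaar_image_homothety]
    have : Module.finrank ℝ (ℝ × ℝ) = 2 := by simp
    rw [this, abs_of_nonneg (by positivity)]
  obtain ⟨tt, htt⟩ := htop
  have hne : ∀ z' ∈ Icc (z - h) (z + h), (hsec P z').Nonempty := by
    intro z' hz'
    have h2 : 0 < 2 * h := by linarith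
    have hμ0 : 0 ≤ (z' - z0) / (2 * h) := div_nonneg (by linarith [hz'.1]) h2.le
    have hμ1 : (z' - z0) / (2 * h) ≤ 1 := by rw [div_le_one h2]; linarith [hz'.2]
    have := seg_point hP hp htt hμ0 hμ1
    have e : z0 + (z' - z0) / (2 * h) * (2 * z - z0 - z0) = z' := by
      have : 2 * z - z0 - z0 = 2 * h := by rw [hh]; ring
      rw [this, div_mul_cancel₀ _ h2.ne']
      ring
    rw [e] at this
    exact ⟨_, this⟩
  have hslab := slab_bound hP hc hne
  have hchain : ENNReal.ofReal (lam ^ 2) * volume P ≤ ENNReal.ofReal (2 * h) * volume (hsec P z) := by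
    rw [← hvol]
    exact (measure_mono himg).trans hslab
  have hsplit : ENNReal.ofReal (lam ^ 2) = ENNReal.ofReal (2 * h) * ENNReal.ofReal (2 * h / ℓ ^ 2) := by
    rw [← ENNReal.ofReal_mul (by linarith)]
    congr 1
    rw [hlam]
    field_simp
  rw [hsplit, mul_assoc] at hchain
  have := (ENNReal.mul_le_mul_iff_right (by
    simp only [ne_eq, ENNReal.ofReal_eq_zero, not_le]; linarith) ENNReal.ofReal_ne_top).1 hchain
  rw [mul_comm]
  exact this

lemma refl2_eq_image (P : Set (ℝ × ℝ)) : refl2 P = (fun q : ℝ × ℝ => (q.1, -q.2)) '' P := by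
  ext q
  simp only [refl2, mem_setOf_eq, mem_image]
  constructor
  · intro hq
    exact ⟨(q.1, -q.2), hq, by simp⟩
  · rintro ⟨p, hp, rfl⟩
    simpa using hp

lemma refl2_compact {P : Set (ℝ × ℝ)} (hc : IsCompact P) : IsCompact (refl2 P) := by
  rw [refl2_eq_image]
  exact hc.image (by fun_prop)

lemma refl2_volume {P : Set (ℝ × ℝ)} (hc : IsCompact P) : volume (refl2 P) = volume P := by
  have hmp : MeasurePreserving (Prod.map (id : ℝ → ℝ) (fun z : ℝ => -z))
      ((volume : Measure ℝ).prod volume) ((volume : Measure ℝ).prod volume) :=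
    (MeasurePreserving.id volume).prod (Measure.measurePreserving_neg volume)
  have := hmp.measure_preimage hc.isClosed.measurableSet.nullMeasurableSet
  rw [Measure.volume_eq_prod]
  rw [← this]
  rfl

lemma refl2_hsec (P : Set (ℝ × ℝ)) (z : ℝ) : hsec (refl2 P) (-z) = hsec P z := by
  ext t
  simp [hsec, refl2]

/-- Lemma C: a section of a planar convex body is long compared with the area. -/
lemma width_bound {P : Set (ℝ × ℝ)} (hP : Convex ℝ P) (hc : IsCompact P) {z0 z1 z : ℝ}
    (hrange : ∀ q ∈ P, z0 ≤ q.2 ∧ q.2 ≤ z1)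
    (hbot : ∃ t, (t, z0) ∈ P) (htop : ∃ t, (t, z1) ∈ P) (hz : z ∈ Ioo z0 z1) :
    volume P * ENNReal.ofReal (2 * min (z - z0) (z1 - z) / (z1 - z0) ^ 2) ≤ volume (hsec P z) := by
  obtain ⟨tb, htb⟩ := hbot
  obtain ⟨tt, htt⟩ := htop
  have hℓ : 0 < z1 - z0 := by linarith [hz.1, hz.2]
  have hsecne : ∀ z' ∈ Icc z0 z1, ∃ t, (t, z') ∈ P := by
    intro z' hz'
    have hμ0 : 0 ≤ (z' - z0) / (z1 - z0) := div_nonneg (by linarith [hz'.1]) hℓ.le
    have hμ1 : (z' - z0) / (z1 - z0) ≤ 1 := by rw [div_le_one hℓ]; linarith [hz'.2]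
    have := seg_point hP htb htt hμ0 hμ1
    rw [div_mul_cancel₀ _ hℓ.ne'] at this
    have e : z0 + (z' - z0) = z' := by ring
    rw [e] at this
    exact ⟨_, this⟩
  rcases le_total (z - z0) (z1 - z) with hcase | hcase
  · rw [min_eq_left hcase]
    apply width_bottom hP hc htb hℓ _ hz.1 (by linarith) (hsecne _ ⟨by linarith [hz.1], by linarith⟩)
    intro q hq
    have := hrange q hq
    exact ⟨this.1, by linarith⟩
  · rw [min_eq_right hcase]
    have hP' := refl2_convex hP
    have hc' := refl2_compact hc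
    have htt' : (tt, -z1) ∈ refl2 P := by simp [refl2, htt]
    have key := width_bottom hP' hc' (z := -z) htt' hℓ (by
      intro q hq
      have := hrange _ hq
      simp only at this
      constructor <;> linarith) (by linarith [hz.2]) (by linarith) (by
      obtain ⟨t, ht⟩ := hsecne (2 * z - z1) ⟨by linarith, by linarith [hz.2]⟩
      refine ⟨t, ?_⟩
      simp only [refl2, mem_setOf_eq]
      convert ht using 2
      ring)
    rw [refl2_volume hc, refl2_hsec] at key
    convert key using 4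
    ring

end Vale.Agent.Lib.P243
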