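import Mathlib
import Vale.Agent.Lib.P243.Planar3
import Vale.Agent.Lib.P243.Width
import Vale.Agent.Lib.P243.Tent

open MeasureTheory Set Topology

namespace Vale.Agent.Lib.P243

lemma slice_ineq {K : Set (ℝ × ℝ)} (hK : Convex ℝ K) {s0 s1 t0 t1 w e σ ν : ℝ}
    (hs : s0 < s1) (ht : t0 < t1)
    (hbox : ∀ q ∈ K, s0 ≤ q.1 ∧ q.1 ≤ s1 ∧ t0 ≤ q.2 ∧ q.2 ≤ t1)
    (hW : (s0, w) ∈ K) (hE : (s1, e) ∈ K) (hS : (σ, t0) ∈ K) (hN : (ν, t1) ∈ K)
    (T S : Set ℝ) (hT : IsOpen T) (hcov : ∀ q ∈ K, q.2 ∈ T ∨ q.1 ∈ S) :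
    ENNReal.ofReal (s1 - s0) ≤ volume S + ENNReal.ofReal ((s1 - s0) / (t1 - t0)) * volume T := by
  have hsub : Icc s0 s1 ⊆ S ∪ secIn K s0 s1 T := by
    intro s hsI
    by_cases hsS : s ∈ S
    · left; exact hsS
    · right
      refine ⟨hsI, fun t ht => ?_⟩
      rcases hcov _ ht with h | h
      · exact h
      · exact absurd h hsS
  calc ENNReal.ofReal (s1 - s0) = volume (Icc s0 s1) := by rw [Real.volume_Icc]
    _ ≤ volume (S ∪ secIn K s0 s1 T) := measure_mono hsub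
    _ ≤ volume S + volume (secIn K s0 s1 T) := measure_union_le _ _
    _ ≤ _ := by
        gcongr
        exact hall_open hK hs ht hbox hW hE hS hN T hT

lemma inv_bound (v : ENNReal) (ω a : ℝ) (ha : 0 < a)
    (h : v * ENNReal.ofReal ω ≤ ENNReal.ofReal a) : ENNReal.ofReal (ω / a) ≤ v⁻¹ := by
  rw [ENNReal.le_inv_iff_mul_le, ENNReal.ofReal_div_of_pos ha]
  calc ENNReal.ofReal ω / ENNReal.ofReal a * v = (v * ENNReal.ofReal ω) / ENNReal.ofReal a := by
        rw [mul_comm, ← mul_div_assoc]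
    _ ≤ 1 := by
        apply ENNReal.div_le_of_le_mul
        rw [one_mul]
        exact h

/-- first projection of a body in coordinates `(s,t,z)`: forget `s`. -/
def proj1 (K : Set (ℝ × ℝ × ℝ)) : Set (ℝ × ℝ) := Prod.snd '' K

/-- second projection: forget `t`. -/
def proj2 (K : Set (ℝ × ℝ × ℝ)) : Set (ℝ × ℝ) := (fun x : ℝ × ℝ × ℝ => (x.1, x.2.2)) '' K

lemma mem_proj1 {K : Set (ℝ × ℝ × ℝ)} {t z : ℝ} : (t, z) ∈ proj1 K ↔ ∃ s, (s, t, z) ∈ K := by
  constructor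
  · rintro ⟨x, hx, hxe⟩
    refine ⟨x.1, ?_⟩
    have : x = (x.1, t, z) := by rw [← hxe]
    rw [← this]; exact hx
  · rintro ⟨s, hs⟩
    exact ⟨_, hs, rfl⟩

lemma mem_proj2 {K : Set (ℝ × ℝ × ℝ)} {s z : ℝ} : (s, z) ∈ proj2 K ↔ ∃ t, (s, t, z) ∈ K := by
  constructor
  · rintro ⟨x, hx, hxe⟩
    refine ⟨x.2.1, ?_⟩
    simp only [Prod.mk.injEq] at hxe
    have : x = (s, x.2.1, z) := by rw [← hxe.1, ← hxe.2]
    rw [← this]; exact hx
  · rintro ⟨t, ht⟩
    exact ⟨_, ht, rfl⟩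

lemma proj1_convex {K : Set (ℝ × ℝ × ℝ)} (hK : Convex ℝ K) : Convex ℝ (proj1 K) := by
  rintro _ ⟨x, hx, rfl⟩ _ ⟨y, hy, rfl⟩ a b ha hb hab
  exact ⟨a • x + b • y, hK hx hy ha hb hab, rfl⟩

lemma proj2_convex {K : Set (ℝ × ℝ × ℝ)} (hK : Convex ℝ K) : Convex ℝ (proj2 K) := by
  rintro _ ⟨x, hx, rfl⟩ _ ⟨y, hy, rfl⟩ a b ha hb hab
  exact ⟨a • x + b • y, hK hx hy ha hb hab, rfl⟩

lemma proj1_compact {K : Set (ℝ × ℝ × ℝ)} (hc : IsCompact K) : IsCompact (proj1 K) :=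
  hc.image continuous_snd

lemma proj2_compact {K : Set (ℝ × ℝ × ℝ)} (hc : IsCompact K) : IsCompact (proj2 K) :=
  hc.image (by fun_prop)

/-- the slice at height `z`. -/
def slice (K : Set (ℝ × ℝ × ℝ)) (z : ℝ) : Set (ℝ × ℝ) := {q | (q.1, q.2, z) ∈ K}

lemma slice_convex {K : Set (ℝ × ℝ × ℝ)} (hK : Convex ℝ K) (z : ℝ) : Convex ℝ (slice K z) := by
  intro p hp q hq a b ha hb hab
  have := hK hp hq ha hb hab
  simp only [slice, mem_setOf_eq] at *
  convert this using 1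
  ext
  · simp
  · simp
  · simp only [Prod.smul_mk, Prod.mk_add_mk, smul_eq_mul]
    rw [← add_mul, hab, one_mul]

lemma sec_data {X : Set ℝ} (hX : IsCompact X) (hpos : volume X ≠ 0) :
    sInf X ∈ X ∧ sSup X ∈ X ∧ X ⊆ Icc (sInf X) (sSup X) ∧ sInf X < sSup X ∧
      volume X ≤ ENNReal.ofReal (sSup X - sInf X) := by
  have hne : X.Nonempty := by
    by_contra h
    rw [not_nonempty_iff_eq_empty] at h
    apply hpos
    rw [h]; simp
  have hsub : X ⊆ Icc (sInf X) (sSup X) := subset_Icc_csInf_csSup hX.bddBelow hX.bddAbove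
  have hvol : volume X ≤ ENNReal.ofReal (sSup X - sInf X) := by
    calc volume X ≤ volume (Icc (sInf X) (sSup X)) := measure_mono hsub
      _ = _ := Real.volume_Icc
  refine ⟨hX.sInf_mem hne, hX.sSup_mem hne, hsub, ?_, hvol⟩
  by_contra hcon
  apply hpos
  have : ENNReal.ofReal (sSup X - sInf X) = 0 := by
    rw [ENNReal.ofReal_eq_zero]; linarith
  rw [this] at hvol
  exact le_antisymm hvol zero_le

lemma pointwise {K : Set (ℝ × ℝ × ℝ)} (hK : Convex ℝ K) (hc : IsCompact K)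
    (B₁ B₂ : Set (ℝ × ℝ)) (hB₁ : IsOpen B₁)
    (hcov : ∀ x ∈ K, x.2 ∈ B₁ ∨ (x.1, x.2.2) ∈ B₂) (z ω : ℝ) (hω : 0 < ω)
    (hv1 : volume (proj1 K) ≠ 0) (hv2 : volume (proj2 K) ≠ 0)
    (h1 : volume (proj1 K) * ENNReal.ofReal ω ≤ volume (hsec (proj1 K) z))
    (h2 : volume (proj2 K) * ENNReal.ofReal ω ≤ volume (hsec (proj2 K) z)) :
    ENNReal.ofReal ω ≤ volume (hsec B₁ z) / volume (proj1 K)
      + volume (hsec B₂ z) / volume (proj2 K) := by
  have hωne : ENNReal.ofReal ω ≠ 0 := by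
    simp only [ne_eq, ENNReal.ofReal_eq_zero, not_le]; exact hω
  have p1 : volume (hsec (proj1 K) z) ≠ 0 := by
    intro h
    rw [h] at h1
    exact (mul_ne_zero hv1 hωne) (le_antisymm h1 zero_le)
  have p2 : volume (hsec (proj2 K) z) ≠ 0 := by
    intro h
    rw [h] at h2
    exact (mul_ne_zero hv2 hωne) (le_antisymm h2 zero_le)
  obtain ⟨ht0, ht1, htsub, htlt, htvol⟩ := sec_data (hsec_compact (proj1_compact hc) z) p1
  obtain ⟨hs0, hs1, hssub, hslt, hsvol⟩ := sec_data (hsec_compact (proj2_compact hc) z) p2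
  set t0 := sInf (hsec (proj1 K) z)
  set t1 := sSup (hsec (proj1 K) z)
  set s0 := sInf (hsec (proj2 K) z)
  set s1 := sSup (hsec (proj2 K) z)
  obtain ⟨σ, hσ⟩ := mem_proj1.1 ht0
  obtain ⟨ν, hν⟩ := mem_proj1.1 ht1
  obtain ⟨w, hw⟩ := mem_proj2.1 hs0
  obtain ⟨e, he⟩ := mem_proj2.1 hs1
  have hbox : ∀ q ∈ slice K z, s0 ≤ q.1 ∧ q.1 ≤ s1 ∧ t0 ≤ q.2 ∧ q.2 ≤ t1 := by
    intro q hq
    have a1 : q.1 ∈ hsec (proj2 K) z := mem_proj2.2 ⟨q.2, hq⟩
    have a2 : q.2 ∈ hsec (proj1 K) z := mem_proj1.2 ⟨q.1, hq⟩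
    exact ⟨(hssub a1).1, (hssub a1).2, (htsub a2).1, (htsub a2).2⟩
  have hTo : IsOpen (hsec B₁ z) := hB₁.preimage (by fun_prop)
  have H := slice_ineq (slice_convex hK z) hslt htlt hbox (w := w) (e := e) (σ := σ) (ν := ν)
    hw he hσ hν (hsec B₁ z) (hsec B₂ z) hTo (by
      intro q hq
      exact hcov _ hq)
  have ha : 0 < s1 - s0 := by linarith
  have hb : 0 < t1 - t0 := by linarith
  have c2 : ENNReal.ofReal (ω / (s1 - s0)) ≤ (volume (proj2 K))⁻¹ :=
    inv_bound _ _ _ ha (h2.trans hsvol)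
  have c1 : ENNReal.ofReal (ω / (t1 - t0)) ≤ (volume (proj1 K))⁻¹ :=
    inv_bound _ _ _ hb (h1.trans htvol)
  calc ENNReal.ofReal ω = ENNReal.ofReal (ω / (s1 - s0)) * ENNReal.ofReal (s1 - s0) := by
        rw [← ENNReal.ofReal_mul (by positivity), div_mul_cancel₀ _ ha.ne']
    _ ≤ ENNReal.ofReal (ω / (s1 - s0)) * (volume (hsec B₂ z)
          + ENNReal.ofReal ((s1 - s0) / (t1 - t0)) * volume (hsec B₁ z)) := by
        gcongr
    _ = ENNReal.ofReal (ω / (t1 - t0)) * volume (hsec B₁ z)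
          + ENNReal.ofReal (ω / (s1 - s0)) * volume (hsec B₂ z) := by
        rw [mul_add, ← mul_assoc, ← ENNReal.ofReal_mul (by positivity), add_comm]
        congr 3
        field_simp
    _ ≤ (volume (proj1 K))⁻¹ * volume (hsec B₁ z) + (volume (proj2 K))⁻¹ * volume (hsec B₂ z) := by
        gcongr
    _ = _ := by
        rw [div_eq_mul_inv, div_eq_mul_inv, mul_comm, mul_comm (volume (proj2 K))⁻¹]

lemma proj1_vol_ne_zero {K : Set (ℝ × ℝ × ℝ)} (hint : (interior K).Nonempty) :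
    volume (proj1 K) ≠ 0 := by
  have ho : IsOpen (Prod.snd '' interior K : Set (ℝ × ℝ)) := isOpenMap_snd _ isOpen_interior
  have hne : (Prod.snd '' interior K : Set (ℝ × ℝ)).Nonempty := hint.image _
  have hpos := ho.measure_pos volume hne
  have hsub : (Prod.snd '' interior K : Set (ℝ × ℝ)) ⊆ proj1 K := image_mono interior_subset
  exact ne_of_gt (lt_of_lt_of_le hpos (measure_mono hsub))

lemma proj2_vol_ne_zero {K : Set (ℝ × ℝ × ℝ)} (hint : (interior K).Nonempty) :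
    volume (proj2 K) ≠ 0 := by
  have hom : IsOpenMap (Prod.map (id : ℝ → ℝ) (Prod.snd : ℝ × ℝ → ℝ)) :=
    IsOpenMap.id.prodMap isOpenMap_snd
  have ho : IsOpen (Prod.map (id : ℝ → ℝ) (Prod.snd : ℝ × ℝ → ℝ) '' interior K) :=
    hom _ isOpen_interior
  have hne : (Prod.map (id : ℝ → ℝ) (Prod.snd : ℝ × ℝ → ℝ) '' interior K).Nonempty := hint.image _
  have hpos := ho.measure_pos volume hne
  have hsub : (Prod.map (id : ℝ → ℝ) (Prod.snd : ℝ × ℝ → ℝ) '' interior K) ⊆ proj2 K :=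
    image_mono interior_subset
  exact ne_of_gt (lt_of_lt_of_le hpos (measure_mono hsub))

lemma fubini_hsec {B : Set (ℝ × ℝ)} (hB : MeasurableSet B) :
    volume B = ∫⁻ z, volume (hsec B z) := by
  rw [Measure.volume_eq_prod, Measure.prod_apply_symm hB]
  rfl

/-- Core theorem, first base open and second base measurable. -/
theorem core_open {K : Set (ℝ × ℝ × ℝ)} (hK : Convex ℝ K) (hc : IsCompact K)
    (hint : (interior K).Nonempty) (B₁ B₂ : Set (ℝ × ℝ)) (hB₁ : IsOpen B₁)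
    (hB₂ : MeasurableSet B₂) (hcov : ∀ x ∈ K, x.2 ∈ B₁ ∨ (x.1, x.2.2) ∈ B₂) :
    1 / 2 ≤ volume B₁ / volume (proj1 K) + volume B₂ / volume (proj2 K) := by
  have hne : K.Nonempty := hint.mono interior_subset
  have hcontz : ContinuousOn (fun x : ℝ × ℝ × ℝ => x.2.2) K := by fun_prop
  obtain ⟨x0, hx0, hmin⟩ := hc.exists_isMinOn hne hcontz
  obtain ⟨x1, hx1, hmax⟩ := hc.exists_isMaxOn hne hcontz
  set z0 := x0.2.2 with hz0
  set z1 := x1.2.2 with hz1
  have hlow : ∀ x ∈ K, z0 ≤ x.2.2 := fun x hx => hmin hx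
  have hupp : ∀ x ∈ K, x.2.2 ≤ z1 := fun x hx => hmax hx
  have hz01 : z0 < z1 := by
    obtain ⟨x, hx⟩ := hint
    rw [mem_interior_iff_mem_nhds, Metric.mem_nhds_iff] at hx
    obtain ⟨ε, hε, hball⟩ := hx
    have hy : (x.1, x.2.1, x.2.2 + ε / 2) ∈ K := by
      apply hball
      rw [Metric.mem_ball, Prod.dist_eq, Prod.dist_eq]
      simp only [dist_self, Real.dist_eq]
      rw [show x.2.2 + ε / 2 - x.2.2 = ε / 2 by ring, abs_of_pos (by linarith)]
      simp only [max_lt_iff]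
      refine ⟨hε, hε, by linarith⟩
    have hxK : x ∈ K := hball (Metric.mem_ball_self hε)
    have a1 := hlow x hxK
    have a2 := hupp _ hy
    simp only at a2
    linarith
  have hv1 := proj1_vol_ne_zero hint
  have hv2 := proj2_vol_ne_zero hint
  have hr1 : ∀ q ∈ proj1 K, z0 ≤ q.2 ∧ q.2 ≤ z1 := by
    rintro _ ⟨x, hx, rfl⟩
    exact ⟨hlow x hx, hupp x hx⟩
  have hr2 : ∀ q ∈ proj2 K, z0 ≤ q.2 ∧ q.2 ≤ z1 := by
    rintro _ ⟨x, hx, rfl⟩
    exact ⟨hlow x hx, hupp x hx⟩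
  have hpt : ∀ z ∈ Ioo z0 z1, ENNReal.ofReal (2 * min (z - z0) (z1 - z) / (z1 - z0) ^ 2)
      ≤ volume (hsec B₁ z) / volume (proj1 K) + volume (hsec B₂ z) / volume (proj2 K) := by
    intro z hz
    have hω : 0 < 2 * min (z - z0) (z1 - z) / (z1 - z0) ^ 2 := by
      have : 0 < min (z - z0) (z1 - z) := lt_min (by linarith [hz.1]) (by linarith [hz.2])
      have h2 : 0 < z1 - z0 := by linarith
      positivity
    apply pointwise hK hc B₁ B₂ hB₁ hcov z _ hω hv1 hv2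
    · exact width_bound (proj1_convex hK) (proj1_compact hc) hr1 ⟨x0.2.1, ⟨x0, hx0, rfl⟩⟩
        ⟨x1.2.1, ⟨x1, hx1, rfl⟩⟩ hz
    · exact width_bound (proj2_convex hK) (proj2_compact hc) hr2 ⟨x0.1, ⟨x0, hx0, rfl⟩⟩
        ⟨x1.1, ⟨x1, hx1, rfl⟩⟩ hz
  have hm1 : Measurable fun z => volume (hsec B₁ z) :=
    measurable_measure_prodMk_right hB₁.measurableSet
  have hm2 : Measurable fun z => volume (hsec B₂ z) := measurable_measure_prodMk_right hB₂
  calc (1 : ENNReal) / 2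
      = ∫⁻ z in Ioo z0 z1, ENNReal.ofReal (2 * min (z - z0) (z1 - z) / (z1 - z0) ^ 2) :=
        (tent_lintegral z0 z1 hz01).symm
    _ ≤ ∫⁻ z in Ioo z0 z1, (volume (hsec B₁ z) / volume (proj1 K)
          + volume (hsec B₂ z) / volume (proj2 K)) := setLIntegral_mono' measurableSet_Ioo hpt
    _ ≤ ∫⁻ z, (volume (hsec B₁ z) / volume (proj1 K)
          + volume (hsec B₂ z) / volume (proj2 K)) := setLIntegral_le_lintegral _ _
    _ = (∫⁻ z, volume (hsec B₁ z) / volume (proj1 K))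
          + ∫⁻ z, volume (hsec B₂ z) / volume (proj2 K) :=
        lintegral_add_left (hm1.div_const _) _
    _ = volume B₁ / volume (proj1 K) + volume B₂ / volume (proj2 K) := by
        simp only [div_eq_mul_inv]
        rw [lintegral_mul_const _ hm1, lintegral_mul_const _ hm2,
          ← fubini_hsec hB₁.measurableSet, ← fubini_hsec hB₂]

/-- Core theorem for arbitrary bases (outer measure). -/
theorem core_any {K : Set (ℝ × ℝ × ℝ)} (hK : Convex ℝ K) (hc : IsCompact K)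
    (hint : (interior K).Nonempty) (B₁ B₂ : Set (ℝ × ℝ))
    (hcov : ∀ x ∈ K, x.2 ∈ B₁ ∨ (x.1, x.2.2) ∈ B₂) :
    1 / 2 ≤ volume B₁ / volume (proj1 K) + volume B₂ / volume (proj2 K) := by
  have hv1 := proj1_vol_ne_zero hint
  have hv2 := proj2_vol_ne_zero hint
  apply ENNReal.le_of_forall_pos_le_add
  intro ε hε _
  set c : ENNReal := (volume (proj1 K))⁻¹ + (volume (proj2 K))⁻¹ with hcdef
  have hcfin : c ≠ ⊤ := by
    rw [hcdef]
    exact ENNReal.add_ne_top.2 ⟨ENNReal.inv_ne_top.2 hv1, ENNReal.inv_ne_top.2 hv2⟩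
  have hcpos : c ≠ 0 := by
    rw [hcdef]
    intro h
    have := (add_eq_zero.1 h).1
    rw [ENNReal.inv_eq_zero] at this
    exact (proj1_compact hc).measure_lt_top.ne this
  set δ : ENNReal := (ε : ENNReal) / c with hδ
  have hδ0 : δ ≠ 0 := by
    rw [hδ]
    exact (ENNReal.div_pos (by exact_mod_cast hε.ne') hcfin).ne'
  obtain ⟨U₁, hU₁, hU₁o, hU₁v⟩ := B₁.exists_isOpen_le_add volume hδ0
  obtain ⟨U₂, hU₂, hU₂o, hU₂v⟩ := B₂.exists_isOpen_le_add volume hδ0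
  have := core_open hK hc hint U₁ U₂ hU₁o hU₂o.measurableSet (by
    intro x hx
    rcases hcov x hx with h | h
    · exact Or.inl (hU₁ h)
    · exact Or.inr (hU₂ h))
  refine this.trans ?_
  calc volume U₁ / volume (proj1 K) + volume U₂ / volume (proj2 K)
      ≤ (volume B₁ + δ) / volume (proj1 K) + (volume B₂ + δ) / volume (proj2 K) := by
        gcongr
    _ = volume B₁ / volume (proj1 K) + volume B₂ / volume (proj2 K) + δ * c := by
        simp only [div_eq_mul_inv, hcdef]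
        ring
    _ = volume B₁ / volume (proj1 K) + volume B₂ / volume (proj2 K) + ε := by
        rw [hδ, ENNReal.div_mul_cancel hcpos hcfin]

end Vale.Agent.Lib.P243
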