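import Mathlib
import Vale.Agent.Lib.P243.Core

open MeasureTheory Set Topology

namespace Vale.Agent.Lib.P243

lemma scale {F : Type*} [NormedAddCommGroup F] [NormedSpace ℝ F] [FiniteDimensional ℝ F]
    [MeasurableSpace F] [BorelSpace F] (μ : Measure F) [μ.IsAddHaarMeasure]
    (M : (ℝ × ℝ) ≃L[ℝ] F) :
    ∃ c : ENNReal, c ≠ 0 ∧ c ≠ ⊤ ∧ ∀ Y : Set F, volume (M ⁻¹' Y) = c * μ Y := by
  have hH : (Measure.map M (volume : Measure (ℝ × ℝ))).IsAddHaarMeasure :=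
    M.isAddHaarMeasure_map _
  have heq := Measure.isAddLeftInvariant_eq_smul (Measure.map M (volume : Measure (ℝ × ℝ))) μ
  refine ⟨(Measure.addHaarScalarFactor (Measure.map M (volume : Measure (ℝ × ℝ))) μ : NNReal),
    ?_, ENNReal.coe_ne_top, ?_⟩
  · have := Measure.addHaarScalarFactor_pos_of_isAddHaarMeasure
      (Measure.map M (volume : Measure (ℝ × ℝ))) μ
    exact_mod_cast this.ne'
  · intro Y
    have h1 : Measure.map M (volume : Measure (ℝ × ℝ)) Y = volume (M ⁻¹' Y) :=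
      M.toHomeomorph.toMeasurableEquiv.map_apply Y
    rw [← h1]
    have h2 := congrArg (fun m : Measure F => m Y) heq
    exact h2

theorem transfer {E F₁ F₂ : Type*} [NormedAddCommGroup E] [NormedSpace ℝ E]
    [NormedAddCommGroup F₁] [NormedSpace ℝ F₁] [FiniteDimensional ℝ F₁]
    [MeasurableSpace F₁] [BorelSpace F₁]
    [NormedAddCommGroup F₂] [NormedSpace ℝ F₂] [FiniteDimensional ℝ F₂]
    [MeasurableSpace F₂] [BorelSpace F₂]
    (μ₁ : Measure F₁) [μ₁.IsAddHaarMeasure] (μ₂ : Measure F₂) [μ₂.IsAddHaarMeasure]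
    (e : (ℝ × ℝ × ℝ) ≃L[ℝ] E) (M₁ : (ℝ × ℝ) ≃L[ℝ] F₁) (M₂ : (ℝ × ℝ) ≃L[ℝ] F₂)
    (L₁ : E → F₁) (L₂ : E → F₂)
    (h₁ : ∀ x, L₁ (e x) = M₁ x.2) (h₂ : ∀ x, L₂ (e x) = M₂ (x.1, x.2.2))
    {K : Set E} (hK : Convex ℝ K) (hc : IsCompact K) (hint : (interior K).Nonempty)
    (C₁ : Set F₁) (C₂ : Set F₂) (hcov : ∀ x ∈ K, L₁ x ∈ C₁ ∨ L₂ x ∈ C₂) :
    1 / 2 ≤ μ₁ C₁ / μ₁ (L₁ '' K) + μ₂ C₂ / μ₂ (L₂ '' K) := by
  set K' : Set (ℝ × ℝ × ℝ) := e ⁻¹' K with hK'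
  have cK' : Convex ℝ K' := hK.linear_preimage (e : (ℝ × ℝ × ℝ) →ₗ[ℝ] E)
  have kK' : IsCompact K' := e.toHomeomorph.isCompact_preimage.2 hc
  have iK' : (interior K').Nonempty := by
    have : interior K' = e ⁻¹' interior K := (e.toHomeomorph.preimage_interior K).symm
    rw [this]
    obtain ⟨x, hx⟩ := hint
    exact ⟨e.symm x, by simpa using hx⟩
  have key := core_any cK' kK' iK' (M₁ ⁻¹' C₁) (M₂ ⁻¹' C₂) (by
    intro x hx
    rcases hcov (e x) hx with h | h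
    · left; rw [h₁] at h; exact h
    · right; rw [h₂] at h; exact h)
  have p1 : proj1 K' = M₁ ⁻¹' (L₁ '' K) := by
    ext ⟨t, z⟩
    rw [mem_proj1]
    constructor
    · rintro ⟨s, hs⟩
      exact ⟨e (s, t, z), hs, h₁ _⟩
    · rintro ⟨x, hx, hxe⟩
      obtain ⟨y, rfl⟩ := e.surjective x
      rw [h₁] at hxe
      have := M₁.injective hxe
      refine ⟨y.1, ?_⟩
      have hy : y = (y.1, t, z) := by rw [← this]
      rw [← hy]
      exact hx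
  have p2 : proj2 K' = M₂ ⁻¹' (L₂ '' K) := by
    ext ⟨s, z⟩
    rw [mem_proj2]
    constructor
    · rintro ⟨t, ht⟩
      exact ⟨e (s, t, z), ht, h₂ _⟩
    · rintro ⟨x, hx, hxe⟩
      obtain ⟨y, rfl⟩ := e.surjective x
      rw [h₂] at hxe
      have := M₂.injective hxe
      simp only [Prod.mk.injEq] at this
      refine ⟨y.2.1, ?_⟩
      have hy : y = (s, y.2.1, z) := by rw [← this.1, ← this.2]
      rw [← hy]
      exact hx
  obtain ⟨c₁, c₁0, c₁t, hc₁⟩ := scale μ₁ M₁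
  obtain ⟨c₂, c₂0, c₂t, hc₂⟩ := scale μ₂ M₂
  rw [p1, p2, hc₁, hc₁, hc₂, hc₂, ENNReal.mul_div_mul_left _ _ c₁0 c₁t,
    ENNReal.mul_div_mul_left _ _ c₂0 c₂t] at key
  exact key

end Vale.Agent.Lib.P243
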