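import Mathlib
import Vale.Agent.Lib.P243.Transfer

open MeasureTheory Set Topology Module

namespace Vale.Agent.Lib.P243

variable {E : Type*} [NormedAddCommGroup E] [InnerProductSpace ℝ E] [FiniteDimensional ℝ E]

lemma orth_finrank_one (hE : finrank ℝ E = 3) (V : Submodule ℝ E) (hV : finrank ℝ V = 2) :
    finrank ℝ Vᗮ = 1 := by
  have := V.finrank_add_finrank_orthogonal
  omega

lemma exists_normal (hE : finrank ℝ E = 3) (V : Submodule ℝ E) (hV : finrank ℝ V = 2) :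
    ∃ u ∈ Vᗮ, u ≠ 0 := by
  apply Submodule.exists_mem_ne_zero_of_ne_bot
  intro h
  have := orth_finrank_one hE V hV
  rw [h] at this
  simp at this

lemma orth_eq_span (hE : finrank ℝ E = 3) (V : Submodule ℝ E) (hV : finrank ℝ V = 2) {u : E}
    (hu : u ∈ Vᗮ) (hu0 : u ≠ 0) : Submodule.span ℝ {u} = Vᗮ := by
  apply Submodule.eq_of_le_of_finrank_eq
  · rw [Submodule.span_singleton_le_iff_mem]; exact hu
  · rw [finrank_span_singleton hu0, orth_finrank_one hE V hV]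

lemma normal_not_mem (hE : finrank ℝ E = 3) (V₁ V₂ : Submodule ℝ E) (h₁ : finrank ℝ V₁ = 2)
    (h₂ : finrank ℝ V₂ = 2) (hne : V₁ ≠ V₂) {u : E} (hu : u ∈ V₂ᗮ) (hu0 : u ≠ 0) : u ∉ V₁ᗮ := by
  intro hcon
  apply hne
  have e1 := orth_eq_span hE V₁ h₁ hcon hu0
  have e2 := orth_eq_span hE V₂ h₂ hu hu0
  have : V₁ᗮ = V₂ᗮ := by rw [← e1, ← e2]
  calc V₁ = V₁ᗮᗮ := (Submodule.orthogonal_orthogonal V₁).symm
    _ = V₂ᗮᗮ := by rw [this]
    _ = V₂ := Submodule.orthogonal_orthogonal V₂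

lemma exists_common (hE : finrank ℝ E = 3) (V₁ V₂ : Submodule ℝ E) (h₁ : finrank ℝ V₁ = 2)
    (h₂ : finrank ℝ V₂ = 2) : ∃ u ∈ V₁ ⊓ V₂, u ≠ 0 := by
  apply Submodule.exists_mem_ne_zero_of_ne_bot
  intro h
  have h3 := Submodule.finrank_sup_add_finrank_inf_eq V₁ V₂
  have h4 : finrank ℝ ↥(V₁ ⊔ V₂) ≤ finrank ℝ E := Submodule.finrank_le _
  rw [h] at h3
  simp at h3
  omega

/-- the linear map `(t,z) ↦ t a + z b`. -/
noncomputable def lin2 (a b : E) : (ℝ × ℝ) →ₗ[ℝ] E :=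
  (LinearMap.fst ℝ ℝ ℝ).smulRight a + (LinearMap.snd ℝ ℝ ℝ).smulRight b

@[simp] lemma lin2_apply (a b : E) (p : ℝ × ℝ) : lin2 a b p = p.1 • a + p.2 • b := by
  simp [lin2]

/-- the linear map `(s,t,z) ↦ s a + t b + z c`. -/
noncomputable def lin3 (a b c : E) : (ℝ × ℝ × ℝ) →ₗ[ℝ] E :=
  (LinearMap.fst ℝ ℝ (ℝ × ℝ)).smulRight a + (lin2 b c).comp (LinearMap.snd ℝ ℝ (ℝ × ℝ))

@[simp] lemma lin3_apply (a b c : E) (x : ℝ × ℝ × ℝ) :
    lin3 a b c x = x.1 • a + (x.2.1 • b + x.2.2 • c) := by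
  simp [lin3]

lemma planeMap_injective (V : Submodule ℝ E) {a c : E} (hc : c ∈ V) (hc0 : c ≠ 0)
    (hac : inner ℝ (c) (a) = 0) (ha : a ∉ Vᗮ) :
    Function.Injective ((V.orthogonalProjectionOnto : E →ₗ[ℝ] V).comp (lin2 a c)) := by
  rw [← LinearMap.ker_eq_bot, LinearMap.ker_eq_bot']
  intro p hp
  have hp' : V.orthogonalProjectionOnto (p.1 • a + p.2 • c) = 0 := by
    simpa using hp
  rw [Submodule.orthogonalProjectionOnto_eq_zero_iff] at hp'
  have h1 : inner ℝ (c) (p.1 • a + p.2 • c) = 0 := Submodule.inner_right_of_mem_orthogonal hc hp'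
  rw [inner_add_right, inner_smul_right, inner_smul_right, hac, mul_zero, zero_add] at h1
  have hcc : inner ℝ (c) (c) ≠ 0 := by
    rw [Ne, inner_self_eq_zero]; exact hc0
  have hp2 : p.2 = 0 := by
    rcases mul_eq_zero.1 h1 with h | h
    · exact h
    · exact absurd h hcc
  rw [hp2, zero_smul, add_zero] at hp'
  have hp1 : p.1 = 0 := by
    by_contra hne
    apply ha
    have := Vᗮ.smul_mem (p.1)⁻¹ hp'
    rwa [smul_smul, inv_mul_cancel₀ hne, one_smul] at this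
  ext <;> simp [hp1, hp2]

lemma lin3_injective (V₁ : Submodule ℝ E) {u₁ u₂ u₃ : E} (hu₁ : u₁ ∈ V₁ᗮ) (hu₁0 : u₁ ≠ 0)
    (hu₃ : u₃ ∈ V₁) (hu₃0 : u₃ ≠ 0) (h32 : inner ℝ (u₃) (u₂) = 0) (hu₂ : u₂ ∉ V₁ᗮ) :
    Function.Injective (lin3 u₁ u₂ u₃) := by
  rw [← LinearMap.ker_eq_bot, LinearMap.ker_eq_bot']
  intro x hx
  rw [lin3_apply] at hx
  have hproj : V₁.orthogonalProjectionOnto (x.1 • u₁ + (x.2.1 • u₂ + x.2.2 • u₃)) = 0 := by
    rw [hx]; simp
  rw [map_add, map_smul, (Submodule.orthogonalProjectionOnto_eq_zero_iff).2 hu₁, smul_zero,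
    zero_add] at hproj
  have hinj := planeMap_injective V₁ hu₃ hu₃0 h32 hu₂
  have h2 : x.2 = 0 := by
    apply hinj
    simpa using hproj
  have h21 : x.2.1 = 0 := by rw [h2]; rfl
  have h22 : x.2.2 = 0 := by rw [h2]; rfl
  rw [h21, h22] at hx
  simp only [zero_smul, add_zero] at hx
  have h1 : x.1 = 0 := by
    rcases smul_eq_zero.1 hx with h | h
    · exact h
    · exact absurd h hu₁0
  ext
  · exact h1
  · exact h21
  · exact h22

end Vale.Agent.Lib.P243
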