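import Mathlib
import Vale.Agent.Lib.P243.Planes

open MeasureTheory Set Topology Module

namespace Vale.Agent.Lib.P243

variable {E : Type*} [NormedAddCommGroup E] [InnerProductSpace ℝ E] [FiniteDimensional ℝ E]
  [MeasurableSpace E] [BorelSpace E]

lemma finrank_R2 : finrank ℝ (ℝ × ℝ) = 2 := by simp

lemma finrank_R3 : finrank ℝ (ℝ × ℝ × ℝ) = 3 := by simp

theorem two_planes_ne (hE : finrank ℝ E = 3) (V₁ V₂ : Submodule ℝ E)
    (h₁ : finrank ℝ V₁ = 2) (h₂ : finrank ℝ V₂ = 2) (hne : V₁ ≠ V₂)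
    {K : Set E} (hK : Convex ℝ K) (hc : IsCompact K) (hint : (interior K).Nonempty)
    (C₁ : Set V₁) (C₂ : Set V₂)
    (hcov : ∀ x ∈ K, V₁.orthogonalProjectionOnto x ∈ C₁ ∨ V₂.orthogonalProjectionOnto x ∈ C₂) :
    1 / 2 ≤ volume C₁ / volume (V₁.orthogonalProjectionOnto '' K)
      + volume C₂ / volume (V₂.orthogonalProjectionOnto '' K) := by
  obtain ⟨u₁, hu₁, hu₁0⟩ := exists_normal hE V₁ h₁
  obtain ⟨u₂, hu₂, hu₂0⟩ := exists_normal hE V₂ h₂
  obtain ⟨u₃, hu₃, hu₃0⟩ := exists_common hE V₁ V₂ h₁ h₂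
  have hu₃1 : u₃ ∈ V₁ := hu₃.1
  have hu₃2 : u₃ ∈ V₂ := hu₃.2
  have h31 : inner ℝ u₃ u₁ = 0 := Submodule.inner_right_of_mem_orthogonal hu₃1 hu₁
  have h32 : inner ℝ u₃ u₂ = 0 := Submodule.inner_right_of_mem_orthogonal hu₃2 hu₂
  have n21 : u₂ ∉ V₁ᗮ := normal_not_mem hE V₁ V₂ h₁ h₂ hne hu₂ hu₂0
  have n12 : u₁ ∉ V₂ᗮ := normal_not_mem hE V₂ V₁ h₂ h₁ hne.symm hu₁ hu₁0
  have i3 := lin3_injective V₁ hu₁ hu₁0 hu₃1 hu₃0 h32 n21
  have i1 := planeMap_injective V₁ hu₃1 hu₃0 h32 n21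
  have i2 := planeMap_injective V₂ hu₃2 hu₃0 h31 n12
  let e : (ℝ × ℝ × ℝ) ≃L[ℝ] E :=
    (LinearEquiv.ofInjectiveOfFinrankEq (lin3 u₁ u₂ u₃) i3
      (by rw [finrank_R3, hE])).toContinuousLinearEquiv
  let M₁ : (ℝ × ℝ) ≃L[ℝ] V₁ :=
    (LinearEquiv.ofInjectiveOfFinrankEq _ i1 (by rw [finrank_R2, h₁])).toContinuousLinearEquiv
  let M₂ : (ℝ × ℝ) ≃L[ℝ] V₂ :=
    (LinearEquiv.ofInjectiveOfFinrankEq _ i2 (by rw [finrank_R2, h₂])).toContinuousLinearEquiv
  have he : ∀ x, e x = x.1 • u₁ + (x.2.1 • u₂ + x.2.2 • u₃) := by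
    intro x
    exact lin3_apply u₁ u₂ u₃ x
  have hM₁ : ∀ p, M₁ p = V₁.orthogonalProjectionOnto (p.1 • u₂ + p.2 • u₃) := by
    intro p
    rfl
  have hM₂ : ∀ p, M₂ p = V₂.orthogonalProjectionOnto (p.1 • u₁ + p.2 • u₃) := by
    intro p
    rfl
  refine transfer volume volume e M₁ M₂ (fun x => V₁.orthogonalProjectionOnto x)
    (fun x => V₂.orthogonalProjectionOnto x) ?_ ?_ hK hc hint C₁ C₂ hcov
  · intro x
    rw [he, hM₁, map_add, map_smul, (Submodule.orthogonalProjectionOnto_eq_zero_iff).2 hu₁,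
      smul_zero, zero_add]
  · intro x
    rw [he, hM₂, map_add, map_add, map_add, map_smul _ x.2.1,
      (Submodule.orthogonalProjectionOnto_eq_zero_iff).2 hu₂, smul_zero, zero_add]

lemma proj_vol_ne_zero (V : Submodule ℝ E) {K : Set E} (hint : (interior K).Nonempty) :
    volume (V.orthogonalProjectionOnto '' K) ≠ 0 := by
  have hsurj : Function.Surjective V.orthogonalProjectionOnto := by
    intro y
    exact ⟨y, Submodule.orthogonalProjectionOnto_mem_subspace_eq_self y⟩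
  have hopen : IsOpenMap V.orthogonalProjectionOnto :=
    ContinuousLinearMap.isOpenMap _ hsurj
  have h1 : IsOpen (V.orthogonalProjectionOnto '' interior K) := hopen _ isOpen_interior
  have h2 : (V.orthogonalProjectionOnto '' interior K).Nonempty := hint.image _
  have h3 : 0 < volume (V.orthogonalProjectionOnto '' interior K) := h1.measure_pos _ h2
  have h4 : volume (V.orthogonalProjectionOnto '' interior K)
      ≤ volume (V.orthogonalProjectionOnto '' K) :=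
    measure_mono (image_mono interior_subset)
  exact (lt_of_lt_of_le h3 h4).ne'

lemma proj_vol_ne_top (V : Submodule ℝ E) {K : Set E} (hc : IsCompact K) :
    volume (V.orthogonalProjectionOnto '' K) ≠ ⊤ :=
  (hc.image V.orthogonalProjectionOnto.continuous).measure_lt_top.ne

theorem two_planes_eq (V : Submodule ℝ E)
    {K : Set E} (hc : IsCompact K) (hint : (interior K).Nonempty)
    (C₁ : Set V) (C₂ : Set V)
    (hcov : ∀ x ∈ K, V.orthogonalProjectionOnto x ∈ C₁ ∨ V.orthogonalProjectionOnto x ∈ C₂) :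
    1 / 2 ≤ volume C₁ / volume (V.orthogonalProjectionOnto '' K)
      + volume C₂ / volume (V.orthogonalProjectionOnto '' K) := by
  have h0 := proj_vol_ne_zero V hint
  have ht := proj_vol_ne_top V hc
  have hsub : V.orthogonalProjectionOnto '' K ⊆ C₁ ∪ C₂ := by
    rintro _ ⟨x, hx, rfl⟩
    exact hcov x hx
  have h1 : volume (V.orthogonalProjectionOnto '' K) ≤ volume C₁ + volume C₂ :=
    (measure_mono hsub).trans (measure_union_le _ _)
  rw [← ENNReal.add_div]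
  calc (1 : ENNReal) / 2 ≤ 1 := ENNReal.half_le_self
    _ = volume (V.orthogonalProjectionOnto '' K) / volume (V.orthogonalProjectionOnto '' K) :=
        (ENNReal.div_self h0 ht).symm
    _ ≤ _ := ENNReal.div_le_div_right h1 _

theorem two_planes (hE : finrank ℝ E = 3) (V₁ V₂ : Submodule ℝ E)
    (h₁ : finrank ℝ V₁ = 2) (h₂ : finrank ℝ V₂ = 2)
    {K : Set E} (hK : Convex ℝ K) (hc : IsCompact K) (hint : (interior K).Nonempty)
    (C₁ : Set V₁) (C₂ : Set V₂)
    (hcov : ∀ x ∈ K, V₁.orthogonalProjectionOnto x ∈ C₁ ∨ V₂.orthogonalProjectionOnto x ∈ C₂) :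
    1 / 2 ≤ volume C₁ / volume (V₁.orthogonalProjectionOnto '' K)
      + volume C₂ / volume (V₂.orthogonalProjectionOnto '' K) := by
  by_cases hne : V₁ = V₂
  · subst hne
    exact two_planes_eq V₁ hc hint C₁ C₂ hcov
  · exact two_planes_ne hE V₁ V₂ h₁ h₂ hne hK hc hint C₁ C₂ hcov

end Vale.Agent.Lib.P243
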