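import Mathlib
import Vale.Agent.Lib.P243.Final

open MeasureTheory Set Topology Module

namespace Vale.Agent.Lib.P243

variable {E : Type*} [NormedAddCommGroup E] [InnerProductSpace ℝ E] [FiniteDimensional ℝ E]
  [MeasurableSpace E] [BorelSpace E]

/-- transport of a subset of a subspace to an equal subspace. -/
def carry (V W : Submodule ℝ E) (B : Set V) : Set W := {y | ∃ b ∈ B, (b : E) = (y : E)}

lemma carry_vol {V W : Submodule ℝ E} (h : V = W) (B : Set V) :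
    volume (carry V W B) = volume B := by
  subst h
  congr 1
  ext y
  constructor
  · rintro ⟨b, hb, hby⟩
    have : b = y := Subtype.ext hby
    rwa [← this]
  · intro hy
    exact ⟨y, hy, rfl⟩

lemma proj_vol_eq {V W : Submodule ℝ E} (h : V = W) (K : Set E) :
    volume (V.orthogonalProjectionOnto '' K) = volume (W.orthogonalProjectionOnto '' K) := by
  subst h
  rfl

lemma carry_mem {V W : Submodule ℝ E} (h : V = W) (B : Set V) {x : E}
    (hx : V.orthogonalProjectionOnto x ∈ B) : W.orthogonalProjectionOnto x ∈ carry V W B := by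
  subst h
  exact ⟨_, hx, rfl⟩

lemma proj_cyl (u : E) (b : (ℝ ∙ u)ᗮ) (t : ℝ) :
    (ℝ ∙ u)ᗮ.orthogonalProjectionOnto ((b : E) + t • u) = b := by
  rw [map_add, Submodule.orthogonalProjectionOnto_mem_subspace_eq_self, map_smul]
  have : (ℝ ∙ u)ᗮ.orthogonalProjectionOnto u = 0 := by
    rw [Submodule.orthogonalProjectionOnto_eq_zero_iff, Submodule.orthogonal_orthogonal]
    exact Submodule.mem_span_singleton_self u
  rw [this, smul_zero, add_zero]

lemma finrank_orth_unit (hE : finrank ℝ E = 3) {v : E} (hv : ‖v‖ = 1) :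
    finrank ℝ (ℝ ∙ v)ᗮ = 2 := by
  have hv0 : v ≠ 0 := by
    intro h
    rw [h, norm_zero] at hv
    exact zero_ne_one hv
  have h1 := (ℝ ∙ v).finrank_add_finrank_orthogonal
  rw [finrank_span_singleton hv0] at h1
  omega

theorem family_bound (hE : finrank ℝ E = 3)
    {K : Set E} (hK : Convex ℝ K) (hc : IsCompact K) (hint : (interior K).Nonempty)
    {ι : Type*} [Fintype ι] (u : ι → E)
    (B : (i : ι) → Set (ℝ ∙ u i)ᗮ)
    (hcov : ∀ x ∈ K, ∃ i, ∃ b ∈ B i, ∃ t : ℝ, x = (b : E) + t • u i)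
    (v w : E) (hv : ‖v‖ = 1) (hw : ‖w‖ = 1)
    (hdir : ∀ i, ℝ ∙ u i = ℝ ∙ v ∨ ℝ ∙ u i = ℝ ∙ w) :
    1 / 2 ≤ ∑ i, volume (B i) / volume ((ℝ ∙ u i)ᗮ.orthogonalProjectionOnto '' K) := by
  classical
  set P : Submodule ℝ E := (ℝ ∙ v)ᗮ with hP
  set Q : Submodule ℝ E := (ℝ ∙ w)ᗮ with hQ
  set I₁ : Finset ι := Finset.univ.filter (fun i => ℝ ∙ u i = ℝ ∙ v) with hI₁
  set I₂ : Finset ι := Finset.univ.filter (fun i => ¬ (ℝ ∙ u i = ℝ ∙ v)) with hI₂
  have e₁ : ∀ i ∈ I₁, (ℝ ∙ u i)ᗮ = P := by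
    intro i hi
    rw [hI₁, Finset.mem_filter] at hi
    rw [hP, hi.2]
  have e₂ : ∀ i ∈ I₂, (ℝ ∙ u i)ᗮ = Q := by
    intro i hi
    rw [hI₂, Finset.mem_filter] at hi
    rcases hdir i with h | h
    · exact absurd h hi.2
    · rw [hQ, h]
  set C₁ : Set P := ⋃ i ∈ I₁, carry (ℝ ∙ u i)ᗮ P (B i) with hC₁
  set C₂ : Set Q := ⋃ i ∈ I₂, carry (ℝ ∙ u i)ᗮ Q (B i) with hC₂
  have key := two_planes hE P Q (finrank_orth_unit hE hv) (finrank_orth_unit hE hw) hK hc hint
    C₁ C₂ (by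
      intro x hx
      obtain ⟨i, b, hb, t, rfl⟩ := hcov x hx
      have hpi : (ℝ ∙ u i)ᗮ.orthogonalProjectionOnto ((b : E) + t • u i) ∈ B i := by
        rw [proj_cyl]; exact hb
      by_cases hi : ℝ ∙ u i = ℝ ∙ v
      · left
        have hi' : i ∈ I₁ := by rw [hI₁, Finset.mem_filter]; exact ⟨Finset.mem_univ _, hi⟩
        exact mem_iUnion₂.2 ⟨i, hi', carry_mem (e₁ i hi') (B i) hpi⟩
      · right
        have hi' : i ∈ I₂ := by rw [hI₂, Finset.mem_filter]; exact ⟨Finset.mem_univ _, hi⟩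
        exact mem_iUnion₂.2 ⟨i, hi', carry_mem (e₂ i hi') (B i) hpi⟩)
  have b₁ : volume C₁ / volume (P.orthogonalProjectionOnto '' K)
      ≤ ∑ i ∈ I₁, volume (B i) / volume ((ℝ ∙ u i)ᗮ.orthogonalProjectionOnto '' K) := by
    calc volume C₁ / volume (P.orthogonalProjectionOnto '' K)
        ≤ (∑ i ∈ I₁, volume (carry (ℝ ∙ u i)ᗮ P (B i)))
            / volume (P.orthogonalProjectionOnto '' K) :=
          ENNReal.div_le_div_right (measure_biUnion_finset_le _ _) _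
      _ = ∑ i ∈ I₁, volume (carry (ℝ ∙ u i)ᗮ P (B i))
            / volume (P.orthogonalProjectionOnto '' K) := by
          simp only [div_eq_mul_inv, Finset.sum_mul]
      _ = ∑ i ∈ I₁, volume (B i) / volume ((ℝ ∙ u i)ᗮ.orthogonalProjectionOnto '' K) := by
          apply Finset.sum_congr rfl
          intro i hi
          rw [carry_vol (e₁ i hi), proj_vol_eq (e₁ i hi)]
  have b₂ : volume C₂ / volume (Q.orthogonalProjectionOnto '' K)
      ≤ ∑ i ∈ I₂, volume (B i) / volume ((ℝ ∙ u i)ᗮ.orthogonalProjectionOnto '' K) := by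
    calc volume C₂ / volume (Q.orthogonalProjectionOnto '' K)
        ≤ (∑ i ∈ I₂, volume (carry (ℝ ∙ u i)ᗮ Q (B i)))
            / volume (Q.orthogonalProjectionOnto '' K) :=
          ENNReal.div_le_div_right (measure_biUnion_finset_le _ _) _
      _ = ∑ i ∈ I₂, volume (carry (ℝ ∙ u i)ᗮ Q (B i))
            / volume (Q.orthogonalProjectionOnto '' K) := by
          simp only [div_eq_mul_inv, Finset.sum_mul]
      _ = ∑ i ∈ I₂, volume (B i) / volume ((ℝ ∙ u i)ᗮ.orthogonalProjectionOnto '' K) := by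
          apply Finset.sum_congr rfl
          intro i hi
          rw [carry_vol (e₂ i hi), proj_vol_eq (e₂ i hi)]
  calc (1 : ENNReal) / 2 ≤ _ := key
    _ ≤ _ := add_le_add b₁ b₂
    _ = _ := Finset.sum_filter_add_sum_filter_not _ _ _

theorem family_bang (hE : finrank ℝ E = 3)
    {K : Set E} (hK : Convex ℝ K) (hc : IsCompact K) (hint : (interior K).Nonempty)
    {ι : Type*} [Fintype ι] (u : ι → E) (hu : ∀ i, ‖u i‖ = 1)
    (B : (i : ι) → Set (ℝ ∙ u i)ᗮ)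
    (hcov : ∀ x ∈ K, ∃ i, ∃ b ∈ B i, ∃ t : ℝ, x = (b : E) + t • u i)
    (v w : E) (hv : ‖v‖ = 1) (hw : ‖w‖ = 1)
    (hdir : ∀ i, ℝ ∙ u i = ℝ ∙ v ∨ ℝ ∙ u i = ℝ ∙ w) :
    (⨅ n : {n : E // ‖n‖ = 1}, volume ((ℝ ∙ n.1)ᗮ.orthogonalProjectionOnto '' K)) / 2
      ≤ ∑ i, volume (B i) := by
  set A : ENNReal :=
    ⨅ n : {n : E // ‖n‖ = 1}, volume ((ℝ ∙ n.1)ᗮ.orthogonalProjectionOnto '' K) with hA
  have h1 := family_bound hE hK hc hint u B hcov v w hv hw hdir
  have hAle : ∀ i, A ≤ volume ((ℝ ∙ u i)ᗮ.orthogonalProjectionOnto '' K) := by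
    intro i
    exact iInf_le (fun n : {n : E // ‖n‖ = 1} =>
      volume ((ℝ ∙ n.1)ᗮ.orthogonalProjectionOnto '' K)) ⟨u i, hu i⟩
  have hAtop : A ≠ ⊤ := by
    have : A ≤ volume ((ℝ ∙ v)ᗮ.orthogonalProjectionOnto '' K) :=
      iInf_le (fun n : {n : E // ‖n‖ = 1} =>
        volume ((ℝ ∙ n.1)ᗮ.orthogonalProjectionOnto '' K)) ⟨v, hv⟩
    exact (lt_of_le_of_lt this (proj_vol_ne_top _ hc).lt_top).ne
  by_cases hA0 : A = 0
  · rw [hA0]; simp
  have h2 : (1 : ENNReal) / 2 ≤ (∑ i, volume (B i)) / A := by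
    calc (1 : ENNReal) / 2 ≤ _ := h1
      _ ≤ ∑ i, volume (B i) / A := by
          apply Finset.sum_le_sum
          intro i _
          exact ENNReal.div_le_div_left (hAle i) _
      _ = (∑ i, volume (B i)) / A := by
          simp only [div_eq_mul_inv, Finset.sum_mul]
  rw [ENNReal.le_div_iff_mul_le (Or.inl hA0) (Or.inl hAtop)] at h2
  calc A / 2 = 1 / 2 * A := by
        rw [div_eq_mul_inv, div_eq_mul_inv, one_mul, mul_comm]
    _ ≤ _ := h2

end Vale.Agent.Lib.P243
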