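import Mathlib
import Vale.Agent.Lib.P243.Family

open MeasureTheory Set Topology Module

namespace Vale.Agent.Lib.P243

variable {E : Type*} [NormedAddCommGroup E] [InnerProductSpace ℝ E] [FiniteDimensional ℝ E]
  [MeasurableSpace E] [BorelSpace E]

/-- orthonormal coordinates on a plane. -/
noncomputable def cmap (V : Submodule ℝ E) (a c : E) : V → ℝ × ℝ :=
  fun y => (inner ℝ (y : E) a, inner ℝ (y : E) c)

lemma cmap_vol (V : Submodule ℝ E) (hV : finrank ℝ V = 2) {a c : E} (ha : a ∈ V) (hc : c ∈ V)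
    (ha1 : ‖a‖ = 1) (hc1 : ‖c‖ = 1) (hac : inner ℝ a c = 0) (Y : Set V) :
    volume (cmap V a c '' Y) = volume Y := by
  set v : Fin 2 → V := ![⟨a, ha⟩, ⟨c, hc⟩] with hv
  have hon : Orthonormal ℝ v := by
    constructor
    · intro i
      fin_cases i
      · simpa [hv] using ha1
      · simpa [hv] using hc1
    · intro i j hij
      fin_cases i <;> fin_cases j
      · exact absurd rfl hij
      · simpa [hv] using hac
      · simp only [hv]
        rw [real_inner_comm]
        simpa using hac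
      · exact absurd rfl hij
  set bs := basisOfOrthonormalOfCardEqFinrank hon (by simp [hV]) with hbs
  have hbsv : (bs : Fin 2 → V) = v := coe_basisOfOrthonormalOfCardEqFinrank hon _
  set bb : OrthonormalBasis (Fin 2) ℝ V := bs.toOrthonormalBasis (by rw [hbsv]; exact hon) with hbb
  have hbbv : (bb : Fin 2 → V) = v := by rw [hbb, Basis.coe_toOrthonormalBasis, hbsv]
  set e : V ≃ᵐ ℝ × ℝ := bb.measurableEquiv.trans
    ((MeasurableEquiv.toLp 2 (Fin 2 → ℝ)).symm.trans MeasurableEquiv.finTwoArrow) with he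
  have mp : MeasurePreserving e volume volume :=
    (volume_preserving_finTwoArrow ℝ).comp
      ((EuclideanSpace.volume_preserving_symm_measurableEquiv_toLp (Fin 2)).comp
        bb.measurePreserving_measurableEquiv)
  have hec : ∀ y, e y = cmap V a c y := by
    intro y
    have h0 : bb.repr y 0 = inner ℝ (y : E) a := by
      rw [bb.repr_apply_apply, hbbv, real_inner_comm]
      simp [hv]
    have h1 : bb.repr y 1 = inner ℝ (y : E) c := by
      rw [bb.repr_apply_apply, hbbv, real_inner_comm]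
      simp [hv]
    simp only [cmap]
    rw [← h0, ← h1]
    rfl
  have himg : cmap V a c '' Y = e '' Y := by
    apply image_congr
    intro y _
    exact (hec y).symm
  rw [himg, ← mp.measure_preimage_equiv (e '' Y), e.injective.preimage_image]

lemma exists_third (hE : finrank ℝ E = 3) {p q : E} (hp : ‖p‖ = 1) (hq : ‖q‖ = 1) :
    ∃ r : E, ‖r‖ = 1 ∧ inner ℝ r p = 0 ∧ inner ℝ r q = 0 := by
  obtain ⟨r0, hr0, hne⟩ := exists_common hE (ℝ ∙ p)ᗮ (ℝ ∙ q)ᗮ (finrank_orth_unit hE hp)
    (finrank_orth_unit hE hq)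
  have h1 : inner ℝ r0 p = 0 := Submodule.mem_orthogonal_singleton_iff_inner_left.1 hr0.1
  have h2 : inner ℝ r0 q = 0 := Submodule.mem_orthogonal_singleton_iff_inner_left.1 hr0.2
  have hpos : 0 < ‖r0‖ := norm_pos_iff.2 hne
  refine ⟨(‖r0‖⁻¹) • r0, ?_, ?_, ?_⟩
  · rw [norm_smul, norm_inv, norm_norm, inv_mul_cancel₀ hpos.ne']
  · rw [inner_smul_left, h1, mul_zero]
  · rw [inner_smul_left, h2, mul_zero]

end Vale.Agent.Lib.P243
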