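import Mathlib
import Vale.Agent.Lib.P243.Bang
import Vale.Agent.Lib.P243.Planar3

open MeasureTheory Set Topology

namespace Vale.Agent.Lib.P243

variable {F : Type*} [NormedAddCommGroup F] [InnerProductSpace ℝ F]

lemma comp_disjoint (T : Set ℝ) :
    (ordConnectedSection T).PairwiseDisjoint (fun x => ordConnectedComponent T x) := by
  intro x hx x' hx' hne'
  rw [Function.onFun, Set.disjoint_left]
  intro z hz hz'
  apply hne'
  apply eq_of_mem_ordConnectedSection_of_uIcc_subset hx hx'
  have h1 : z ∈ ordConnectedComponent T x := hz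
  have h2 : x' ∈ ordConnectedComponent T z := mem_ordConnectedComponent_comm.1 hz'
  exact mem_ordConnectedComponent_trans h1 h2

/-- Bang's plank theorem for generalised planks with bounded open bases. -/
theorem gen_plank_bdd [CompleteSpace F] {ι : Type*} [Fintype ι] {X : Set F} (hX : Convex ℝ X)
    (hc : IsCompact X) (hne : X.Nonempty) {W : ℝ} (hwide : Wide X W)
    (m : ι → F) (hm : ∀ i, ‖m i‖ = 1) (U : ι → Set ℝ) (hU : ∀ i, IsOpen (U i)) (R : ℝ)
    (hR : ∀ i, U i ⊆ Ioo (-R) R)
    (hcov : ∀ x ∈ X, ∃ i, inner ℝ x (m i) ∈ U i) :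
    ENNReal.ofReal W ≤ ∑ i, volume (U i) := by
  classical
  set b : Set (ι × ℝ) := {t | t.2 ∈ ordConnectedSection (U t.1)} with hb
  set C : ι × ℝ → Set ℝ := fun t => ordConnectedComponent (U t.1) t.2 with hC
  set O : ι × ℝ → Set F := fun t => {x | inner ℝ x (m t.1) ∈ C t} with hO
  have hCo : ∀ t, IsOpen (C t) := fun t => isOpen_ordComp (hU t.1) t.2
  have hOo : ∀ t ∈ b, IsOpen (O t) := by
    intro t _
    exact (hCo t).preimage (by fun_prop)
  have hcover : X ⊆ ⋃ t ∈ b, O t := by
    intro x hx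
    obtain ⟨i, hi⟩ := hcov x hx
    refine mem_biUnion (x := (i, ordConnectedProj (U i) ⟨_, hi⟩)) (mem_range_self _) ?_
    simp only [hO, hC, mem_setOf_eq]
    rw [ordConnectedComponent_ordConnectedProj]
    exact self_mem_ordConnectedComponent.2 hi
  obtain ⟨b', hb'b, hb'fin, hb'cov⟩ := hc.elim_finite_subcover_image hOo hcover
  set T : Finset (ι × ℝ) := hb'fin.toFinset with hT
  have hTb : ∀ t ∈ T, t ∈ b := fun t ht => hb'b (hb'fin.mem_toFinset.1 ht)
  have hCsub : ∀ t, C t ⊆ U t.1 := fun t => ordConnectedComponent_subset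
  have hCne : ∀ t ∈ T, t.2 ∈ C t := by
    intro t ht
    exact self_mem_ordConnectedComponent.2 (ordConnectedSection_subset (hTb t ht))
  have hbb : ∀ t, BddBelow (C t) := fun t => ⟨-R, fun z hz => (hR _ (hCsub t hz)).1.le⟩
  have hba : ∀ t, BddAbove (C t) := fun t => ⟨R, fun z hz => (hR _ (hCsub t hz)).2.le⟩
  set lo : ι × ℝ → ℝ := fun t => sInf (C t) with hlo
  set hi : ι × ℝ → ℝ := fun t => sSup (C t) with hhi
  have hlohi : ∀ t ∈ T, lo t < hi t := by
    intro t ht
    exact (open_sInf_lt (hCo t) (hbb t) (hCne t ht)).trans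
      (open_lt_sSup (hCo t) (hba t) (hCne t ht))
  have key := bang_finite (J := T) hX hc hne hwide (fun t => m t.1.1) (fun t => hm _)
    (fun t => (hi t.1 - lo t.1) / 2) (fun t => (hi t.1 + lo t.1) / 2)
    (fun t => by have := hlohi t.1 t.2; linarith) (by
      intro x hx
      have := hb'cov hx
      simp only [mem_iUnion] at this
      obtain ⟨t, htb', hxt⟩ := this
      refine ⟨⟨t, hb'fin.mem_toFinset.2 htb'⟩, ?_⟩
      have h1 := open_sInf_lt (hCo t) (hbb t) hxt
      have h2 := open_lt_sSup (hCo t) (hba t) hxt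
      simp only [hlo, hhi]
      rw [abs_lt]
      constructor <;> linarith)
  have hvolC : ∀ t ∈ T, ENNReal.ofReal (hi t - lo t) ≤ volume (C t) := by
    intro t ht
    have hconn : IsConnected (C t) := ⟨⟨_, hCne t ht⟩, OrdConnected.isPreconnected inferInstance⟩
    rw [← Real.volume_Ioo]
    exact measure_mono (hconn.Ioo_csInf_csSup_subset (hbb t) (hba t))
  have hsum1 : ∑ t : T, 2 * ((hi t.1 - lo t.1) / 2) = ∑ t ∈ T, (hi t - lo t) := by
    rw [← Finset.sum_coe_sort T (fun t => hi t - lo t)]
    apply Finset.sum_congr rfl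
    intro t _
    ring
  rw [hsum1] at key
  calc ENNReal.ofReal W ≤ ENNReal.ofReal (∑ t ∈ T, (hi t - lo t)) :=
        ENNReal.ofReal_le_ofReal key.le
    _ = ∑ t ∈ T, ENNReal.ofReal (hi t - lo t) :=
        ENNReal.ofReal_sum_of_nonneg (fun t ht => by have := hlohi t ht; linarith)
    _ ≤ ∑ t ∈ T, volume (C t) := Finset.sum_le_sum hvolC
    _ = ∑ i, ∑ t ∈ T with t.1 = i, volume (C t) := (Finset.sum_fiberwise T Prod.fst _).symm
    _ ≤ ∑ i, volume (U i) := by
        apply Finset.sum_le_sum
        intro i _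
        rw [← measure_biUnion_finset]
        · apply measure_mono
          intro z hz
          simp only [mem_iUnion, Finset.mem_filter] at hz
          obtain ⟨t, ⟨_, rfl⟩, hzt⟩ := hz
          exact hCsub t hzt
        · intro t ht t' ht' hne'
          simp only [Finset.coe_filter, mem_setOf_eq] at ht ht'
          obtain ⟨i1, a1⟩ := t
          obtain ⟨i2, a2⟩ := t'
          have e1 : i1 = i := ht.2
          have e2 : i2 = i := ht'.2
          subst e1
          subst e2
          have hne2 : a1 ≠ a2 := fun h => hne' (by rw [h])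
          exact comp_disjoint _ (hTb _ ht.1) (hTb _ ht'.1) hne2
        · intro t _
          exact (hCo t).measurableSet

/-- Bang's plank theorem for generalised planks with arbitrary bases (outer measure). -/
theorem gen_plank [CompleteSpace F] {ι : Type*} [Fintype ι] {X : Set F} (hX : Convex ℝ X)
    (hc : IsCompact X) (hne : X.Nonempty) {W : ℝ} (hwide : Wide X W)
    (m : ι → F) (hm : ∀ i, ‖m i‖ = 1) (S : ι → Set ℝ)
    (hcov : ∀ x ∈ X, ∃ i, inner ℝ x (m i) ∈ S i) :
    ENNReal.ofReal W ≤ ∑ i, volume (S i) := by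
  obtain ⟨R0, hR0⟩ := hc.isBounded.exists_norm_le
  apply ENNReal.le_of_forall_pos_le_add
  intro ε hε _
  set δ : ENNReal := (ε : ENNReal) / (Fintype.card ι + 1 : ℕ) with hδ
  have hδ0 : δ ≠ 0 := by
    rw [hδ]
    exact (ENNReal.div_pos (by exact_mod_cast hε.ne') (ENNReal.natCast_ne_top _)).ne'
  choose U hSU hUo hUv using fun i => (S i).exists_isOpen_le_add volume hδ0
  have := gen_plank_bdd hX hc hne hwide m hm (fun i => U i ∩ Ioo (-(R0 + 1)) (R0 + 1))
    (fun i => (hUo i).inter isOpen_Ioo) (R0 + 1) (fun i => inter_subset_right) (by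
      intro x hx
      obtain ⟨i, hi⟩ := hcov x hx
      refine ⟨i, hSU i hi, ?_⟩
      have h1 : |inner ℝ x (m i)| ≤ ‖x‖ * ‖m i‖ := abs_real_inner_le_norm x (m i)
      rw [hm i, mul_one] at h1
      have h2 := hR0 x hx
      rw [abs_le] at h1
      constructor <;> linarith [h1.1, h1.2])
  refine this.trans ?_
  calc ∑ i, volume (U i ∩ Ioo (-(R0 + 1)) (R0 + 1)) ≤ ∑ i, (volume (S i) + δ) := by
        apply Finset.sum_le_sum
        intro i _
        exact (measure_mono inter_subset_left).trans (hUv i)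
    _ = ∑ i, volume (S i) + (Fintype.card ι : ℕ) * δ := by
        rw [Finset.sum_add_distrib]
        simp
    _ ≤ ∑ i, volume (S i) + ε := by
        gcongr
        rw [hδ]
        calc ((Fintype.card ι : ℕ) : ENNReal) * ((ε : ENNReal) / (Fintype.card ι + 1 : ℕ))
            ≤ ((Fintype.card ι + 1 : ℕ) : ENNReal) * ((ε : ENNReal) / (Fintype.card ι + 1 : ℕ)) := by
              gcongr
              simp
          _ = ε := by
              apply ENNReal.mul_div_cancel
              · simp
              · exact ENNReal.natCast_ne_top _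

end Vale.Agent.Lib.P243
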