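import Mathlib
import Vale.Agent.Lib.P243.GenPlank
import Vale.Agent.Lib.P243.Coords

open MeasureTheory Set Topology Module

namespace Vale.Agent.Lib.P243

variable {E : Type*} [NormedAddCommGroup E] [InnerProductSpace ℝ E] [FiniteDimensional ℝ E]
  [MeasurableSpace E] [BorelSpace E]

/-- the shadow of `K` in the coordinates `(⟨x,m⟩, ⟨x,n⟩)`. -/
noncomputable def shadow (K : Set E) (m n : E) : Set (ℝ × ℝ) :=
  (fun x : E => ((inner ℝ x m : ℝ), (inner ℝ x n : ℝ))) '' K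

lemma shadow_convex {K : Set E} (hK : Convex ℝ K) (m n : E) : Convex ℝ (shadow K m n) := by
  have : shadow K m n = ((innerSL ℝ m).toLinearMap.prod (innerSL ℝ n).toLinearMap) '' K := by
    apply image_congr
    intro x _
    simp [real_inner_comm]
  rw [this]
  exact hK.linear_image _

lemma shadow_compact {K : Set E} (hc : IsCompact K) (m n : E) : IsCompact (shadow K m n) :=
  hc.image (by fun_prop)

lemma shadow_vol (hE : finrank ℝ E = 3) (K : Set E) {v m n : E} (hv : ‖v‖ = 1) (hm : ‖m‖ = 1)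
    (hn : ‖n‖ = 1) (hvm : inner ℝ v m = 0) (hvn : inner ℝ v n = 0) (hmn : inner ℝ m n = 0) :
    volume (shadow K m n) = volume ((ℝ ∙ v)ᗮ.orthogonalProjectionOnto '' K) := by
  have hmV : m ∈ (ℝ ∙ v)ᗮ := Submodule.mem_orthogonal_singleton_iff_inner_right.2 hvm
  have hnV : n ∈ (ℝ ∙ v)ᗮ := Submodule.mem_orthogonal_singleton_iff_inner_right.2 hvn
  rw [← cmap_vol (ℝ ∙ v)ᗮ (finrank_orth_unit hE hv) hmV hnV hm hn hmn, image_image]
  congr 1
  apply image_congr
  intro x _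
  simp only [cmap]
  have h1 := Submodule.inner_orthogonalProjectionOnto_eq_of_mem_right (K := (ℝ ∙ v)ᗮ) ⟨m, hmV⟩ x
  have h2 := Submodule.inner_orthogonalProjectionOnto_eq_of_mem_right (K := (ℝ ∙ v)ᗮ) ⟨n, hnV⟩ x
  rw [Submodule.coe_inner] at h1 h2
  rw [← h1, ← h2]

/-- the slice of `K` at height `z`, as a subset of the plane orthogonal to `n`. -/
def nslice (K : Set E) (n : E) (z : ℝ) : Set (ℝ ∙ n)ᗮ := {y | (y : E) + z • n ∈ K}

lemma nslice_convex {K : Set E} (hK : Convex ℝ K) (n : E) (z : ℝ) : Convex ℝ (nslice K n z) := by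
  intro y hy y' hy' s t hs ht hst
  have := hK hy hy' hs ht hst
  simp only [nslice, mem_setOf_eq] at *
  convert this using 1
  have e : z • n = (s + t) • (z • n) := by rw [hst, one_smul]
  simp only [Submodule.coe_add, Submodule.coe_smul, smul_add]
  nth_rewrite 1 [e]
  rw [add_smul]
  abel

lemma nslice_compact {K : Set E} (hc : IsCompact K) (n : E) (z : ℝ) :
    IsCompact (nslice K n z) := by
  have hiso : Isometry (fun y : (ℝ ∙ n)ᗮ => (y : E) + z • n) :=
    (IsometryEquiv.addRight (z • n)).isometry.comp (ℝ ∙ n)ᗮ.subtypeₗᵢ.isometry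
  exact hiso.isClosedEmbedding.isCompact_preimage hc

lemma mem_nslice_of {K : Set E} {n : E} (hn : ‖n‖ = 1) {x : E} (hx : x ∈ K) :
    ∃ y : (ℝ ∙ n)ᗮ, y ∈ nslice K n (inner ℝ x n) ∧ (y : E) = x - (inner ℝ x n : ℝ) • n := by
  have hmem : x - (inner ℝ x n : ℝ) • n ∈ (ℝ ∙ n)ᗮ := by
    rw [Submodule.mem_orthogonal_singleton_iff_inner_left, inner_sub_left, inner_smul_left,
      real_inner_self_eq_norm_sq, hn]
    simp
  refine ⟨⟨_, hmem⟩, ?_, rfl⟩
  simp only [nslice, mem_setOf_eq]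
  rw [sub_add_cancel]
  exact hx

lemma slice_wide (hE : finrank ℝ E = 3) {K : Set E} (hK : Convex ℝ K) (hc : IsCompact K)
    {n : E} (hn : ‖n‖ = 1) {A : ENNReal}
    (hA : ∀ v : E, ‖v‖ = 1 → inner ℝ v n = 0 →
      A ≤ volume ((ℝ ∙ v)ᗮ.orthogonalProjectionOnto '' K))
    {x0 x1 : E} (hx0 : x0 ∈ K) (hx1 : x1 ∈ K) {z0 z1 : ℝ} (hz0 : inner ℝ x0 n = z0)
    (hz1 : inner ℝ x1 n = z1)
    (hlow : ∀ x ∈ K, z0 ≤ inner ℝ x n) (hupp : ∀ x ∈ K, inner ℝ x n ≤ z1)
    {z : ℝ} (hz : z ∈ Ioo z0 z1) :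
    (nslice K n z).Nonempty ∧ Wide (nslice K n z)
      (A * ENNReal.ofReal (2 * min (z - z0) (z1 - z) / (z1 - z0) ^ 2)).toReal := by
  have hℓ : 0 < z1 - z0 := by linarith [hz.1, hz.2]
  -- a point of `K` at height `z`
  have hpt : ∃ x ∈ K, inner ℝ x n = z := by
    have hθ0 : 0 ≤ (z - z0) / (z1 - z0) := div_nonneg (by linarith [hz.1]) hℓ.le
    have hθ1 : (z - z0) / (z1 - z0) ≤ 1 := by rw [div_le_one hℓ]; linarith [hz.2]
    refine ⟨_, hK.add_smul_sub_mem hx0 hx1 ⟨hθ0, hθ1⟩, ?_⟩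
    rw [inner_add_left, inner_smul_left, inner_sub_left, hz0, hz1]
    simp only [conj_trivial]
    rw [div_mul_cancel₀ _ hℓ.ne']
    ring
  constructor
  · obtain ⟨x, hx, hxz⟩ := hpt
    obtain ⟨y, hy, _⟩ := mem_nslice_of hn hx
    rw [hxz] at hy
    exact ⟨y, hy⟩
  intro m hm
  have hm1 : ‖(m : E)‖ = 1 := by simpa using hm
  have hmn : inner ℝ (m : E) n = 0 := Submodule.mem_orthogonal_singleton_iff_inner_left.1 m.2
  obtain ⟨v, hv1, hvm, hvn⟩ := exists_third hE hm1 hn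
  have hvol : A ≤ volume (shadow K (m : E) n) := by
    rw [shadow_vol hE K hv1 hm1 hn hvm hvn hmn]
    exact hA v hv1 hvn
  have hrange : ∀ q ∈ shadow K (m : E) n, z0 ≤ q.2 ∧ q.2 ≤ z1 := by
    rintro _ ⟨x, hx, rfl⟩
    exact ⟨hlow x hx, hupp x hx⟩
  have hwb := width_bound (shadow_convex hK (m : E) n) (shadow_compact hc (m : E) n) hrange
    ⟨inner ℝ x0 (m : E), ⟨x0, hx0, by simp only [hz0]⟩⟩
    ⟨inner ℝ x1 (m : E), ⟨x1, hx1, by simp only [hz1]⟩⟩ hz
  set H := hsec (shadow K (m : E) n) z with hH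
  have Hc : IsCompact H := hsec_compact (shadow_compact hc (m : E) n) z
  have Hne : H.Nonempty := by
    obtain ⟨x, hx, hxz⟩ := hpt
    exact ⟨inner ℝ x (m : E), ⟨x, hx, by simp only [hxz]⟩⟩
  have ha : sInf H ∈ H := Hc.sInf_mem Hne
  have hb : sSup H ∈ H := Hc.sSup_mem Hne
  have hsub : H ⊆ Icc (sInf H) (sSup H) := subset_Icc_csInf_csSup Hc.bddBelow Hc.bddAbove
  have hab : sInf H ≤ sSup H := (hsub ha).2
  have hvolH : volume H ≤ ENNReal.ofReal (sSup H - sInf H) := by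
    rw [← Real.volume_Icc]
    exact measure_mono hsub
  have hW : (A * ENNReal.ofReal (2 * min (z - z0) (z1 - z) / (z1 - z0) ^ 2)).toReal
      ≤ sSup H - sInf H := by
    apply ENNReal.toReal_le_of_le_ofReal (by linarith)
    exact (mul_le_mul_left hvol _).trans (hwb.trans hvolH)
  obtain ⟨xa, hxa, hxae⟩ := ha
  obtain ⟨xb, hxb, hxbe⟩ := hb
  simp only [Prod.mk.injEq] at hxae hxbe
  obtain ⟨ya, hya, hyae⟩ := mem_nslice_of hn hxa
  obtain ⟨yb, hyb, hybe⟩ := mem_nslice_of hn hxb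
  rw [hxae.2] at hya hyae
  rw [hxbe.2] at hyb hybe
  refine ⟨yb, hyb, ya, hya, ?_⟩
  rw [Submodule.coe_inner, Submodule.coe_sub, hyae, hybe]
  have : xb - z • n - (xa - z • n) = xb - xa := by abel
  rw [this, inner_sub_left, hxae.1, hxbe.1]
  exact hW

/-- Bang's half-area inequality for cylinders whose axes are all orthogonal to `n`. -/
theorem coplanar_bound (hE : finrank ℝ E = 3)
    {K : Set E} (hK : Convex ℝ K) (hc : IsCompact K) (hint : (interior K).Nonempty)
    {ι : Type*} [Fintype ι] (u : ι → E) (hu : ∀ i, ‖u i‖ = 1)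
    (B : (i : ι) → Set (ℝ ∙ u i)ᗮ)
    (hcov : ∀ x ∈ K, ∃ i, ∃ b ∈ B i, ∃ t : ℝ, x = (b : E) + t • u i)
    (n : E) (hn : ‖n‖ = 1) (hperp : ∀ i, inner ℝ (u i) n = 0)
    (A : ENNReal) (hA : ∀ v : E, ‖v‖ = 1 → inner ℝ v n = 0 →
      A ≤ volume ((ℝ ∙ v)ᗮ.orthogonalProjectionOnto '' K)) :
    A / 2 ≤ ∑ i, volume (B i) := by
  have hne : K.Nonempty := hint.mono interior_subset
  have hAtop : A ≠ ⊤ := by
    obtain ⟨x, hx⟩ := hne
    obtain ⟨i, _⟩ := hcov x hx
    exact ne_top_of_le_ne_top (proj_vol_ne_top _ hc) (hA (u i) (hu i) (hperp i))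
  have hcont : ContinuousOn (fun x : E => (inner ℝ x n : ℝ)) K := by fun_prop
  obtain ⟨x0, hx0, hmin⟩ := hc.exists_isMinOn hne hcont
  obtain ⟨x1, hx1, hmax⟩ := hc.exists_isMaxOn hne hcont
  set z0 : ℝ := inner ℝ x0 n with hz0
  set z1 : ℝ := inner ℝ x1 n with hz1
  have hlow : ∀ x ∈ K, z0 ≤ inner ℝ x n := fun x hx => hmin hx
  have hupp : ∀ x ∈ K, inner ℝ x n ≤ z1 := fun x hx => hmax hx
  have hz01 : z0 < z1 := by
    obtain ⟨x, hx⟩ := hint
    rw [mem_interior_iff_mem_nhds, Metric.mem_nhds_iff] at hx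
    obtain ⟨ε, hε, hball⟩ := hx
    have hy : x + (ε / 2) • n ∈ K := by
      apply hball
      rw [Metric.mem_ball, dist_eq_norm, add_sub_cancel_left, norm_smul, hn, mul_one,
        Real.norm_eq_abs, abs_of_pos (by linarith)]
      linarith
    have hxK : x ∈ K := hball (Metric.mem_ball_self hε)
    have a1 := hlow x hxK
    have a2 := hupp _ hy
    rw [inner_add_left, inner_smul_left, real_inner_self_eq_norm_sq, hn] at a2
    simp only [conj_trivial] at a2
    linarith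
  -- the in-plane normals of the cylinders
  choose m hm1 hmu hmn using fun i => exists_third hE (hu i) hn
  have hmF : ∀ i, m i ∈ (ℝ ∙ n)ᗮ := fun i =>
    Submodule.mem_orthogonal_singleton_iff_inner_left.2 (hmn i)
  have hmV : ∀ i, m i ∈ (ℝ ∙ u i)ᗮ := fun i =>
    Submodule.mem_orthogonal_singleton_iff_inner_left.2 (hmu i)
  have hnV : ∀ i, n ∈ (ℝ ∙ u i)ᗮ := fun i =>
    Submodule.mem_orthogonal_singleton_iff_inner_right.2 (hperp i)
  set B' : ι → Set (ℝ × ℝ) := fun i => cmap (ℝ ∙ u i)ᗮ (m i) n '' B i with hB'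
  have hB'vol : ∀ i, volume (B' i) = volume (B i) := fun i =>
    cmap_vol _ (finrank_orth_unit hE (hu i)) (hmV i) (hnV i) (hm1 i) hn (hmn i) (B i)
  set T : ι → Set (ℝ × ℝ) := fun i => toMeasurable volume (B' i) with hT
  have hTm : ∀ i, MeasurableSet (T i) := fun i => measurableSet_toMeasurable _ _
  have hTvol : ∀ i, volume (T i) = volume (B i) := fun i => by
    rw [hT, measure_toMeasurable, hB'vol]
  have hpt : ∀ z ∈ Ioo z0 z1,
      A * ENNReal.ofReal (2 * min (z - z0) (z1 - z) / (z1 - z0) ^ 2)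
        ≤ ∑ i, volume (hsec (T i) z) := by
    intro z hz
    obtain ⟨hXne, hwide⟩ := slice_wide hE hK hc hn hA hx0 hx1 hz0.symm hz1.symm hlow hupp hz
    have key := gen_plank (nslice_convex hK n z) (nslice_compact hc n z) hXne hwide
      (fun i => (⟨m i, hmF i⟩ : (ℝ ∙ n)ᗮ)) (fun i => by simpa using hm1 i)
      (fun i => hsec (T i) z) (by
        intro y hy
        obtain ⟨i, b, hb, t, hbt⟩ := hcov _ hy
        refine ⟨i, ?_⟩
        apply subset_toMeasurable volume (B' i)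
        refine ⟨b, hb, ?_⟩
        have hbe : (b : E) = (y : E) + z • n - t • u i := by rw [hbt]; abel
        have hyn : inner ℝ (y : E) n = 0 :=
          Submodule.mem_orthogonal_singleton_iff_inner_left.1 y.2
        simp only [cmap]
        rw [hbe]
        ext
        · simp only [inner_sub_left, inner_add_left, inner_smul_left, conj_trivial]
          rw [real_inner_comm (m i) n, hmn i, real_inner_comm (m i) (u i), hmu i,
            Submodule.coe_inner]
          simp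
        · simp only [inner_sub_left, inner_add_left, inner_smul_left, conj_trivial]
          rw [hyn, hperp i, real_inner_self_eq_norm_sq, hn]
          simp)
    rwa [ENNReal.ofReal_toReal (ENNReal.mul_ne_top hAtop ENNReal.ofReal_ne_top)] at key
  have hmeas : ∀ i, Measurable fun z => volume (hsec (T i) z) := fun i =>
    measurable_measure_prodMk_right (hTm i)
  have hτm : Measurable fun z : ℝ =>
      ENNReal.ofReal (2 * min (z - z0) (z1 - z) / (z1 - z0) ^ 2) := by fun_prop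
  calc A / 2 = A * (1 / 2) := by rw [mul_one_div]
    _ = A * ∫⁻ z in Ioo z0 z1, ENNReal.ofReal (2 * min (z - z0) (z1 - z) / (z1 - z0) ^ 2) := by
        rw [tent_lintegral z0 z1 hz01]
    _ = ∫⁻ z in Ioo z0 z1, A * ENNReal.ofReal (2 * min (z - z0) (z1 - z) / (z1 - z0) ^ 2) :=
        (lintegral_const_mul _ hτm).symm
    _ ≤ ∫⁻ z in Ioo z0 z1, ∑ i, volume (hsec (T i) z) := setLIntegral_mono' measurableSet_Ioo hpt
    _ ≤ ∫⁻ z, ∑ i, volume (hsec (T i) z) := setLIntegral_le_lintegral _ _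
    _ = ∑ i, ∫⁻ z, volume (hsec (T i) z) := lintegral_finset_sum _ (fun i _ => hmeas i)
    _ = ∑ i, volume (B i) := by
        apply Finset.sum_congr rfl
        intro i _
        rw [← fubini_hsec (hTm i), hTvol]

end Vale.Agent.Lib.P243
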