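import Mathlib

open Finset

namespace Vale.Agent.Lib.P243

/-- power mean: the refined inequality in terms of the sum only. -/
lemma coro_core {ι : Type*} [Fintype ι] (y : ι → ℝ) (hy0 : ∀ i, 0 ≤ y i)
    (h : 1 + 2 * ∑ i, (y i) ^ (3 / 2 : ℝ) ≤ 3 * ∑ i, y i) :
    √(Fintype.card ι : ℝ) + 2 * (∑ i, y i) ^ (3 / 2 : ℝ) ≤ 3 * (∑ i, y i) * √(Fintype.card ι : ℝ) := by
  have hp := Real.rpow_sum_le_const_mul_sum_rpow (Finset.univ : Finset ι) y
    (p := 3 / 2) (by norm_num)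
  have e1 : ∀ i, |y i| = y i := fun i => abs_of_nonneg (hy0 i)
  simp only [e1, Finset.card_univ] at hp
  have e2 : ((Fintype.card ι : ℝ)) ^ ((3 / 2 : ℝ) - 1) = √(Fintype.card ι : ℝ) := by
    rw [Real.sqrt_eq_rpow]
    norm_num
  rw [e2] at hp
  have hs : 0 ≤ √(Fintype.card ι : ℝ) := Real.sqrt_nonneg _
  nlinarith [mul_le_mul_of_nonneg_left h hs]

lemma rpow_three_half {R : ℝ} (hR : 0 ≤ R) : R ^ (3 / 2 : ℝ) = √R ^ 3 := by
  rw [Real.sqrt_eq_rpow, ← Real.rpow_natCast, ← Real.rpow_mul hR]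
  norm_num

/-- two cylinders. -/
lemma num_two {q r : ℝ} (hq1 : 1 ≤ q) (hq : q ^ 2 ≤ 2) (hr : 0 ≤ r)
    (h : q + 2 * r ^ 3 ≤ 3 * r ^ 2 * q) : 1 / 2 ≤ r ^ 2 := by
  by_contra hlt
  rw [not_le] at hlt
  -- `2 r^3 ≤ q (3 r^2 - 1)`, square it
  have h1 : 2 * r ^ 3 ≤ q * (3 * r ^ 2 - 1) := by nlinarith
  have h2 : 0 ≤ 3 * r ^ 2 - 1 := by
    by_contra hneg
    rw [not_le] at hneg
    have : q * (3 * r ^ 2 - 1) < 0 := mul_neg_of_pos_of_neg (by linarith) hneg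
    have h3 : 0 ≤ 2 * r ^ 3 := by positivity
    linarith
  have h3 : (2 * r ^ 3) ^ 2 ≤ 2 * (3 * r ^ 2 - 1) ^ 2 := by
    have h4 : (2 * r ^ 3) ^ 2 ≤ (q * (3 * r ^ 2 - 1)) ^ 2 :=
      pow_le_pow_left₀ (by positivity) h1 2
    have h5 : (q * (3 * r ^ 2 - 1)) ^ 2 ≤ 2 * (3 * r ^ 2 - 1) ^ 2 := by
      rw [mul_pow]
      exact mul_le_mul_of_nonneg_right hq (sq_nonneg _)
    linarith
  -- with `X = r^2`: `4 X^3 ≤ 2 (3X-1)^2`, i.e. `(2X - 1)(X^2 - 4X + 1) ≤ 0`... on `[1/3,1/2)`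
  set X := r ^ 2 with hX
  have e : (2 * r ^ 3) ^ 2 = 4 * X ^ 3 := by rw [hX]; ring
  rw [e] at h3
  have hX3 : 1 / 3 ≤ X := by linarith
  nlinarith [mul_pos (by linarith : (0:ℝ) < 1 / 2 - X) (by nlinarith : (0:ℝ) < -(X ^ 2 - 4 * X + 1))]

/-- three cylinders. -/
lemma num_three {q r : ℝ} (hq1 : 1 ≤ q) (hq : q ^ 2 ≤ 3) (hr : 0 ≤ r)
    (h : q + 2 * r ^ 3 ≤ 3 * r ^ 2 * q) : 4 / 9 ≤ r ^ 2 := by
  by_contra hlt
  rw [not_le] at hlt
  have h1 : 2 * r ^ 3 ≤ q * (3 * r ^ 2 - 1) := by nlinarith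
  have h2 : 0 ≤ 3 * r ^ 2 - 1 := by
    by_contra hneg
    rw [not_le] at hneg
    have : q * (3 * r ^ 2 - 1) < 0 := mul_neg_of_pos_of_neg (by linarith) hneg
    have h3 : 0 ≤ 2 * r ^ 3 := by positivity
    linarith
  have h3 : (2 * r ^ 3) ^ 2 ≤ 3 * (3 * r ^ 2 - 1) ^ 2 := by
    have h4 : (2 * r ^ 3) ^ 2 ≤ (q * (3 * r ^ 2 - 1)) ^ 2 :=
      pow_le_pow_left₀ (by positivity) h1 2
    have h5 : (q * (3 * r ^ 2 - 1)) ^ 2 ≤ 3 * (3 * r ^ 2 - 1) ^ 2 := by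
      rw [mul_pow]
      exact mul_le_mul_of_nonneg_right hq (sq_nonneg _)
    linarith
  set X := r ^ 2 with hX
  have e : (2 * r ^ 3) ^ 2 = 4 * X ^ 3 := by rw [hX]; ring
  rw [e] at h3
  have hX3 : 1 / 3 ≤ X := by linarith
  -- `p X = 4 X^3 - 27 X^2 + 18 X - 3 > 0` on `[1/3, 4/9)`
  nlinarith [mul_nonneg (by linarith : (0:ℝ) ≤ X - 1 / 3) (by linarith : (0:ℝ) ≤ 4 / 9 - X)]

/-- the general bound. -/
lemma num_gen {q R : ℝ} (hq1 : 1 ≤ q) (hR : 0 ≤ R)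
    (h : q + 2 * R ^ (3 / 2 : ℝ) ≤ 3 * R * q) : 1 / 3 + 2 / (9 * (√3 * q)) ≤ R := by
  have hq0 : 0 < q := by linarith
  have hpow0 : 0 ≤ R ^ (3 / 2 : ℝ) := Real.rpow_nonneg hR _
  have hR3 : 1 / 3 ≤ R := by
    have : q * 1 ≤ q * (3 * R) := by nlinarith
    have := le_of_mul_le_mul_left this hq0
    linarith
  have hmono : (1 / 3 : ℝ) ^ (3 / 2 : ℝ) ≤ R ^ (3 / 2 : ℝ) :=
    Real.rpow_le_rpow (by norm_num) hR3 (by norm_num)
  have h3 : (0:ℝ) < √3 := Real.sqrt_pos.2 (by norm_num)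
  have h33 : √3 * √3 = 3 := Real.mul_self_sqrt (by norm_num)
  have hval : (1 / 3 : ℝ) ^ (3 / 2 : ℝ) = 1 / (3 * √3) := by
    rw [rpow_three_half (by norm_num)]
    have : √(1 / 3 : ℝ) = 1 / √3 := by
      rw [Real.sqrt_div (by norm_num), Real.sqrt_one]
    rw [this]
    field_simp
    nlinarith
  rw [hval] at hmono
  have key : q + 2 * (1 / (3 * √3)) ≤ 3 * R * q := by linarith
  have e : 1 / 3 + 2 / (9 * (√3 * q)) = (q + 2 * (1 / (3 * √3))) / (3 * q) := by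
    field_simp
    ring
  rw [e, div_le_iff₀ (by positivity)]
  linarith

/-- The numerical consequences of the refined inequality. -/
theorem coro {ι : Type*} [Fintype ι] (β : ι → ENNReal)
    (H : 1 + 2 * ∑ i, (min 1 (β i)) ^ (3 / 2 : ℝ) ≤ 3 * ∑ i, β i) :
    ENNReal.ofReal (1 / 3 + 2 / (9 * √(3 * (Fintype.card ι : ℝ)))) ≤ ∑ i, β i ∧
    (Fintype.card ι ≤ 2 → 1 / 2 ≤ ∑ i, β i) ∧ (Fintype.card ι ≤ 3 → 4 / 9 ≤ ∑ i, β i) := by
  have hne : Nonempty ι := by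
    by_contra hemp
    rw [not_nonempty_iff] at hemp
    simp at H
  have hm1 : 1 ≤ Fintype.card ι := Fintype.card_pos
  have hm1' : (1 : ℝ) ≤ (Fintype.card ι : ℝ) := by exact_mod_cast hm1
  have hq1 : 1 ≤ √(Fintype.card ι : ℝ) := by
    rw [show (1 : ℝ) = √1 by simp]
    exact Real.sqrt_le_sqrt hm1'
  have hsplit : √(3 * (Fintype.card ι : ℝ)) = √3 * √(Fintype.card ι : ℝ) :=
    Real.sqrt_mul (by norm_num) _
  have h3 : (1 : ℝ) ≤ √3 := by
    rw [show (1 : ℝ) = √1 by simp]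
    exact Real.sqrt_le_sqrt (by norm_num)
  by_cases hbig : 1 ≤ ∑ i, β i
  · refine ⟨le_trans ?_ hbig, fun _ => le_trans ?_ hbig, fun _ => le_trans ?_ hbig⟩
    · rw [show (1 : ENNReal) = ENNReal.ofReal 1 by simp]
      apply ENNReal.ofReal_le_ofReal
      rw [hsplit]
      have : 2 / (9 * (√3 * √(Fintype.card ι : ℝ))) ≤ 2 / 9 := by
        apply div_le_div_of_nonneg_left (by norm_num) (by norm_num)
        nlinarith
      linarith
    · exact ENNReal.half_le_self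
    · rw [ENNReal.div_le_iff (by norm_num) (by norm_num)]
      norm_num
  · rw [not_le] at hbig
    have hlt : ∀ i, β i < 1 := fun i =>
      lt_of_le_of_lt (Finset.single_le_sum (f := β) (fun _ _ => zero_le) (Finset.mem_univ i)) hbig
    have hfin : ∀ i, β i ≠ ⊤ := fun i => ((hlt i).trans ENNReal.one_lt_top).ne
    set y : ι → ℝ := fun i => (β i).toReal with hy
    have hy0 : ∀ i, 0 ≤ y i := fun i => ENNReal.toReal_nonneg
    have eβ : ∀ i, β i = ENNReal.ofReal (y i) := fun i => (ENNReal.ofReal_toReal (hfin i)).symm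
    have emin : ∀ i, min 1 (β i) = ENNReal.ofReal (y i) := fun i => by
      rw [min_eq_right (hlt i).le, eβ i]
    have hsum : ∑ i, β i = ENNReal.ofReal (∑ i, y i) := by
      rw [ENNReal.ofReal_sum_of_nonneg (fun i _ => hy0 i)]
      exact Finset.sum_congr rfl (fun i _ => eβ i)
    have hsum2 : ∑ i, (min 1 (β i)) ^ (3 / 2 : ℝ) = ENNReal.ofReal (∑ i, (y i) ^ (3 / 2 : ℝ)) := by
      rw [ENNReal.ofReal_sum_of_nonneg (fun i _ => Real.rpow_nonneg (hy0 i) _)]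
      refine Finset.sum_congr rfl (fun i _ => ?_)
      rw [emin i, ENNReal.ofReal_rpow_of_nonneg (hy0 i) (by norm_num)]
    have hS0 : 0 ≤ ∑ i, (y i) ^ (3 / 2 : ℝ) :=
      Finset.sum_nonneg (fun i _ => Real.rpow_nonneg (hy0 i) _)
    have hR0 : 0 ≤ ∑ i, y i := Finset.sum_nonneg (fun i _ => hy0 i)
    have Hr : 1 + 2 * ∑ i, (y i) ^ (3 / 2 : ℝ) ≤ 3 * ∑ i, y i := by
      rw [hsum, hsum2, show (2 : ENNReal) = ENNReal.ofReal 2 by simp,
        show (3 : ENNReal) = ENNReal.ofReal 3 by simp,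
        show (1 : ENNReal) = ENNReal.ofReal 1 by simp,
        ← ENNReal.ofReal_mul (by norm_num), ← ENNReal.ofReal_mul (by norm_num),
        ← ENNReal.ofReal_add (by norm_num) (by positivity)] at H
      exact (ENNReal.ofReal_le_ofReal_iff (by positivity)).1 H
    have core := coro_core y hy0 Hr
    set R := ∑ i, y i with hR
    set q := √(Fintype.card ι : ℝ) with hq
    have hqq : q ^ 2 = (Fintype.card ι : ℝ) := Real.sq_sqrt (by positivity)
    have core' : q + 2 * √R ^ 3 ≤ 3 * √R ^ 2 * q := by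
      rw [Real.sq_sqrt hR0, ← rpow_three_half hR0]
      exact core
    rw [hsum]
    refine ⟨?_, fun h2 => ?_, fun h3' => ?_⟩
    · apply ENNReal.ofReal_le_ofReal
      rw [hsplit]
      exact num_gen hq1 hR0 core
    · have hq2 : q ^ 2 ≤ 2 := by rw [hqq]; exact_mod_cast h2
      have := num_two hq1 hq2 (Real.sqrt_nonneg R) core'
      rw [Real.sq_sqrt hR0] at this
      rw [ENNReal.le_ofReal_iff_toReal_le (by simp) hR0]
      simpa using this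
    · have hq3 : q ^ 2 ≤ 3 := by rw [hqq]; exact_mod_cast h3'
      have := num_three hq1 hq3 (Real.sqrt_nonneg R) core'
      rw [Real.sq_sqrt hR0] at this
      rw [ENNReal.le_ofReal_iff_toReal_le (by
        exact ENNReal.div_ne_top (by norm_num) (by norm_num)) hR0]
      simpa using this

end Vale.Agent.Lib.P243
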