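import Mathlib
import Vale.Agent.Lib.P243.Level
import Vale.Agent.Lib.P243.Cake
import Vale.Agent.Lib.P243.Cross

open MeasureTheory Set Topology Module Pointwise

namespace Vale.Agent.Lib.P243

variable {K : Set ((ℝ × ℝ) × ℝ)}

/-- Fubini for the part of `K` above `B`. -/
lemma vol_part (hc : IsCompact K) {B : Set (ℝ × ℝ)} (hB : MeasurableSet B) :
    volume (K ∩ Prod.fst ⁻¹' B) = ∫⁻ p in B, ENNReal.ofReal (chordLen K p) := by
  have hKm := hc.isClosed.measurableSet
  have hSm : MeasurableSet (K ∩ Prod.fst ⁻¹' B) := hKm.inter (measurable_fst hB)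
  rw [Measure.volume_eq_prod, Measure.prod_apply hSm, ← lintegral_indicator hB]
  congr 1
  ext p
  by_cases hp : p ∈ B
  · rw [indicator_of_mem hp]
    unfold chordLen
    rw [ENNReal.ofReal_toReal (vsec_compact hc p).measure_lt_top.ne]
    congr 1
    ext t
    simp [vsec, hp]
  · rw [indicator_of_notMem hp]
    have : Prod.mk p ⁻¹' (K ∩ Prod.fst ⁻¹' B) = ∅ := by
      ext t
      simp [hp]
    rw [this, measure_empty]

lemma lev_fin (hc : IsCompact K) (c : ℝ) : volume (lev K c) ≠ ⊤ :=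
  (lev_compact hc c).measure_lt_top.ne

lemma ar_anti (hK : Convex ℝ K) (hc : IsCompact K) (L : ℝ) :
    AntitoneOn (fun c => (volume (lev K c)).toReal) (Icc 0 L) := by
  intro c hc' c' _ h
  exact ENNReal.toReal_mono (lev_fin hc c) (measure_mono (lev_anti hK hc'.1 h))

/-- the tail of the layer cake as an interval integral. -/
lemma lint_tail (hK : Convex ℝ K) (hc : IsCompact K) {L : ℝ}
    (hLtop : ∀ c, L < c → lev K c = ∅) {c : ℝ} (hc0 : 0 ≤ c) (hcL : c ≤ L) :
    ∫⁻ s in Ioi c, volume (lev K s)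
      = ENNReal.ofReal (∫ s in c..L, (volume (lev K s)).toReal) := by
  have hsplit : Ioi c = Ioc c L ∪ Ioi L := (Ioc_union_Ioi_eq_Ioi hcL).symm
  have hdisj : Disjoint (Ioc c L) (Ioi L) := by
    rw [Set.disjoint_left]
    intro s hs hs'
    exact absurd hs.2 (not_le.2 hs')
  rw [hsplit, lintegral_union measurableSet_Ioi hdisj]
  have h2 : ∫⁻ s in Ioi L, volume (lev K s) = 0 := by
    rw [setLIntegral_congr_fun measurableSet_Ioi (g := fun _ => 0)
      (fun s hs => by rw [hLtop s hs, measure_empty])]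
    simp
  rw [h2, add_zero, intervalIntegral.integral_of_le hcL]
  have hint : IntegrableOn (fun s => (volume (lev K s)).toReal) (Ioc c L) := by
    have h1 : IntegrableOn (fun s => (volume (lev K s)).toReal) (Icc 0 L) :=
      (ar_anti hK hc L).integrableOn_isCompact isCompact_Icc
    exact h1.mono_set (fun s hs => ⟨hc0.trans hs.1.le, hs.2⟩)
  rw [ofReal_integral_eq_lintegral_ofReal hint
    (Filter.Eventually.of_forall (fun s => ENNReal.toReal_nonneg))]
  refine lintegral_congr (fun s => ?_)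
  rw [ENNReal.ofReal_toReal (lev_fin hc s)]

/-- **Key lemma.** The part of a convex body above a set that fills the fraction `x ^ 2` of its
shadow has at most the fraction `3 x ^ 2 - 2 x ^ 3` of the volume. -/
theorem ref_model (hK : Convex ℝ K) (hc : IsCompact K) (hne : K.Nonempty) {B : Set (ℝ × ℝ)}
    (hB : MeasurableSet B) {x : ℝ} (hx0 : 0 ≤ x) (hx1 : x ≤ 1)
    (hvol : volume B ≤ ENNReal.ofReal (x ^ 2) * volume (Prod.fst '' K)) :
    volume (K ∩ Prod.fst ⁻¹' B) ≤ ENNReal.ofReal (3 * x ^ 2 - 2 * x ^ 3) * volume K := by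
  obtain ⟨L, hL0, hLne, hLtop⟩ := lev_top hK hc hne
  have hconc := lev_sqrt_concave hK hc hL0 hLne
  have hanti : AntitoneOn (fun c => √(volume (lev K c)).toReal) (Icc 0 L) := by
    intro c hc' c' hc'' h
    exact Real.sqrt_le_sqrt (ar_anti hK hc L hc' hc'' h)
  obtain ⟨c, hcI, hcr⟩ := crossing hL0 hconc (fun s _ => Real.sqrt_nonneg _) hanti hx0 hx1
  have hsq : ∀ s, √(volume (lev K s)).toReal ^ 2 = (volume (lev K s)).toReal :=
    fun s => Real.sq_sqrt ENNReal.toReal_nonneg
  simp only [hsq, mul_pow] at hcr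
  have hh : 0 ≤ 3 * x ^ 2 - 2 * x ^ 3 := by nlinarith [sq_nonneg x]
  have hI0 : 0 ≤ ∫ s in c..L, (volume (lev K s)).toReal :=
    intervalIntegral.integral_nonneg hcI.2 (fun s _ => ENNReal.toReal_nonneg)
  have hP : volume (Prod.fst '' K) = ENNReal.ofReal (volume (lev K 0)).toReal := by
    rw [ENNReal.ofReal_toReal (lev_fin hc 0), lev_zero]
  have hV : volume K = ENNReal.ofReal (∫ s in (0:ℝ)..L, (volume (lev K s)).toReal) := by
    rw [vol_cake hK hc, lint_tail hK hc hLtop le_rfl hL0]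
  calc volume (K ∩ Prod.fst ⁻¹' B) = ∫⁻ p in B, ENNReal.ofReal (chordLen K p) := vol_part hc hB
    _ ≤ (∫⁻ s in Ioi c, volume (lev K s)) + ENNReal.ofReal c * volume B :=
        part_cake hK hc hB hcI.1
    _ ≤ ENNReal.ofReal (∫ s in c..L, (volume (lev K s)).toReal)
          + ENNReal.ofReal c * (ENNReal.ofReal (x ^ 2)
            * ENNReal.ofReal (volume (lev K 0)).toReal) := by
        rw [lint_tail hK hc hLtop hcI.1 hcI.2, ← hP]
        gcongr
    _ = ENNReal.ofReal ((∫ s in c..L, (volume (lev K s)).toReal)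
          + c * (x ^ 2 * (volume (lev K 0)).toReal)) := by
        rw [← ENNReal.ofReal_mul (by positivity), ← ENNReal.ofReal_mul hcI.1,
          ← ENNReal.ofReal_add hI0 (mul_nonneg hcI.1 (by positivity))]
    _ ≤ ENNReal.ofReal ((3 * x ^ 2 - 2 * x ^ 3)
          * ∫ s in (0:ℝ)..L, (volume (lev K s)).toReal) := ENNReal.ofReal_le_ofReal hcr
    _ = ENNReal.ofReal (3 * x ^ 2 - 2 * x ^ 3) * volume K := by
        rw [ENNReal.ofReal_mul hh, hV]

end Vale.Agent.Lib.P243
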