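import Mathlib
import Vale.Agent.Lib.P243.SymModel
import Vale.Agent.Lib.P243.Family

open MeasureTheory Set Topology Module Pointwise

namespace Vale.Agent.Lib.P243

lemma gauge_preimage {X Y : Type*} [AddCommGroup X] [Module ℝ X] [AddCommGroup Y] [Module ℝ Y]
    (e : X ≃ₗ[ℝ] Y) (K : Set Y) (x : X) : gauge (e ⁻¹' K) x = gauge K (e x) := by
  rw [gauge_def, gauge_def]
  congr 1
  ext r
  simp only [Set.mem_ofPred_eq, mem_Ioi]
  constructor
  · rintro ⟨hr, hx⟩
    refine ⟨hr, ?_⟩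
    rw [mem_smul_set_iff_inv_smul_mem₀ hr.ne'] at hx ⊢
    simpa using hx
  · rintro ⟨hr, hx⟩
    refine ⟨hr, ?_⟩
    rw [mem_smul_set_iff_inv_smul_mem₀ hr.ne'] at hx ⊢
    simpa using hx

lemma map_scale {X F : Type*} [NormedAddCommGroup X] [NormedSpace ℝ X]
    [MeasurableSpace X] [BorelSpace X]
    [NormedAddCommGroup F] [NormedSpace ℝ F] [FiniteDimensional ℝ F]
    [MeasurableSpace F] [BorelSpace F] (ν : Measure X) [ν.IsAddHaarMeasure]
    (μ : Measure F) [μ.IsAddHaarMeasure] (M : X ≃L[ℝ] F) :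
    ∃ c : ENNReal, c ≠ 0 ∧ c ≠ ⊤ ∧ Measure.map M ν = c • μ := by
  have hH : (Measure.map M ν).IsAddHaarMeasure := M.isAddHaarMeasure_map _
  have heq := Measure.isAddLeftInvariant_eq_smul (Measure.map M ν) μ
  refine ⟨(Measure.addHaarScalarFactor (Measure.map M ν) μ : NNReal), ?_, ENNReal.coe_ne_top, ?_⟩
  · have := Measure.addHaarScalarFactor_pos_of_isAddHaarMeasure (Measure.map M ν) μ
    exact_mod_cast this.ne'
  · exact heq

variable {E : Type*} [NormedAddCommGroup E] [InnerProductSpace ℝ E] [FiniteDimensional ℝ E]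
  [MeasurableSpace E] [BorelSpace E]

theorem sym_direction (hE : finrank ℝ E = 3) {K : Set E} (hK : Convex ℝ K) (hc : IsCompact K)
    (hs : ∀ x ∈ K, -x ∈ K) (h0 : K ∈ 𝓝 (0 : E)) (W : Submodule ℝ E) (hW2 : finrank ℝ W = 2)
    (u : E) (hu0 : u ≠ 0)
    (hcyl : ∀ (b : W) (t : ℝ), W.orthogonalProjectionOnto ((b : E) + t • u) = b)
    (T : Set W) (hT : MeasurableSet T) :
    volume (W.orthogonalProjectionOnto '' K)
        * ∫⁻ x in K ∩ (W.orthogonalProjectionOnto ⁻¹' T), ENNReal.ofReal (1 + 2 * gauge K x)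
      ≤ 6 * volume K * volume T := by
  let M : (ℝ × ℝ) ≃L[ℝ] W := ContinuousLinearEquiv.ofFinrankEq (by rw [finrank_R2, hW2])
  let ℓ : ((ℝ × ℝ) × ℝ) →ₗ[ℝ] E :=
    (W.subtype.comp (M : (ℝ × ℝ) →ₗ[ℝ] W)).comp (LinearMap.fst ℝ (ℝ × ℝ) ℝ)
      + (LinearMap.snd ℝ (ℝ × ℝ) ℝ).smulRight u
  have hℓ : ∀ x, ℓ x = (M x.1 : E) + x.2 • u := fun x => rfl
  have hproj : ∀ x, W.orthogonalProjectionOnto (ℓ x) = M x.1 := by
    intro x
    rw [hℓ]
    exact hcyl (M x.1) x.2
  have hinj : Function.Injective ℓ := by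
    rw [← LinearMap.ker_eq_bot, LinearMap.ker_eq_bot']
    intro x hx
    have h1 : M x.1 = 0 := by rw [← hproj, hx, map_zero]
    have h2 : x.1 = 0 := by simpa using h1
    have h3 : x.2 • u = 0 := by
      have := hℓ x
      rw [hx, h1] at this
      simpa using this.symm
    have h4 : x.2 = 0 := by
      rcases smul_eq_zero.1 h3 with h | h
      · exact h
      · exact absurd h hu0
    exact Prod.ext h2 h4
  let e : ((ℝ × ℝ) × ℝ) ≃L[ℝ] E :=
    (LinearEquiv.ofInjectiveOfFinrankEq ℓ hinj (by rw [hE]; simp)).toContinuousLinearEquiv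
  have he : ∀ x, e x = ℓ x := fun x => rfl
  have hL : ∀ x, W.orthogonalProjectionOnto (e x) = M x.1 := fun x => by rw [he, hproj]
  set K' : Set ((ℝ × ℝ) × ℝ) := e ⁻¹' K with hK'
  have cK' : Convex ℝ K' := hK.linear_preimage (e : ((ℝ × ℝ) × ℝ) →ₗ[ℝ] E)
  have kK' : IsCompact K' := e.toHomeomorph.isCompact_preimage.2 hc
  have sK' : ∀ x ∈ K', -x ∈ K' := by
    intro x hx
    show e (-x) ∈ K
    rw [map_neg]
    exact hs _ hx
  have nK' : K' ∈ 𝓝 (0 : (ℝ × ℝ) × ℝ) := by
    apply e.continuous.continuousAt.preimage_mem_nhds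
    rw [map_zero]
    exact h0
  have hMT : MeasurableSet (M ⁻¹' T) := M.continuous.measurable hT
  have key := direction_bound cK' kK' sK' nK' hMT
  have p1 : Prod.fst '' K' = M ⁻¹' (W.orthogonalProjectionOnto '' K) := by
    ext p
    constructor
    · rintro ⟨x, hx, rfl⟩
      exact ⟨e x, hx, hL x⟩
    · rintro ⟨x, hx, hxe⟩
      obtain ⟨y, rfl⟩ := e.surjective x
      rw [hL] at hxe
      exact ⟨y, hx, M.injective hxe⟩
  have p2 : K' ∩ Prod.fst ⁻¹' (M ⁻¹' T) = e ⁻¹' (K ∩ W.orthogonalProjectionOnto ⁻¹' T) := by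
    ext x
    simp only [mem_inter_iff, mem_preimage, hK', hL]
  obtain ⟨c₂, c₂0, c₂t, hc₂⟩ := scale (volume : Measure W) M
  have : (volume : Measure ((ℝ × ℝ) × ℝ)).IsAddHaarMeasure := by
    rw [Measure.volume_eq_prod]; infer_instance
  obtain ⟨c, c0, ct, hcm⟩ := map_scale (volume : Measure ((ℝ × ℝ) × ℝ)) (volume : Measure E) e
  have hgc : Continuous (gauge K) := continuous_gauge hK h0
  have hwm : Measurable fun x : E => ENNReal.ofReal (1 + 2 * gauge K x) := by fun_prop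
  have hSm : MeasurableSet (K ∩ W.orthogonalProjectionOnto ⁻¹' T) :=
    hc.isClosed.measurableSet.inter (W.orthogonalProjectionOnto.continuous.measurable hT)
  have q1 : ∫⁻ x in K' ∩ Prod.fst ⁻¹' (M ⁻¹' T), ENNReal.ofReal (1 + 2 * gauge K' x)
      = c * ∫⁻ x in K ∩ W.orthogonalProjectionOnto ⁻¹' T, ENNReal.ofReal (1 + 2 * gauge K x) := by
    have g1 : ∀ x, gauge K' x = gauge K (e x) := fun x => gauge_preimage e.toLinearEquiv K x
    simp only [g1]
    rw [p2, ← setLIntegral_map hSm hwm e.continuous.measurable, hcm, Measure.restrict_smul,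
      lintegral_smul_measure, smul_eq_mul]
  have q2 : volume K' = c * volume K := by
    have h1 : Measure.map e (volume : Measure ((ℝ × ℝ) × ℝ)) K = volume K' :=
      e.toHomeomorph.toMeasurableEquiv.map_apply K
    rw [← h1, hcm]
    rfl
  rw [p1, q1, q2, hc₂, hc₂] at key
  have key' : (c₂ * c) * (volume (W.orthogonalProjectionOnto '' K)
        * ∫⁻ x in K ∩ W.orthogonalProjectionOnto ⁻¹' T, ENNReal.ofReal (1 + 2 * gauge K x))
      ≤ (c₂ * c) * (6 * volume K * volume T) := by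
    calc _ = c₂ * volume (W.orthogonalProjectionOnto '' K) * (c *
          ∫⁻ x in K ∩ W.orthogonalProjectionOnto ⁻¹' T, ENNReal.ofReal (1 + 2 * gauge K x)) := by
          ring
      _ ≤ _ := key
      _ = _ := by ring
  exact (ENNReal.mul_le_mul_iff_right (mul_ne_zero c₂0 c0) (ENNReal.mul_ne_top c₂t ct)).1 key'

omit [FiniteDimensional ℝ E] [MeasurableSpace E] [BorelSpace E] in
lemma nhds_zero_of_sym {K : Set E} (hK : Convex ℝ K) (hint : (interior K).Nonempty)
    (hs : ∀ x ∈ K, -x ∈ K) : K ∈ 𝓝 (0 : E) := by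
  obtain ⟨x, hx⟩ := hint
  have hneg : -K = K := by
    ext y
    rw [Set.mem_neg]
    constructor
    · intro h
      have := hs _ h
      rwa [neg_neg] at this
    · intro h
      exact hs _ h
  have hx' : -x ∈ interior K := by
    have h1 : (Homeomorph.neg E) ⁻¹' interior K = interior ((Homeomorph.neg E) ⁻¹' K) :=
      (Homeomorph.neg E).preimage_interior K
    have h2 : (Homeomorph.neg E) ⁻¹' K = K := by
      ext y
      show -y ∈ K ↔ y ∈ K
      rw [← Set.mem_neg, hneg]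
    rw [h2] at h1
    rw [← h1]
    show - -x ∈ interior K
    rw [neg_neg]
    exact hx
  have h0 : (0 : E) ∈ interior K := by
    have := hK.interior hx hx' (by norm_num : (0 : ℝ) ≤ 1 / 2) (by norm_num : (0 : ℝ) ≤ 1 / 2)
      (by norm_num)
    simpa using this
  exact mem_interior_iff_mem_nhds.1 h0

theorem sym_bound (hE : finrank ℝ E = 3)
    {K : Set E} (hK : Convex ℝ K) (hc : IsCompact K) (hint : (interior K).Nonempty)
    (hs : ∀ x ∈ K, -x ∈ K)
    {ι : Type*} [Fintype ι] (u : ι → E) (hu : ∀ i, ‖u i‖ = 1)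
    (B : (i : ι) → Set (ℝ ∙ u i)ᗮ)
    (hcov : ∀ x ∈ K, ∃ i, ∃ b ∈ B i, ∃ t : ℝ, x = (b : E) + t • u i) :
    5 / 12 ≤ ∑ i, volume (B i) / volume ((ℝ ∙ u i)ᗮ.orthogonalProjectionOnto '' K) := by
  have h0 := nhds_zero_of_sym hK hint hs
  have hV0 : volume K ≠ 0 :=
    ((isOpen_interior.measure_pos volume hint).trans_le (measure_mono interior_subset)).ne'
  have hVt : volume K ≠ ⊤ := hc.measure_lt_top.ne
  set T : (i : ι) → Set (ℝ ∙ u i)ᗮ := fun i => toMeasurable volume (B i) with hT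
  have hTm : ∀ i, MeasurableSet (T i) := fun i => measurableSet_toMeasurable _ _
  have hTv : ∀ i, volume (T i) = volume (B i) := fun i => measure_toMeasurable _
  set S : ι → Set E := fun i => K ∩ ((ℝ ∙ u i)ᗮ.orthogonalProjectionOnto ⁻¹' T i) with hS
  have hsub : K ⊆ ⋃ i, S i := by
    intro x hx
    obtain ⟨i, b, hb, t, rfl⟩ := hcov x hx
    refine mem_iUnion.2 ⟨i, hx, ?_⟩
    show (ℝ ∙ u i)ᗮ.orthogonalProjectionOnto ((b : E) + t • u i) ∈ T i
    rw [proj_cyl]
    exact subset_toMeasurable _ _ hb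
  have hdir : ∀ i, ∫⁻ x in S i, ENNReal.ofReal (1 + 2 * gauge K x)
      ≤ 6 * volume K * (volume (B i) / volume ((ℝ ∙ u i)ᗮ.orthogonalProjectionOnto '' K)) := by
    intro i
    have hu0 : u i ≠ 0 := by
      intro h
      have := hu i
      rw [h, norm_zero] at this
      exact zero_ne_one this
    have h1 := sym_direction hE hK hc hs h0 (ℝ ∙ u i)ᗮ (finrank_orth_unit hE (hu i)) (u i) hu0
      (proj_cyl (u i)) (T i) (hTm i)
    rw [hTv] at h1
    rw [← mul_div_assoc, ENNReal.le_div_iff_mul_le (Or.inl (proj_vol_ne_zero _ hint))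
      (Or.inl (proj_vol_ne_top _ hc)), mul_comm]
    exact h1
  have hmain : 5 / 2 * volume K ≤ 6 * volume K
      * ∑ i, volume (B i) / volume ((ℝ ∙ u i)ᗮ.orthogonalProjectionOnto '' K) := by
    calc 5 / 2 * volume K ≤ ∫⁻ x in K, ENNReal.ofReal (1 + 2 * gauge K x) :=
          gauge_mass volume hE hK hc h0
      _ ≤ ∫⁻ x in ⋃ i, S i, ENNReal.ofReal (1 + 2 * gauge K x) := lintegral_mono_set hsub
      _ ≤ ∑' i, ∫⁻ x in S i, ENNReal.ofReal (1 + 2 * gauge K x) := lintegral_iUnion_le _ _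
      _ = ∑ i, ∫⁻ x in S i, ENNReal.ofReal (1 + 2 * gauge K x) := tsum_fintype _
      _ ≤ ∑ i, 6 * volume K
            * (volume (B i) / volume ((ℝ ∙ u i)ᗮ.orthogonalProjectionOnto '' K)) :=
          Finset.sum_le_sum (fun i _ => hdir i)
      _ = _ := by rw [Finset.mul_sum]
  have h6 : (6 : ENNReal) * volume K ≠ 0 := mul_ne_zero (by norm_num) hV0
  have h6t : (6 : ENNReal) * volume K ≠ ⊤ := ENNReal.mul_ne_top (by finiteness) hVt
  have e1 : (5 : ENNReal) / 2 * volume K = 6 * volume K * (5 / 12) := by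
    have : (5 : ENNReal) / 2 = 6 * (5 / 12) := by
      rw [← ENNReal.toReal_eq_toReal_iff' (by finiteness) (by finiteness)]
      simp
      norm_num
    rw [this]
    ring
  rw [e1] at hmain
  exact (ENNReal.mul_le_mul_iff_right h6 h6t).1 hmain

end Vale.Agent.Lib.P243
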