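import Mathlib
import Vale.Agent.Lib.P243.RefModel
import Vale.Agent.Lib.P243.SymGlue

open MeasureTheory Set Topology Module Pointwise

namespace Vale.Agent.Lib.P243

variable {E : Type*} [NormedAddCommGroup E] [InnerProductSpace ℝ E] [FiniteDimensional ℝ E]
  [MeasurableSpace E] [BorelSpace E]

/-- the key lemma in a Euclidean 3-space, for the direction `u`. -/
theorem ref_direction (hE : finrank ℝ E = 3) {K : Set E} (hK : Convex ℝ K) (hc : IsCompact K)
    (hne : K.Nonempty) (W : Submodule ℝ E) (hW2 : finrank ℝ W = 2)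
    (u : E) (hu0 : u ≠ 0)
    (hcyl : ∀ (b : W) (t : ℝ), W.orthogonalProjectionOnto ((b : E) + t • u) = b)
    (T : Set W) (hT : MeasurableSet T) {x : ℝ} (hx0 : 0 ≤ x) (hx1 : x ≤ 1)
    (hvol : volume T ≤ ENNReal.ofReal (x ^ 2) * volume (W.orthogonalProjectionOnto '' K)) :
    volume (K ∩ (W.orthogonalProjectionOnto ⁻¹' T))
      ≤ ENNReal.ofReal (3 * x ^ 2 - 2 * x ^ 3) * volume K := by
  let M : (ℝ × ℝ) ≃L[ℝ] W := ContinuousLinearEquiv.ofFinrankEq (by rw [finrank_R2, hW2])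
  let ℓ : ((ℝ × ℝ) × ℝ) →ₗ[ℝ] E :=
    (W.subtype.comp (M : (ℝ × ℝ) →ₗ[ℝ] W)).comp (LinearMap.fst ℝ (ℝ × ℝ) ℝ)
      + (LinearMap.snd ℝ (ℝ × ℝ) ℝ).smulRight u
  have hℓ : ∀ x, ℓ x = (M x.1 : E) + x.2 • u := fun x => rfl
  have hproj : ∀ x, W.orthogonalProjectionOnto (ℓ x) = M x.1 := by
    intro x
    rw [hℓ]
    exact hcyl (M x.1) x.2
  have hinj : Function.Injective ℓ := by
    rw [← LinearMap.ker_eq_bot, LinearMap.ker_eq_bot']
    intro x hx
    have h1 : M x.1 = 0 := by rw [← hproj, hx, map_zero]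
    have h2 : x.1 = 0 := by simpa using h1
    have h3 : x.2 • u = 0 := by
      have := hℓ x
      rw [hx, h1] at this
      simpa using this.symm
    have h4 : x.2 = 0 := by
      rcases smul_eq_zero.1 h3 with h | h
      · exact h
      · exact absurd h hu0
    exact Prod.ext h2 h4
  let e : ((ℝ × ℝ) × ℝ) ≃L[ℝ] E :=
    (LinearEquiv.ofInjectiveOfFinrankEq ℓ hinj (by rw [hE]; simp)).toContinuousLinearEquiv
  have he : ∀ x, e x = ℓ x := fun x => rfl
  have hL : ∀ x, W.orthogonalProjectionOnto (e x) = M x.1 := fun x => by rw [he, hproj]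
  set K' : Set ((ℝ × ℝ) × ℝ) := e ⁻¹' K with hK'
  have cK' : Convex ℝ K' := hK.linear_preimage (e : ((ℝ × ℝ) × ℝ) →ₗ[ℝ] E)
  have kK' : IsCompact K' := e.toHomeomorph.isCompact_preimage.2 hc
  have nK' : K'.Nonempty := by
    obtain ⟨y, hy⟩ := hne
    obtain ⟨z, rfl⟩ := e.surjective y
    exact ⟨z, hy⟩
  have hMT : MeasurableSet (M ⁻¹' T) := M.continuous.measurable hT
  have p1 : Prod.fst '' K' = M ⁻¹' (W.orthogonalProjectionOnto '' K) := by
    ext p
    constructor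
    · rintro ⟨x, hx, rfl⟩
      exact ⟨e x, hx, hL x⟩
    · rintro ⟨x, hx, hxe⟩
      obtain ⟨y, rfl⟩ := e.surjective x
      rw [hL] at hxe
      exact ⟨y, hx, M.injective hxe⟩
  have p2 : K' ∩ Prod.fst ⁻¹' (M ⁻¹' T) = e ⁻¹' (K ∩ W.orthogonalProjectionOnto ⁻¹' T) := by
    ext x
    simp only [mem_inter_iff, mem_preimage, hK', hL]
  obtain ⟨c₂, c₂0, c₂t, hc₂⟩ := scale (volume : Measure W) M
  have : (volume : Measure ((ℝ × ℝ) × ℝ)).IsAddHaarMeasure := by
    rw [Measure.volume_eq_prod]; infer_instance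
  obtain ⟨c, c0, ct, hcm⟩ := map_scale (volume : Measure ((ℝ × ℝ) × ℝ)) (volume : Measure E) e
  have q : ∀ S : Set E, volume (e ⁻¹' S) = c * volume S := by
    intro S
    have h1 : Measure.map e (volume : Measure ((ℝ × ℝ) × ℝ)) S = volume (e ⁻¹' S) :=
      e.toHomeomorph.toMeasurableEquiv.map_apply S
    rw [← h1, hcm]
    rfl
  have hvol' : volume (M ⁻¹' T) ≤ ENNReal.ofReal (x ^ 2) * volume (Prod.fst '' K') := by
    rw [p1, hc₂, hc₂]
    calc c₂ * volume T ≤ c₂ * (ENNReal.ofReal (x ^ 2)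
          * volume (W.orthogonalProjectionOnto '' K)) := by gcongr
      _ = _ := by ring
  have key := ref_model cK' kK' nK' hMT hx0 hx1 hvol'
  rw [p2, q, hK', q] at key
  have key' : c * volume (K ∩ W.orthogonalProjectionOnto ⁻¹' T)
      ≤ c * (ENNReal.ofReal (3 * x ^ 2 - 2 * x ^ 3) * volume K) := by
    calc _ ≤ _ := key
      _ = _ := by ring
  exact (ENNReal.mul_le_mul_iff_right c0 ct).1 key'

/-- **The refined covering inequality**, for all convex bodies and all finite cylinder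
coverings. -/
theorem ref_bound (hE : finrank ℝ E = 3)
    {K : Set E} (hK : Convex ℝ K) (hc : IsCompact K) (hint : (interior K).Nonempty)
    {ι : Type*} [Fintype ι] (u : ι → E) (hu : ∀ i, ‖u i‖ = 1)
    (B : (i : ι) → Set (ℝ ∙ u i)ᗮ)
    (hcov : ∀ x ∈ K, ∃ i, ∃ b ∈ B i, ∃ t : ℝ, x = (b : E) + t • u i) :
    1 + 2 * ∑ i, (min 1 (volume (B i) / volume ((ℝ ∙ u i)ᗮ.orthogonalProjectionOnto '' K)))
        ^ (3 / 2 : ℝ)
      ≤ 3 * ∑ i, volume (B i) / volume ((ℝ ∙ u i)ᗮ.orthogonalProjectionOnto '' K) := by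
  have hne : K.Nonempty := hint.mono interior_subset
  have hV0 : volume K ≠ 0 :=
    ((isOpen_interior.measure_pos volume hint).trans_le (measure_mono interior_subset)).ne'
  have hVt : volume K ≠ ⊤ := hc.measure_lt_top.ne
  set P : (i : ι) → Set (ℝ ∙ u i)ᗮ := fun i => (ℝ ∙ u i)ᗮ.orthogonalProjectionOnto '' K with hP
  have hPm : ∀ i, MeasurableSet (P i) := fun i =>
    (hc.image (ℝ ∙ u i)ᗮ.orthogonalProjectionOnto.continuous).isClosed.measurableSet
  have hP0 : ∀ i, volume (P i) ≠ 0 := fun i => proj_vol_ne_zero _ hint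
  have hPt : ∀ i, volume (P i) ≠ ⊤ := fun i => proj_vol_ne_top _ hc
  set β : ι → ENNReal := fun i => volume (B i) / volume (P i) with hβ
  set μ : ι → ENNReal := fun i => min 1 (β i) with hμ
  have hμ1 : ∀ i, μ i ≤ 1 := fun i => min_le_left _ _
  have hμt : ∀ i, μ i ≠ ⊤ := fun i => ((hμ1 i).trans_lt ENNReal.one_lt_top).ne
  set x : ι → ℝ := fun i => √(μ i).toReal with hx
  have hx0 : ∀ i, 0 ≤ x i := fun i => Real.sqrt_nonneg _
  have hxsq : ∀ i, x i ^ 2 = (μ i).toReal := fun i => Real.sq_sqrt ENNReal.toReal_nonneg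
  have hx1 : ∀ i, x i ≤ 1 := by
    intro i
    have h1 : (μ i).toReal ≤ 1 := by
      have := ENNReal.toReal_mono ENNReal.one_ne_top (hμ1 i)
      simpa using this
    calc x i ≤ √1 := Real.sqrt_le_sqrt h1
      _ = 1 := Real.sqrt_one
  have hofx : ∀ i, ENNReal.ofReal (x i ^ 2) = μ i := fun i => by
    rw [hxsq, ENNReal.ofReal_toReal (hμt i)]
  have hofx3 : ∀ i, ENNReal.ofReal (x i ^ 3) = μ i ^ (3 / 2 : ℝ) := by
    intro i
    rw [← hofx i, ENNReal.ofReal_rpow_of_nonneg (by positivity) (by norm_num)]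
    congr 1
    rw [← Real.rpow_natCast (x i) 2, ← Real.rpow_mul (hx0 i), ← Real.rpow_natCast (x i) 3]
    norm_num
  set T : (i : ι) → Set (ℝ ∙ u i)ᗮ := fun i => toMeasurable volume (B i) ∩ P i with hT
  have hTm : ∀ i, MeasurableSet (T i) := fun i => (measurableSet_toMeasurable _ _).inter (hPm i)
  have hTv : ∀ i, volume (T i) ≤ ENNReal.ofReal (x i ^ 2) * volume (P i) := by
    intro i
    rw [hofx i, hμ]
    simp only
    rcases le_total 1 (β i) with h | h
    · rw [min_eq_left h, one_mul]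
      exact measure_mono inter_subset_right
    · rw [min_eq_right h, hβ]
      simp only
      rw [ENNReal.div_mul_cancel (hP0 i) (hPt i)]
      calc volume (T i) ≤ volume (toMeasurable volume (B i)) := measure_mono inter_subset_left
        _ = volume (B i) := measure_toMeasurable _
  set S : ι → Set E := fun i => K ∩ ((ℝ ∙ u i)ᗮ.orthogonalProjectionOnto ⁻¹' T i) with hS
  have hsub : K ⊆ ⋃ i, S i := by
    intro y hy
    obtain ⟨i, b, hb, t, hyb⟩ := hcov y hy
    refine mem_iUnion.2 ⟨i, hy, ?_, ⟨y, hy, rfl⟩⟩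
    show (ℝ ∙ u i)ᗮ.orthogonalProjectionOnto y ∈ toMeasurable volume (B i)
    rw [hyb, proj_cyl]
    exact subset_toMeasurable _ _ hb
  have hdir : ∀ i, volume (S i) ≤ ENNReal.ofReal (3 * x i ^ 2 - 2 * x i ^ 3) * volume K := by
    intro i
    have hu0 : u i ≠ 0 := by
      intro h
      have := hu i
      rw [h, norm_zero] at this
      exact zero_ne_one this
    exact ref_direction hE hK hc hne (ℝ ∙ u i)ᗮ (finrank_orth_unit hE (hu i)) (u i) hu0
      (proj_cyl (u i)) (T i) (hTm i) (hx0 i) (hx1 i) (hTv i)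
  have hmain : 1 * volume K ≤ (∑ i, ENNReal.ofReal (3 * x i ^ 2 - 2 * x i ^ 3)) * volume K := by
    calc 1 * volume K = volume K := one_mul _
      _ ≤ volume (⋃ i, S i) := measure_mono hsub
      _ ≤ ∑ i, volume (S i) := measure_iUnion_fintype_le _ _
      _ ≤ ∑ i, ENNReal.ofReal (3 * x i ^ 2 - 2 * x i ^ 3) * volume K :=
          Finset.sum_le_sum (fun i _ => hdir i)
      _ = _ := by rw [Finset.sum_mul]
  have hone : 1 ≤ ∑ i, ENNReal.ofReal (3 * x i ^ 2 - 2 * x i ^ 3) :=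
    (ENNReal.mul_le_mul_iff_left hV0 hVt).1 hmain
  have hterm : ∀ i, ENNReal.ofReal (3 * x i ^ 2 - 2 * x i ^ 3) + 2 * μ i ^ (3 / 2 : ℝ)
      = 3 * μ i := by
    intro i
    have hh : 0 ≤ 3 * x i ^ 2 - 2 * x i ^ 3 := by nlinarith [sq_nonneg (x i), hx0 i, hx1 i]
    rw [← hofx3 i, ← hofx i, show (2 : ENNReal) = ENNReal.ofReal 2 by simp,
      show (3 : ENNReal) = ENNReal.ofReal 3 by simp, ← ENNReal.ofReal_mul (by norm_num),
      ← ENNReal.ofReal_mul (by norm_num), ← ENNReal.ofReal_add hh (by have := hx0 i; positivity)]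
    congr 1
    ring
  calc 1 + 2 * ∑ i, μ i ^ (3 / 2 : ℝ)
      ≤ (∑ i, ENNReal.ofReal (3 * x i ^ 2 - 2 * x i ^ 3)) + 2 * ∑ i, μ i ^ (3 / 2 : ℝ) := by
        gcongr
    _ = ∑ i, 3 * μ i := by
        rw [Finset.mul_sum, ← Finset.sum_add_distrib]
        exact Finset.sum_congr rfl (fun i _ => hterm i)
    _ ≤ ∑ i, 3 * β i := Finset.sum_le_sum (fun i _ => by
        have : μ i ≤ β i := min_le_right _ _
        gcongr)
    _ = 3 * ∑ i, β i := by rw [Finset.mul_sum]

end Vale.Agent.Lib.P243
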