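import Mathlib
import Vale.Agent.Lib.P243.RefGlue
import Vale.Agent.Lib.P243.Coro

open MeasureTheory Set Topology Module Pointwise

namespace Vale.Agent.Lib.P243

variable {E : Type*} [NormedAddCommGroup E] [InnerProductSpace ℝ E] [FiniteDimensional ℝ E]
  [MeasurableSpace E] [BorelSpace E]

/-- transport of a set between two equal subspaces. -/
def tr (V V' : Submodule ℝ E) (B : Set V) : Set V' := {b' | ∃ b ∈ B, (b : E) = (b' : E)}

lemma tr_vol {V V' : Submodule ℝ E}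
    (h : V = V') (B : Set V) : volume (tr V V' B) = volume B := by
  subst h
  congr 1
  ext b'
  constructor
  · rintro ⟨b, hb, hbb⟩
    rwa [← Subtype.ext hbb]
  · intro hb
    exact ⟨b', hb, rfl⟩

/-- The consequences of the refined inequality in terms of the number of axis directions. -/
theorem ref_directions (hE : finrank ℝ E = 3)
    {K : Set E} (hK : Convex ℝ K) (hc : IsCompact K) (hint : (interior K).Nonempty)
    {ι : Type*} [Fintype ι] (u : ι → E) (hu : ∀ i, ‖u i‖ = 1)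
    (B : (i : ι) → Set (ℝ ∙ u i)ᗮ)
    (hcov : ∀ x ∈ K, ∃ i, ∃ b ∈ B i, ∃ t : ℝ, x = (b : E) + t • u i)
    {κ : Type*} [Fintype κ] (d : ι → κ) (hd : Function.Surjective d)
    (hline : ∀ i j, d i = d j → ℝ ∙ u i = ℝ ∙ u j) :
    ENNReal.ofReal (1 / 3 + 2 / (9 * √(3 * (Fintype.card κ : ℝ))))
        ≤ ∑ i, volume (B i) / volume ((ℝ ∙ u i)ᗮ.orthogonalProjectionOnto '' K) ∧
    (Fintype.card κ ≤ 2 →
      1 / 2 ≤ ∑ i, volume (B i) / volume ((ℝ ∙ u i)ᗮ.orthogonalProjectionOnto '' K)) ∧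
    (Fintype.card κ ≤ 3 →
      4 / 9 ≤ ∑ i, volume (B i) / volume ((ℝ ∙ u i)ᗮ.orthogonalProjectionOnto '' K)) := by
  classical
  choose r hr using hd
  have hpl : ∀ i, (ℝ ∙ u i)ᗮ = (ℝ ∙ u (r (d i)))ᗮ := fun i => by
    rw [hline i (r (d i)) (hr (d i)).symm]
  set B' : (k : κ) → Set (ℝ ∙ u (r k))ᗮ := fun k =>
    ⋃ i : {i : ι // d i = k}, tr (ℝ ∙ u i.1)ᗮ (ℝ ∙ u (r k))ᗮ (B i.1) with hB'
  have hcov' : ∀ x ∈ K, ∃ k, ∃ b ∈ B' k, ∃ t : ℝ, x = (b : E) + t • u (r k) := by
    intro x hx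
    obtain ⟨i, b, hb, t, hxb⟩ := hcov x hx
    have hmem : (b : E) ∈ (ℝ ∙ u (r (d i)))ᗮ := by
      rw [← hpl i]
      exact b.2
    have hui : u i ∈ ℝ ∙ u (r (d i)) := by
      rw [← hline i (r (d i)) (hr (d i)).symm]
      exact Submodule.mem_span_singleton_self _
    obtain ⟨c, hc'⟩ := Submodule.mem_span_singleton.1 hui
    refine ⟨d i, ⟨b, hmem⟩, mem_iUnion.2 ⟨⟨i, rfl⟩, b, hb, rfl⟩, t * c, ?_⟩
    have e1 : t • u i = (t * c) • u (r (d i)) := by rw [mul_smul, hc']
    rw [hxb, e1]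
  have hle : ∑ k, volume (B' k) / volume ((ℝ ∙ u (r k))ᗮ.orthogonalProjectionOnto '' K)
      ≤ ∑ i, volume (B i) / volume ((ℝ ∙ u i)ᗮ.orthogonalProjectionOnto '' K) := by
    rw [← Finset.sum_fiberwise (s := Finset.univ) (g := d)
      (f := fun i => volume (B i) / volume ((ℝ ∙ u i)ᗮ.orthogonalProjectionOnto '' K))]
    refine Finset.sum_le_sum (fun k _ => ?_)
    have h1 : volume (B' k) ≤ ∑ i : {i : ι // d i = k}, volume (B i.1) := by
      calc volume (B' k)
          ≤ ∑ i : {i : ι // d i = k}, volume (tr (ℝ ∙ u i.1)ᗮ (ℝ ∙ u (r k))ᗮ (B i.1)) :=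
            measure_iUnion_fintype_le _ _
        _ = ∑ i : {i : ι // d i = k}, volume (B i.1) := by
            refine Finset.sum_congr rfl (fun i _ => ?_)
            apply tr_vol
            rw [hline i.1 (r k) (by rw [i.2, hr k])]
    calc volume (B' k) / volume ((ℝ ∙ u (r k))ᗮ.orthogonalProjectionOnto '' K)
        ≤ (∑ i : {i : ι // d i = k}, volume (B i.1))
            / volume ((ℝ ∙ u (r k))ᗮ.orthogonalProjectionOnto '' K) :=
          ENNReal.div_le_div_right h1 _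
      _ = ∑ i : {i : ι // d i = k}, volume (B i.1)
            / volume ((ℝ ∙ u (r k))ᗮ.orthogonalProjectionOnto '' K) := by
          simp only [div_eq_mul_inv, Finset.sum_mul]
      _ = ∑ i : {i : ι // d i = k}, volume (B i.1)
            / volume ((ℝ ∙ u i.1)ᗮ.orthogonalProjectionOnto '' K) := by
          refine Finset.sum_congr rfl (fun i _ => ?_)
          congr 1
          apply proj_vol_eq
          rw [hline i.1 (r k) (by rw [i.2, hr k])]
      _ = ∑ i ∈ Finset.univ with d i = k, volume (B i)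
            / volume ((ℝ ∙ u i)ᗮ.orthogonalProjectionOnto '' K) := by
          rw [Finset.sum_subtype (Finset.univ.filter (fun i => d i = k))
            (p := fun i => d i = k) (by simp)]
  have main := ref_bound hE hK hc hint (fun k => u (r k)) (fun k => hu (r k)) B' hcov'
  obtain ⟨c1, c2, c3⟩ := coro _ main
  exact ⟨c1.trans hle, fun h => (c2 h).trans hle, fun h => (c3 h).trans hle⟩

/-- from the directionwise relative form to the absolute form. -/
theorem abs_of_rel {K : Set E} (hc : IsCompact K) (hint : (interior K).Nonempty)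
    {ι : Type*} [Fintype ι] (u : ι → E) (hu : ∀ i, ‖u i‖ = 1)
    (B : (i : ι) → Set (ℝ ∙ u i)ᗮ)
    (hcov : ∀ x ∈ K, ∃ i, ∃ b ∈ B i, ∃ t : ℝ, x = (b : E) + t • u i) {c : ENNReal}
    (h1 : c ≤ ∑ i, volume (B i) / volume ((ℝ ∙ u i)ᗮ.orthogonalProjectionOnto '' K)) :
    c * (⨅ n : {n : E // ‖n‖ = 1}, volume ((ℝ ∙ n.1)ᗮ.orthogonalProjectionOnto '' K))
      ≤ ∑ i, volume (B i) := by
  set A : ENNReal :=
    ⨅ n : {n : E // ‖n‖ = 1}, volume ((ℝ ∙ n.1)ᗮ.orthogonalProjectionOnto '' K) with hA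
  have hAle : ∀ i, A ≤ volume ((ℝ ∙ u i)ᗮ.orthogonalProjectionOnto '' K) := by
    intro i
    exact iInf_le (fun n : {n : E // ‖n‖ = 1} =>
      volume ((ℝ ∙ n.1)ᗮ.orthogonalProjectionOnto '' K)) ⟨u i, hu i⟩
  have hAtop : A ≠ ⊤ := by
    obtain ⟨x, hx⟩ := hint
    obtain ⟨i, _⟩ := hcov x (interior_subset hx)
    exact ne_top_of_le_ne_top (proj_vol_ne_top _ hc) (hAle i)
  by_cases hA0 : A = 0
  · rw [hA0]; simp
  have h2 : c ≤ (∑ i, volume (B i)) / A := by
    calc c ≤ _ := h1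
      _ ≤ ∑ i, volume (B i) / A := by
          apply Finset.sum_le_sum
          intro i _
          exact ENNReal.div_le_div_left (hAle i) _
      _ = (∑ i, volume (B i)) / A := by
          simp only [div_eq_mul_inv, Finset.sum_mul]
  rwa [ENNReal.le_div_iff_mul_le (Or.inl hA0) (Or.inl hAtop)] at h2

end Vale.Agent.Lib.P243
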