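import Mathlib
import Vale.Agent.Lib.P243.SymGlue

open MeasureTheory Set Topology Module Pointwise

namespace Vale.Agent.Lib.P243

variable {E : Type*} [NormedAddCommGroup E] [InnerProductSpace ℝ E] [FiniteDimensional ℝ E]
  [MeasurableSpace E] [BorelSpace E]

lemma exists_cyl (u : E) (x : E) :
    ∃ t : ℝ, x = (((ℝ ∙ u)ᗮ.orthogonalProjectionOnto x : (ℝ ∙ u)ᗮ) : E) + t • u := by
  have h1 : x - (((ℝ ∙ u)ᗮ.orthogonalProjectionOnto x : (ℝ ∙ u)ᗮ) : E) ∈ (ℝ ∙ u)ᗮᗮ :=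
    Submodule.sub_starProjection_mem_orthogonal x
  rw [Submodule.orthogonal_orthogonal, Submodule.mem_span_singleton] at h1
  obtain ⟨t, ht⟩ := h1
  exact ⟨t, by rw [ht]; abel⟩

/-- the bound `5/12` for bodies symmetric about an arbitrary centre `c`. -/
theorem sym_bound_center (hE : finrank ℝ E = 3)
    {K : Set E} (hK : Convex ℝ K) (hc : IsCompact K) (hint : (interior K).Nonempty)
    (c : E) (hs : ∀ x ∈ K, c + c - x ∈ K)
    {ι : Type*} [Fintype ι] (u : ι → E) (hu : ∀ i, ‖u i‖ = 1)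
    (B : (i : ι) → Set (ℝ ∙ u i)ᗮ)
    (hcov : ∀ x ∈ K, ∃ i, ∃ b ∈ B i, ∃ t : ℝ, x = (b : E) + t • u i) :
    5 / 12 ≤ ∑ i, volume (B i) / volume ((ℝ ∙ u i)ᗮ.orthogonalProjectionOnto '' K) := by
  set K0 : Set E := (fun x => x + c) ⁻¹' K with hK0
  have cK0 : Convex ℝ K0 := hK.translate_preimage_left c
  have kK0 : IsCompact K0 := (Homeomorph.addRight c).isCompact_preimage.2 hc
  have iK0 : (interior K0).Nonempty := by
    have : interior K0 = (Homeomorph.addRight c) ⁻¹' interior K :=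
      ((Homeomorph.addRight c).preimage_interior K).symm
    rw [this]
    obtain ⟨x, hx⟩ := hint
    exact ⟨x - c, by simpa using hx⟩
  have sK0 : ∀ x ∈ K0, -x ∈ K0 := by
    intro x hx
    have := hs _ hx
    show -x + c ∈ K
    have e : -x + c = c + c - (x + c) := by abel
    rw [e]
    exact this
  set B0 : (i : ι) → Set (ℝ ∙ u i)ᗮ :=
    fun i => (fun y => y + (ℝ ∙ u i)ᗮ.orthogonalProjectionOnto c) ⁻¹' B i with hB0
  have key := sym_bound hE cK0 kK0 iK0 sK0 u hu B0 (by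
    intro x hx
    obtain ⟨i, b, hb, t, hbt⟩ := hcov _ hx
    obtain ⟨s, hs'⟩ := exists_cyl (u i) x
    refine ⟨i, _, ?_, s, hs'⟩
    show (ℝ ∙ u i)ᗮ.orthogonalProjectionOnto x + (ℝ ∙ u i)ᗮ.orthogonalProjectionOnto c ∈ B i
    have hbt' : x + c = (b : E) + t • u i := hbt
    rw [← map_add, hbt', proj_cyl]
    exact hb)
  have e1 : ∀ i, volume (B0 i) = volume (B i) := fun i => measure_preimage_add_right _ _ _
  have e2 : ∀ i, volume ((ℝ ∙ u i)ᗮ.orthogonalProjectionOnto '' K0)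
      = volume ((ℝ ∙ u i)ᗮ.orthogonalProjectionOnto '' K) := by
    intro i
    have : (ℝ ∙ u i)ᗮ.orthogonalProjectionOnto '' K0
        = (fun y => y + (ℝ ∙ u i)ᗮ.orthogonalProjectionOnto c) ⁻¹'
          ((ℝ ∙ u i)ᗮ.orthogonalProjectionOnto '' K) := by
      ext y
      constructor
      · rintro ⟨x, hx, rfl⟩
        exact ⟨x + c, hx, map_add _ _ _⟩
      · rintro ⟨z, hz, hzy⟩
        refine ⟨z - c, ?_, ?_⟩
        · show z - c + c ∈ K
          rw [sub_add_cancel]; exact hz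
        · rw [map_sub, hzy, add_sub_cancel_right]
    rw [this, measure_preimage_add_right]
  simp only [e1, e2] at key
  exact key

/-- the absolute form. -/
theorem sym_bang_center (hE : finrank ℝ E = 3)
    {K : Set E} (hK : Convex ℝ K) (hc : IsCompact K) (hint : (interior K).Nonempty)
    (c : E) (hs : ∀ x ∈ K, c + c - x ∈ K)
    {ι : Type*} [Fintype ι] (u : ι → E) (hu : ∀ i, ‖u i‖ = 1)
    (B : (i : ι) → Set (ℝ ∙ u i)ᗮ)
    (hcov : ∀ x ∈ K, ∃ i, ∃ b ∈ B i, ∃ t : ℝ, x = (b : E) + t • u i) :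
    5 / 12 * (⨅ n : {n : E // ‖n‖ = 1}, volume ((ℝ ∙ n.1)ᗮ.orthogonalProjectionOnto '' K))
      ≤ ∑ i, volume (B i) := by
  set A : ENNReal :=
    ⨅ n : {n : E // ‖n‖ = 1}, volume ((ℝ ∙ n.1)ᗮ.orthogonalProjectionOnto '' K) with hA
  have h1 := sym_bound_center hE hK hc hint c hs u hu B hcov
  have hAle : ∀ i, A ≤ volume ((ℝ ∙ u i)ᗮ.orthogonalProjectionOnto '' K) := by
    intro i
    exact iInf_le (fun n : {n : E // ‖n‖ = 1} =>
      volume ((ℝ ∙ n.1)ᗮ.orthogonalProjectionOnto '' K)) ⟨u i, hu i⟩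
  have hAtop : A ≠ ⊤ := by
    obtain ⟨x, hx⟩ := hint
    obtain ⟨i, _⟩ := hcov x (interior_subset hx)
    exact ne_top_of_le_ne_top (proj_vol_ne_top _ hc) (hAle i)
  by_cases hA0 : A = 0
  · rw [hA0]; simp
  have h2 : (5 : ENNReal) / 12 ≤ (∑ i, volume (B i)) / A := by
    calc (5 : ENNReal) / 12 ≤ _ := h1
      _ ≤ ∑ i, volume (B i) / A := by
          apply Finset.sum_le_sum
          intro i _
          exact ENNReal.div_le_div_left (hAle i) _
      _ = (∑ i, volume (B i)) / A := by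
          simp only [div_eq_mul_inv, Finset.sum_mul]
  rwa [ENNReal.le_div_iff_mul_le (Or.inl hA0) (Or.inl hAtop)] at h2

end Vale.Agent.Lib.P243
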